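import Vale.Agent.P146.Gf

/-! P146: the cavity comparison chain. -/

open MeasureTheory ProbabilityTheory Real P157 Function
open scoped BigOperators Matrix

namespace Vale.Agent.P146

noncomputable section

variable {n : ℕ} {lam c s a κ : ℝ}

abbrev uu (a : ℝ) (ω : Om n) : XS n := cb a (ω 0) (ω 1)
abbrev vv (a : ℝ) (ω : Om n) : XS n := cb a (ω 0) (ω 2)
abbrev zr (x : XS n) : XS n := mix row x 0
abbrev wt (lam c s : ℝ) (x t : XS n) : ℝ := AA lam (c • x + s • t) ⬝ᵥ MM lam c s x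
abbrev mm (lam c s : ℝ) (x y : XS n) : ℝ := MM lam c s x ⬝ᵥ MM lam c s y

def TT (n : ℕ) (lam c s a : ℝ) : ℝ := ∫ ω, mm lam c s (uu a ω) (vv a ω) *
  mm lam c s (uu a ω) (uu a ω) * mm lam c s (vv a ω) (vv a ω) ∂PP n
def WH (lam c s a : ℝ) (ω : Om n) : ℝ :=
  wt lam c s (zr (uu a ω)) (ω 6) * wt lam c s (zr (vv a ω)) (ω 7)
def WP (lam c s a : ℝ) (ω : Om n) : ℝ :=
  mm lam c s (zr (uu a ω)) (zr (vv a ω)) * mm lam c s (zr (vv a ω)) (zr (vv a ω))

theorem b_WH : B1 (WH (n := n) lam c s a) 1 :=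
  (b_AM (by fun_prop) (by fun_prop)).mul1 (b_AM (by fun_prop) (by fun_prop))
theorem b_WP : B1 (WP (n := n) lam c s a) 1 :=
  (b_MM (by fun_prop) (by fun_prop)).mul1 (b_MM (by fun_prop) (by fun_prop))
theorem WP_nn (ω : Om n) : 0 ≤ WP lam c s a ω :=
  mul_nonneg ((cvx_MM _).nn (cvx_MM _)) (dot_self_nn _)

theorem avg {W F G : Om n → ℝ} {x B : Om n → XS n} {K : ℝ} (l : Fin 8) (hW : B1 W K)
    (cx : Continuous x) (cB : Continuous B) (hB : ∀ ω, B ω ⬝ᵥ B ω ≤ 1)
    (iW : ∀ ω t, W (update ω l t) = W ω) (ix : ∀ ω t, x (update ω l t) = x ω)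
    (iB : ∀ ω t, B (update ω l t) = B ω)
    (hF : ∀ ω, F ω = W ω * (AA lam (c • x ω + s • ω l) ⬝ᵥ B ω))
    (hG : ∀ ω, G ω = W ω * (MM lam c s (x ω) ⬝ᵥ B ω)) : ∫ ω, F ω ∂PP n = ∫ ω, G ω ∂PP n := by
  simp only [hF, hG]
  rw [res1 l (hW.mul (b_A (by fun_prop) cB hB))]
  simp only [iW, ix, iB, update_self, integral_const_mul, MM_dot]

theorem wt_cl (hp : Par lam c s a κ) {k l : Fin 8} (h0k : 0 ≠ k) (h0l : 0 ≠ l) (hkl : k ≠ l) :
    ∫ ω, |wt lam c s (cb a (ω 0) (ω k)) (ω l) - wt lam c s (zr (cb a (ω 0) (ω k))) (ω l)| ∂PP n ≤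
      e2 n lam s κ + e2 n lam s κ := by
  have h1 := rrA hp l (mp_cb (n := n) a h0k) (B := fun ω => MM lam c s (cb a (ω 0) (ω k)))
    (by fun_prop) (by fun_prop) (fun _ => (cvx_MM _).nrm)
    (fun ω t => by simp only [update_of_ne h0l, update_of_ne hkl])
    (fun ω t => by simp only [update_of_ne h0l, update_of_ne hkl])
  have h2 := rrM hp (mp_cb (n := n) a h0k)
    (B := fun ω => AA lam (c • zr (cb a (ω 0) (ω k)) + s • ω l))
    (by fun_prop) (by fun_prop) (fun _ => (cvx_AA _).nrm)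
  simp only [dotProduct_comm (MM _ _ _ _)] at h2
  exact tri (b_AM (by fun_prop) (by fun_prop)) (b_AM (by fun_prop) (by fun_prop))
    (b_AM (by fun_prop) (by fun_prop)) h1 h2

theorem mm_cl (hp : Par lam c s a κ) {U U' : Om n → XS n}
    (hU : MeasurePreserving U (PP n) (gp (Ix n))) (hU' : MeasurePreserving U' (PP n) (gp (Ix n)))
    (cU : Continuous U) (cU' : Continuous U') :
    ∫ ω, |mm lam c s (zr (U ω)) (zr (U' ω)) - mm lam c s (U ω) (U' ω)| ∂PP n ≤
      e2 n lam s κ + e2 n lam s κ := by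
  have h1 := rrM hp hU (B := fun ω => MM lam c s (U' ω)) cU (by fun_prop) fun _ => (cvx_MM _).nrm
  have h2 := rrM hp hU' (B := fun ω => MM lam c s (zr (U ω))) cU' (by fun_prop)
    fun _ => (cvx_MM _).nrm
  simp only [dotProduct_comm _ (MM lam c s (zr (U _)))] at h2
  exact symm_le (tri (b_MM (by fun_prop) (by fun_prop)) (b_MM (by fun_prop) (by fun_prop))
    (b_MM (by fun_prop) (by fun_prop)) h1 h2)

section sy
variable {k : XS n} {pm : Equiv.Perm (Ix n)} {ϖ : Equiv.Perm (Cf n)}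

theorem sy_cb (x y : XS n) : cb a (sy k pm x) (sy k pm y) = sy k pm (cb a x y) :=
  (sy_lin _ _ _ _).symm

theorem Sy.wt (h : Sy k pm ϖ) (x t : XS n) :
    wt lam c s (sy k pm x) (sy k pm t) = wt lam c s x t := by
  simp only [P146.wt, ← sy_lin, h.AA, h.MM, h.dot]

theorem Sy.mm (h : Sy k pm ϖ) (x y : XS n) :
    mm lam c s (sy k pm x) (sy k pm y) = mm lam c s x y := by
  simp only [P146.mm, h.MM, h.dot]
end sy

theorem stepA (hp : Par lam c s a κ) : TT n lam c s a ≤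
    GV lam c s (WH lam c s a) (uu (n := n) a) (vv a) a + 2 * e1 lam c s a κ + 4 * e2 n lam s κ := by
  have bu : B1 (fun ω : Om n => wt lam c s (uu a ω) (ω 6)) 1 := b_AM (by fun_prop) (by fun_prop)
  have bv : B1 (fun ω : Om n => wt lam c s (vv a ω) (ω 7)) 1 := b_AM (by fun_prop) (by fun_prop)
  have bu' : B1 (fun ω : Om n => wt lam c s (zr (uu a ω)) (ω 6)) 1 :=
    b_AM (by fun_prop) (by fun_prop)
  have bv' : B1 (fun ω : Om n => wt lam c s (zr (vv a ω)) (ω 7)) 1 :=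
    b_AM (by fun_prop) (by fun_prop)
  have bS : B1 (fun ω : Om n => mm lam c s (uu a ω) (vv a ω)) 1 := b_MM (by fun_prop) (by fun_prop)
  have bZ : B1 (fun ω : Om n => mm lam c s (uu a ω) (uu a ω)) 1 := b_MM (by fun_prop) (by fun_prop)
  have bV : B1 (fun ω : Om n => VV lam (c • uu a ω + s • ω 6) ⬝ᵥ VV lam (c • vv a ω + s • ω 7)) 1 :=
    b_VV (by fun_prop) (by fun_prop)
  have s1 := avg (lam := lam) (c := c) (s := s) 7 (bS.mul1 bZ) (x := vv a)
    (B := fun ω => MM lam c s (vv a ω)) (by fun_prop) (by fun_prop) (fun _ => (cvx_MM _).nrm)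
    (fun ω t => by simp [uu, vv]) (fun ω t => by simp [vv]) (fun ω t => by simp [vv])
    (fun _ => rfl) (fun _ => rfl)
  have s2 := avg (lam := lam) (c := c) (s := s) 6 (bv.mul1 bS) (x := uu a)
    (B := fun ω => MM lam c s (uu a ω)) (by fun_prop) (by fun_prop) (fun _ => (cvx_MM _).nrm)
    (fun ω t => by simp [uu, vv]) (fun ω t => by simp [uu]) (fun ω t => by simp [uu])
    (F := fun ω => wt lam c s (uu a ω) (ω 6) * wt lam c s (vv a ω) (ω 7) *
      mm lam c s (uu a ω) (vv a ω))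
    (G := fun ω => mm lam c s (uu a ω) (vv a ω) * mm lam c s (uu a ω) (uu a ω) *
      wt lam c s (vv a ω) (ω 7)) (fun _ => by ring) (fun _ => by ring)
  have s3 := close (bu.mul1 bv) bS (b_AM (by fun_prop) (by fun_prop))
    (symm_le (stabE hp (k := 1) (l := 6) (by decide) (by decide) (by decide)
      (B := fun ω => MM lam c s (vv a ω)) (by fun_prop) (fun _ => (cvx_MM _).nrm)
      (fun ω t => by simp [vv]) (fun ω t => by simp [vv]))) (fun _ => rfl) (fun _ => rfl)
  have s4 := close (bu.mul1 bv) (b_MA (by fun_prop) (by fun_prop))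
    (b_AA (by fun_prop) (by fun_prop))
    (symm_le (stabE hp (k := 2) (l := 7) (by decide) (by decide) (by decide)
      (B := fun ω => AA lam (c • uu a ω + s • ω 6)) (by fun_prop) (fun _ => (cvx_AA _).nrm)
      (fun ω t => by simp [uu]) (fun ω t => by simp [uu])))
    (F := fun ω => wt lam c s (uu a ω) (ω 6) * wt lam c s (vv a ω) (ω 7) *
      (AA lam (c • uu a ω + s • ω 6) ⬝ᵥ MM lam c s (vv a ω)))
    (G := fun ω => wt lam c s (uu a ω) (ω 6) * wt lam c s (vv a ω) (ω 7) *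
      (AA lam (c • uu a ω + s • ω 6) ⬝ᵥ AA lam (c • vv a ω + s • ω 7)))
    (fun _ => by rw [dotProduct_comm (MM _ _ _ _)]) (fun _ => by
      rw [dotProduct_comm (AA lam (c • uu a _ + _))])
  have s5 := symE (lam := lam) (bu.mul1 bv) (g := fun ω => c • uu a ω + s • ω 6)
    (g' := fun ω => c • vv a ω + s • ω 7) (by fun_prop) (by fun_prop) fun h ω => by
      simp only [uu, vv, sy_cb, h.wt, sy_lin, and_self]
  have s6 := close (bv.mul1 bV) bu bu' (wt_cl hp (by decide) (by decide) (by decide))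
    (F := fun ω => wt lam c s (uu a ω) (ω 6) * wt lam c s (vv a ω) (ω 7) *
      (VV lam (c • uu a ω + s • ω 6) ⬝ᵥ VV lam (c • vv a ω + s • ω 7)))
    (G := fun ω => wt lam c s (zr (uu a ω)) (ω 6) *
      (VV lam (c • uu a ω + s • ω 6) ⬝ᵥ VV lam (c • vv a ω + s • ω 7)) * wt lam c s (vv a ω) (ω 7))
    (fun _ => by ring) (fun _ => by ring)
  have s7 := close (bu'.mul1 bV) bv bv' (wt_cl hp (by decide) (by decide) (by decide))
    (G := fun ω => wt lam c s (zr (uu a ω)) (ω 6) * wt lam c s (zr (vv a ω)) (ω 7) *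
      (VV lam (c • uu a ω + s • ω 6) ⬝ᵥ VV lam (c • vv a ω + s • ω 7)))
    (fun _ => rfl) (fun _ => by ring)
  have s8 := theta (n := n) (a := a) (f := fun u v η η' => wt lam c s (zr u) η *
    wt lam c s (zr v) η' * (VV lam (c • u + s • η) ⬝ᵥ VV lam (c • v + s • η'))) (by fun_prop)
  simp only [zr, mix_mix] at s8
  simp only [TT, GV, WH, l1, l2]
  simp only [uu, vv, zr, wt, mm] at *
  linarith

theorem fl_zr (x : XS n) : sy kF (Equiv.refl _) (zr x) = zr x := by rw [flip_mix, flip_zero]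

theorem stepH0 : GV lam c s (WH lam c s a) (uu (n := n) a) (vv a) 0 ≤ 1 / (n + 1) := by
  rw [G0 b_WH (by fun_prop) (by fun_prop) (fun ω => ?_) (fun ω => by simp [uu, fl])
    (fun ω => by simp [vv, fl])]
  · exact div_le_div_of_nonneg_right ((le_abs_self _).trans (abs_int_le b_WH.bd)) (Np n).le
  · have := sy_flip.wt (lam := lam) (c := c) (s := s) (zr (uu a ω)) (ω 6)
    rw [fl_zr] at this
    simp only [WH, uu, vv, fl, Fin.reduceEq, or_self, or_true, if_true, if_false]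
    rw [this]

theorem stepP0 : 0 ≤ GV lam c s (WP lam c s a) (uu (n := n) a) (uu a) 0 := by
  rw [G0 b_WP (by fun_prop) (by fun_prop) (fun ω => by simp [WP, uu, vv, fl])
    (fun ω => by simp [uu, fl]) (fun ω => by simp [uu, fl])]
  exact div_nonneg (integral_nonneg WP_nn) (Np n).le

theorem stepP1 (hp : Par lam c s a κ) :
    GV lam c s (WP lam c s a) (uu (n := n) a) (uu a) (π / 2) ≤ TT n lam c s a + 4 * e2 n lam s κ := by
  have bS : B1 (fun ω : Om n => mm lam c s (uu a ω) (vv a ω)) 1 := b_MM (by fun_prop) (by fun_prop)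
  have bZ : B1 (fun ω : Om n => mm lam c s (vv a ω) (vv a ω)) 1 := b_MM (by fun_prop) (by fun_prop)
  have bS' : B1 (fun ω : Om n => mm lam c s (zr (uu a ω)) (zr (vv a ω))) 1 :=
    b_MM (by fun_prop) (by fun_prop)
  have bZ' : B1 (fun ω : Om n => mm lam c s (zr (vv a ω)) (zr (vv a ω))) 1 :=
    b_MM (by fun_prop) (by fun_prop)
  have bV : B1 (fun ω : Om n => VV lam (c • uu a ω + s • ω 6) ⬝ᵥ VV lam (c • uu a ω + s • ω 7)) 1 :=
    b_VV (by fun_prop) (by fun_prop)
  have mu := mp_cb (n := n) a (i := 0) (j := 1) (by decide)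
  have mv := mp_cb (n := n) a (i := 0) (j := 2) (by decide)
  have s1 := sub2 (i := 3) (j := 4) (by decide) (gp_rot1 a) (f := fun ω : Om n => WP lam c s a ω *
    (VV lam (c • mix row (uu a ω) (ω 3) + s • ω 6) ⬝ᵥ VV lam (c • mix row (uu a ω) (ω 3) + s • ω 7)))
    (b_WP.mul (b_VV (by fun_prop) (by fun_prop))).cont.measurable fun ω t => by simp [WP, uu, vv]
  simp only [WP, uu, vv, update_self, ne_eq, Fin.reduceEq, not_false_eq_true, update_of_ne] at s1
  have s2 := theta (n := n) (a := a) (f := fun u v η η' => mm lam c s (zr u) (zr v) *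
    mm lam c s (zr v) (zr v) * (VV lam (c • u + s • η) ⬝ᵥ VV lam (c • u + s • η'))) (by fun_prop)
  simp only [zr, mix_mix] at s2
  have s3 := close (bZ'.mul1 bV) bS' bS (mm_cl hp mu mv (by fun_prop) (by fun_prop))
    (F := fun ω => mm lam c s (zr (uu a ω)) (zr (vv a ω)) * mm lam c s (zr (vv a ω)) (zr (vv a ω)) *
      (VV lam (c • uu a ω + s • ω 6) ⬝ᵥ VV lam (c • uu a ω + s • ω 7)))
    (G := fun ω => mm lam c s (uu a ω) (vv a ω) *
      (VV lam (c • uu a ω + s • ω 6) ⬝ᵥ VV lam (c • uu a ω + s • ω 7)) *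
        mm lam c s (zr (vv a ω)) (zr (vv a ω))) (fun _ => by ring) (fun _ => by ring)
  have s4 := close (bS.mul1 bV) bZ' bZ (mm_cl hp mv mv (by fun_prop) (by fun_prop))
    (G := fun ω => mm lam c s (uu a ω) (vv a ω) * mm lam c s (vv a ω) (vv a ω) *
      (VV lam (c • uu a ω + s • ω 6) ⬝ᵥ VV lam (c • uu a ω + s • ω 7)))
    (fun _ => rfl) (fun _ => by ring)
  have s5 := symE (lam := lam) (bS.mul1 bZ) (g := fun ω => c • uu a ω + s • ω 6)
    (g' := fun ω => c • uu a ω + s • ω 7) (by fun_prop) (by fun_prop) fun h ω => by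
      simp only [uu, vv, sy_cb, h.mm, sy_lin, and_self]
  have s6 := avg (lam := lam) (c := c) (s := s) 6 (bS.mul1 bZ) (x := uu a)
    (B := fun ω => AA lam (c • uu a ω + s • ω 7)) (by fun_prop) (by fun_prop)
    (fun _ => (cvx_AA _).nrm) (fun ω t => by simp [uu, vv]) (fun ω t => by simp [uu])
    (fun ω t => by simp [uu]) (fun _ => rfl)
    (G := fun ω => mm lam c s (uu a ω) (vv a ω) * mm lam c s (vv a ω) (vv a ω) *
      wt lam c s (uu a ω) (ω 7)) (fun _ => by rw [dotProduct_comm (MM _ _ _ _) (AA _ _)])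
  have s7 := avg (lam := lam) (c := c) (s := s) 7 (bS.mul1 bZ) (x := uu a)
    (B := fun ω => MM lam c s (uu a ω)) (by fun_prop) (by fun_prop)
    (fun _ => (cvx_MM _).nrm) (fun ω t => by simp [uu, vv]) (fun ω t => by simp [uu])
    (fun ω t => by simp [uu]) (fun _ => rfl)
    (G := fun ω => mm lam c s (uu a ω) (vv a ω) * mm lam c s (uu a ω) (uu a ω) *
      mm lam c s (vv a ω) (vv a ω)) (fun _ => by ring)
  have e : ∀ x y : XS n, cb (π / 2) x y = x := fun x y => by simp [cb]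
  have e' : ∀ x y : XS n, sin a • x + cos a • y = cb a x y := fun x y => rfl
  simp only [TT, GV, WP, l1, l2, e]
  simp only [uu, vv, zr, wt, mm, e'] at *
  linarith

end

end Vale.Agent.P146
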