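import Vale.Agent.P146.Chain

/-! P146: comparison of the two derivatives and the bound on the third moment. -/

open MeasureTheory ProbabilityTheory Real P157 Function
open scoped BigOperators Matrix

namespace Vale.Agent.P146

noncomputable section

variable {n : ℕ} {lam c s a κ : ℝ}

theorem amgm4 {ι : Type} [Fintype ι] (x y p q : ι → ℝ) :
    (x ⬝ᵥ p) * (y ⬝ᵥ q) ≤ ((q ⬝ᵥ q) * (x ⬝ᵥ x) + (p ⬝ᵥ p) * (y ⬝ᵥ y)) / 2 := by
  have h1 := dot_sq_le x p
  have h2 := dot_sq_le y q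
  have h3 := mul_le_mul h1 h2 (sq_nonneg _) ((sq_nonneg _).trans h1)
  have a1 := mul_nonneg (dot_self_nn q) (dot_self_nn x)
  have a2 := mul_nonneg (dot_self_nn p) (dot_self_nn y)
  refine (le_abs_self _).trans (abs_le_of_sq_le_sq ?_ (by positivity))
  nlinarith [sq_nonneg ((q ⬝ᵥ q) * (x ⬝ᵥ x) - (p ⬝ᵥ p) * (y ⬝ᵥ y))]

theorem GC_D (α : ℝ) : GC lam c s (WP lam c s a) (uu (n := n) a) (uu a) α =
    ∫ ω, WP lam c s a ω * (DD lam c s α (uu a ω) (ω 3) ⬝ᵥ DD lam c s α (uu a ω) (ω 3)) ∂PP n := by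
  have s1 := cond (lam := lam) (c := c) (s := s) α (i := 4) (j := 6) (by decide) (by decide)
    (by decide) (b_WP (n := n) (lam := lam) (c := c) (s := s) (a := a)) (x := uu a)
    (B := fun ω => CC lam (l2 c s α (uu a ω) ω)) (by fun_prop) (by fun_prop)
    (fun _ => abs_CC _) (fun ω p q => by simp [WP, uu, vv]) (fun ω p q => by simp [uu])
    (fun ω p q => by simp [uu, l2])
  have s2 := cond (lam := lam) (c := c) (s := s) α (i := 5) (j := 7) (by decide) (by decide)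
    (by decide) (b_WP (n := n) (lam := lam) (c := c) (s := s) (a := a)) (x := uu a)
    (B := fun ω => DD lam c s α (uu a ω) (ω 3)) (by fun_prop) (by fun_prop)
    (fun _ => abs_DD _ _ _) (fun ω p q => by simp [WP, uu, vv]) (fun ω p q => by simp [uu])
    (fun ω p q => by simp [uu])
  rw [← s2]
  simp only [dotProduct_comm (DD _ _ _ _ _ _) (CC _ _)] at s1
  exact s1

theorem stepD (α : ℝ) : ∫ ω, (CC lam (l1 c s α (uu a ω) ω) ⬝ᵥ MM lam c s (zr (uu a ω))) *
    (CC lam (l2 c s α (vv a ω) ω) ⬝ᵥ MM lam c s (zr (vv a ω))) *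
      mm lam c s (zr (uu a ω)) (zr (vv a ω)) ∂PP n ≤
    GC lam c s (WP lam c s a) (uu (n := n) a) (uu a) α := by
  have bS : B1 (fun ω : Om n => mm lam c s (zr (uu a ω)) (zr (vv a ω))) 1 :=
    b_MM (by fun_prop) (by fun_prop)
  have hM : ∀ (x : XS n) e, |MM lam c s x e| ≤ 2 := fun x e =>
    (abs_coord_le (cvx_MM x).nrm e).trans one_le_two
  have bD : ∀ {x y : Om n → XS n}, Continuous x → Continuous y →
      B1 (fun ω => DD lam c s α (x ω) (ω 3) ⬝ᵥ MM lam c s (y ω)) (Fintype.card (Ix n) * 2 ^ 2) :=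
    fun hx hy => ⟨by fun_prop, fun ω => abs_dot_le' (abs_DD _ _ _) (hM _)⟩
  have bDD : ∀ {x : Om n → XS n}, Continuous x → B1 (fun ω => DD lam c s α (x ω) (ω 3) ⬝ᵥ
      DD lam c s α (x ω) (ω 3)) (Fintype.card (Ix n) * 2 ^ 2) :=
    fun hx => ⟨by fun_prop, fun ω => abs_dot_le' (abs_DD _ _ _) (abs_DD _ _ _)⟩
  have s1 := cond (lam := lam) (c := c) (s := s) α (i := 4) (j := 6) (by decide) (by decide)
    (by decide) (bS.mul (b_CM (lam := lam) (c := c) (s := s) (G := fun ω => l2 c s α (vv a ω) ω)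
      (G' := fun ω => zr (vv a ω)) (by fun_prop) (by fun_prop))) (x := uu a)
    (B := fun ω => MM lam c s (zr (uu a ω))) (by fun_prop) (by fun_prop)
    (fun _ => hM _) (fun ω p q => by simp [uu, vv, l2]) (fun ω p q => by simp [uu])
    (fun ω p q => by simp [uu])
  have s2 := cond (lam := lam) (c := c) (s := s) α (i := 5) (j := 7) (by decide) (by decide)
    (by decide) (bS.mul (bD (x := uu a) (y := fun ω => zr (uu a ω)) (by fun_prop) (by fun_prop)))
    (x := vv a) (B := fun ω => MM lam c s (zr (vv a ω))) (by fun_prop) (by fun_prop)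
    (fun _ => hM _) (fun ω p q => by simp [uu, vv]) (fun ω p q => by simp [vv])
    (fun ω p q => by simp [vv])
  have b1 := (b_WP (n := n) (lam := lam) (c := c) (s := s) (a := a)).mul
    (bDD (x := uu a) (by fun_prop))
  have b2 := (bS.mul (b_MM (lam := lam) (c := c) (s := s) (G := fun ω => zr (uu a ω))
    (G' := fun ω => zr (uu a ω)) (by fun_prop) (by fun_prop))).mul (bDD (x := vv a) (by fun_prop))
  have s3 := mp_int (mp_perm (gp (Ix n)) (Equiv.swap (1 : Fin 8) 2)) b1.cont.measurable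
  have s4 := integral_mono (μ := PP n) ((bS.mul (bD (x := uu a) (y := fun ω => zr (uu a ω))
    (by fun_prop) (by fun_prop))).mul (bD (x := vv a) (y := fun ω => zr (vv a ω))
      (by fun_prop) (by fun_prop))).int ((b1.int.add b2.int).div_const 2) fun ω => by
    have h := mul_le_mul_of_nonneg_left (amgm4 (DD lam c s α (uu a ω) (ω 3))
      (DD lam c s α (vv a ω) (ω 3)) (MM lam c s (zr (uu a ω))) (MM lam c s (zr (vv a ω))))
      ((cvx_MM (lam := lam) (c := c) (s := s) (zr (uu a ω))).nn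
        (cvx_MM (lam := lam) (c := c) (s := s) (zr (vv a ω))))
    simp only [Pi.add_apply, WP, mm]
    linarith
  simp only [Pi.add_apply] at s4
  rw [integral_div, integral_add b1.int b2.int] at s4
  have s5 : ∫ ω, WP lam c s a ω * (DD lam c s α (uu a ω) (ω 3) ⬝ᵥ DD lam c s α (uu a ω) (ω 3))
      ∂PP n = ∫ ω, mm lam c s (zr (uu a ω)) (zr (vv a ω)) * (MM lam c s (zr (uu a ω)) ⬝ᵥ
        MM lam c s (zr (uu a ω))) * (DD lam c s α (vv a ω) (ω 3) ⬝ᵥ DD lam c s α (vv a ω) (ω 3))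
          ∂PP n := by
    rw [s3]
    refine integral_congr_ae (ae_of_all _ fun ω => ?_)
    simp only [WP, uu, vv, mm, Equiv.swap_apply_left, Equiv.swap_apply_right,
      Equiv.swap_apply_of_ne_of_ne (show (0 : Fin 8) ≠ 1 by decide) (show (0 : Fin 8) ≠ 2 by decide),
      Equiv.swap_apply_of_ne_of_ne (show (3 : Fin 8) ≠ 1 by decide) (show (3 : Fin 8) ≠ 2 by decide)]
    rw [dotProduct_comm (MM lam c s (zr (cb a (ω 0) (ω 2))))]
  rw [GC_D]
  have e1 : ∀ ω : Om n, (CC lam (l1 c s α (uu a ω) ω) ⬝ᵥ MM lam c s (zr (uu a ω))) *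
      (CC lam (l2 c s α (vv a ω) ω) ⬝ᵥ MM lam c s (zr (vv a ω))) *
        mm lam c s (zr (uu a ω)) (zr (vv a ω)) = mm lam c s (zr (uu a ω)) (zr (vv a ω)) *
      (CC lam (l2 c s α (vv a ω) ω) ⬝ᵥ MM lam c s (zr (vv a ω))) *
      (CC lam (c • mix row (uu a ω) (cb α (ω 3) (ω 4)) + s • ω 6) ⬝ᵥ MM lam c s (zr (uu a ω))) :=
    fun ω => by simp only [l1]; ring
  have e2 : ∀ ω : Om n, mm lam c s (zr (uu a ω)) (zr (vv a ω)) *
      (CC lam (l2 c s α (vv a ω) ω) ⬝ᵥ MM lam c s (zr (vv a ω))) *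
      (DD lam c s α (uu a ω) (ω 3) ⬝ᵥ MM lam c s (zr (uu a ω))) =
      mm lam c s (zr (uu a ω)) (zr (vv a ω)) *
      (DD lam c s α (uu a ω) (ω 3) ⬝ᵥ MM lam c s (zr (uu a ω))) *
      (CC lam (c • mix row (vv a ω) (cb α (ω 3) (ω 5)) + s • ω 7) ⬝ᵥ MM lam c s (zr (vv a ω))) :=
    fun ω => by simp only [l2]; ring
  simp only [e2] at s1
  simp only [e1]
  linarith

theorem stepC (hp : Par lam c s a κ) (α : ℝ) :
    GC lam c s (WH lam c s a) (uu (n := n) a) (vv a) α ≤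
      GC lam c s (WP lam c s a) (uu (n := n) a) (uu a) α +
        (8 * e1 lam c s a κ + 32 * e2 n lam s κ + 4 * e3 lam s κ) := by
  set g1 : Om n → XS n := fun ω => l1 c s α (uu a ω) ω with hg1
  set g2 : Om n → XS n := fun ω => l2 c s α (vv a ω) ω with hg2
  have c1 : Continuous g1 := by fun_prop
  have c2 : Continuous g2 := by fun_prop
  have cu : Continuous fun ω : Om n => zr (uu a ω) := by fun_prop
  have cv : Continuous fun ω : Om n => zr (vv a ω) := by fun_prop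
  have bu : B1 (fun ω : Om n => wt lam c s (zr (uu a ω)) (ω 6)) 1 := b_AM (by fun_prop) cu
  have bv : B1 (fun ω : Om n => wt lam c s (zr (vv a ω)) (ω 7)) 1 := b_AM (by fun_prop) cv
  have bu' := b_AM (lam := lam) (c := c) (s := s) c1 cu
  have bv' := b_AM (lam := lam) (c := c) (s := s) c2 cv
  have bC := b_CC (lam := lam) c1 c2
  have bCu := b_CM (lam := lam) (c := c) (s := s) c1 cu
  have bCv := b_CM (lam := lam) (c := c) (s := s) c2 cv
  have r1 := rrA hp 6 (mp_mixcb (n := n) a α (k := 1) (j := 4) (by decide) (by decide) (by decide)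
    (by decide) (by decide)) (B := fun ω => MM lam c s (zr (uu a ω))) (by fun_prop) (by fun_prop)
    (fun _ => (cvx_MM _).nrm) (fun ω t => by simp) (fun ω t => by simp [uu])
  have r2 := rrA hp 7 (mp_mixcb (n := n) a α (k := 2) (j := 5) (by decide) (by decide) (by decide)
    (by decide) (by decide)) (B := fun ω => MM lam c s (zr (vv a ω))) (by fun_prop) (by fun_prop)
    (fun _ => (cvx_MM _).nrm) (fun ω t => by simp) (fun ω t => by simp [vv])
  simp only [mix_mix] at r1 r2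
  have s1 := close (bv.mul1 bC) bu bu' (symm_le r1)
    (F := fun ω => WH lam c s a ω * (CC lam (g1 ω) ⬝ᵥ CC lam (g2 ω)))
    (G := fun ω => (AA lam (g1 ω) ⬝ᵥ MM lam c s (zr (uu a ω))) * (CC lam (g1 ω) ⬝ᵥ CC lam (g2 ω)) *
      wt lam c s (zr (vv a ω)) (ω 7)) (fun ω => by simp only [WH]; ring) (fun _ => by ring)
  have s2 := close (bu'.mul1 bC) bv bv' (symm_le r2) (fun _ => rfl)
    (G := fun ω => (AA lam (g2 ω) ⬝ᵥ MM lam c s (zr (vv a ω))) *
      ((AA lam (g1 ω) ⬝ᵥ MM lam c s (zr (uu a ω))) * (CC lam (g1 ω) ⬝ᵥ CC lam (g2 ω))))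
    (fun _ => by ring)
  have bAC : B1 (fun ω => AA lam (g1 ω) ⬝ᵥ CC lam (g2 ω)) 2 := by
    simpa only [dotProduct_comm (CC _ _)] using b_CA (lam := lam) c2 c1
  have r3 := qE (lam := lam) (s := s) 6 (h := fun ω : Om n => c • mix row (uu a ω) (cb α (ω 3) (ω 4)))
    (P := fun ω => MM lam c s (zr (uu a ω))) (Q := fun ω => CC lam (g2 ω)) (by fun_prop)
    (by fun_prop) (by fun_prop) (K := 1 * 4 + 2 * 2) (L := 2 * e3 lam s κ) (fun g ω => by
      refine (abs_sub _ _).trans (add_le_add ?_ ?_) <;> rw [abs_mul]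
      · exact mul_le_mul ((cvx_AA _).abs (cvx_MM _)) (abs_CC_CC _ _) (abs_nonneg _) zero_le_one
      · rw [dotProduct_comm (AA _ _)]
        exact mul_le_mul (abs_CC_dot _ (cvx_AA _).nrm) (abs_CC_dot _ (cvx_MM _).nrm)
          (abs_nonneg _) zero_le_two) (by linarith [hp.e3_nn])
    (fun ω t => by simp [uu]) (fun ω t => by simp [uu]) (fun ω t => by simp [hg2, l2, vv])
    fun ω => q4 hp.hl hp.hs hp.hk _ (cvx_MM _) _
  have s3 := close bv' (bu'.mul1 bC) (bAC.mul bCu) r3 (fun _ => rfl)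
    (G := fun ω => (CC lam (g1 ω) ⬝ᵥ MM lam c s (zr (uu a ω))) *
      ((AA lam (g2 ω) ⬝ᵥ MM lam c s (zr (vv a ω))) * (CC lam (g2 ω) ⬝ᵥ AA lam (g1 ω))))
    (fun _ => by rw [dotProduct_comm (CC _ _) (AA _ _)]; ring)
  have r4 := qE (lam := lam) (s := s) 7 (h := fun ω : Om n => c • mix row (vv a ω) (cb α (ω 3) (ω 5)))
    (P := fun ω => MM lam c s (zr (vv a ω))) (Q := fun ω => AA lam (g1 ω)) (by fun_prop)
    (by fun_prop) (by fun_prop) (K := 4) (L := e3 lam s κ)
    (fun g ω => abs_Er _ (cvx_MM _).nrm (cvx_AA _).nrm) hp.e3_nn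
    (fun ω t => by simp [vv]) (fun ω t => by simp [vv]) (fun ω t => by simp [hg1, l1, uu])
    fun ω => q3 hp.hl hp.hs hp.hk _ (cvx_MM _) (cvx_AA _)
  have s4 := close bCu (bv'.mul1 (b_CA c2 c1)) ((b_AA c2 c1).mul1 bCv) r4 (fun _ => rfl)
    (G := fun ω => (CC lam (g1 ω) ⬝ᵥ MM lam c s (zr (uu a ω))) *
      (CC lam (g2 ω) ⬝ᵥ MM lam c s (zr (vv a ω))) * (AA lam (g1 ω) ⬝ᵥ AA lam (g2 ω)))
    (fun _ => by rw [dotProduct_comm (AA lam (g2 _))]; ring)
  have r5 := rep hp α (k := 1) (j := 4) (l := 6) (by decide) (by decide) (by decide) (by decide)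
    (by decide) (by decide) (by decide) (by decide) (by decide) (B := fun ω => AA lam (g2 ω))
    (by fun_prop) (fun _ => (cvx_AA _).nrm) (fun ω t => by simp [hg2, l2, vv])
    (fun ω t => by simp [hg2, l2, vv])
  have s5 := close (bCu.mul bCv) (b_AA c1 c2) (b_MA cu c2) r5 (fun _ => rfl)
    (G := fun ω => (CC lam (g1 ω) ⬝ᵥ MM lam c s (zr (uu a ω))) *
      (CC lam (g2 ω) ⬝ᵥ MM lam c s (zr (vv a ω))) * (AA lam (g2 ω) ⬝ᵥ MM lam c s (zr (uu a ω))))
    (fun _ => by rw [dotProduct_comm (MM _ _ _ _) (AA _ _)])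
  have r6 := rep hp α (k := 2) (j := 5) (l := 7) (by decide) (by decide) (by decide) (by decide)
    (by decide) (by decide) (by decide) (by decide) (by decide)
    (B := fun ω : Om n => MM lam c s (zr (uu a ω))) (by fun_prop) (fun _ => (cvx_MM _).nrm)
    (fun ω t => by simp [uu]) (fun ω t => by simp [uu])
  have s6 := close (bCu.mul bCv) (b_AM c2 cu) (b_MM cv cu) r6 (fun _ => rfl)
    (G := fun ω => (CC lam (g1 ω) ⬝ᵥ MM lam c s (zr (uu a ω))) *
      (CC lam (g2 ω) ⬝ᵥ MM lam c s (zr (vv a ω))) * mm lam c s (zr (uu a ω)) (zr (vv a ω)))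
    (fun _ => by rw [dotProduct_comm (MM lam c s (zr (vv a _)))])
  have s7 := stepD (n := n) (lam := lam) (c := c) (s := s) (a := a) α
  rw [GC]
  simp only [hg1, hg2] at *
  linarith

theorem calc_le {H Φ G K : ℝ → ℝ} {b r a : ℝ} (hb : 0 ≤ b) (hr : 0 ≤ r) (h0 : 0 ≤ a)
    (h1 : a ≤ π / 2) (hH : ∀ x, HasDerivAt H (2 * sin x * cos x * b * G x) x)
    (hΦ : ∀ x, HasDerivAt Φ (2 * sin x * cos x * b * K x) x) (hG : ∀ x, G x ≤ K x + r)
    (hK : ∀ x y, 0 ≤ x → x ≤ y → y ≤ π / 2 → K x ≤ K y) (hP : 0 ≤ Φ 0) :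
    H a ≤ H 0 + sin a ^ 2 * Φ (π / 2) + b * r := by
  have hs : ∀ x, HasDerivAt (fun x => sin x ^ 2) (2 * sin x * cos x) x := fun x =>
    ((hasDerivAt_sin x).fun_pow 2).congr_deriv (by simp)
  have hp : ∀ x, 0 ≤ x → x ≤ π / 2 → 0 ≤ 2 * sin x * cos x * b := fun x hx hy => by
    have := sin_nonneg_of_nonneg_of_le_pi hx (by linarith [pi_pos])
    have := cos_nonneg_of_neg_pi_div_two_le_of_le (by linarith [pi_pos]) hy
    positivity
  have t1 := mvt_le (fun x => ((hH x).fun_sub (hΦ x)).fun_sub ((hs x).const_mul (b * r))) h0 (L := 0)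
    fun x hx => by nlinarith [hp x hx.1.le (hx.2.le.trans h1), hG x]
  have t2 := mvt_le (fun x => (hΦ x).fun_sub ((hs x).const_mul (b * K a))) h0 (L := 0)
    fun x hx => by nlinarith [hp x hx.1.le (hx.2.le.trans h1), hK x a hx.1.le hx.2.le h1]
  have t3 := mvt_le (fun x => ((hs x).const_mul (b * K a)).fun_sub (hΦ x)) h1 (L := 0)
    fun x hx => by nlinarith [hp x (h0.trans hx.1.le) hx.2.le, hK a x h0 hx.1.le hx.2.le]
  simp only [sin_zero, sin_pi_div_two] at t1 t2 t3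
  have a1 := sin_sq_le_one a
  have a2 := sq_nonneg (sin a)
  have a3 := mul_nonneg hb hr
  have t4 := mul_le_mul_of_nonneg_left t2 (sub_nonneg.2 a1)
  have t5 := mul_le_mul_of_nonneg_left t3 a2
  nlinarith [mul_nonneg a2 hP]

theorem T_le (hp : Par lam c s a κ) (h0 : 0 ≤ a) (h1 : a ≤ π / 2) :
    cos a ^ 2 * TT n lam c s a ≤ 1 / (n + 1) + 2 * e1 lam c s a κ + 8 * e2 n lam s κ +
      bb n lam c * (8 * e1 lam c s a κ + 32 * e2 n lam s κ + 4 * e3 lam s κ) := by
  have a1 := hp.e1_nn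
  have a2 := hp.e2_nn (n := n)
  have a3 := hp.e3_nn
  have h := calc_le (H := GV lam c s (WH lam c s a) (uu (n := n) a) (vv a))
    (Φ := GV lam c s (WP lam c s a) (uu (n := n) a) (uu a)) (b := bb n lam c)
    (by unfold bb; positivity) (by positivity) h0 h1
    (Gder hp.hl.le hp.abs_c b_WH (by fun_prop) (by fun_prop) (fun ω p q r => by simp [WH, uu, vv])
      (fun ω p q r => by simp [uu]) (fun ω p q r => by simp [vv]))
    (Gder hp.hl.le hp.abs_c b_WP (by fun_prop) (by fun_prop) (fun ω p q r => by simp [WP, uu, vv])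
      (fun ω p q r => by simp [uu]) (fun ω p q r => by simp [uu]))
    (stepC hp) (fun x y hx hxy hy => by
      rw [GC_D, GC_D]
      exact Kmono b_WP WP_nn (by fun_prop) (fun ω p => by simp [WP, uu, vv])
        (fun ω p => by simp [uu]) hx hxy hy) stepP0
  have s1 := stepA (n := n) hp
  have s2 := stepH0 (n := n) (lam := lam) (c := c) (s := s) (a := a)
  have s3 := mul_le_mul_of_nonneg_left (stepP1 (n := n) hp) (sq_nonneg (sin a))
  have a4 := mul_le_mul_of_nonneg_right (sin_sq_le_one a) a2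
  rw [cos_sq']
  nlinarith

end

end Vale.Agent.P146
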