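import Mathlib

open MeasureTheory ProbabilityTheory

namespace Vale.Agent.P146

/-- pairs `i < j` of sites -/
abbrev Edge (n : ℕ) : Type := {p : Fin n × Fin n // p.1 < p.2}

/-- the spin value `+1` or `-1` -/
def spin (b : Bool) : ℝ := if b then 1 else -1

/-- the Sherrington-Kirkpatrick Hamiltonian `H_n(σ)` -/
noncomputable def ham (n : ℕ) (g : Edge n → ℝ) (σ : Fin n → Bool) : ℝ :=
  (1 / Real.sqrt n) * ∑ e : Edge n, g e * spin (σ e.1.1) * spin (σ e.1.2)

/-- the free energy `F_n(β) = log Z_n(β)` -/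
noncomputable def freeEnergy (β : ℝ) (n : ℕ) (g : Edge n → ℝ) : ℝ :=
  Real.log (∑ σ : Fin n → Bool, Real.exp (β * ham n g σ))

/-- independent standard Gaussian couplings -/
noncomputable def disorder (n : ℕ) : Measure (Edge n → ℝ) :=
  Measure.pi fun _ => gaussianReal 0 1

end Vale.Agent.P146
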