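import Vale.Agent.P146.Var

/-! P146: variance of the matrix model and transfer to the Sherrington-Kirkpatrick model. -/

open MeasureTheory ProbabilityTheory Real P157 Function Filter Topology
open scoped BigOperators Matrix

namespace Vale.Agent.P146

noncomputable section

theorem cont_lpf {S ι : Type} [Fintype S] [Nonempty S] [Fintype ι] (a : S → ι → ℝ) :
    Continuous fun g => log (pf a g) :=
  (cont_pf a continuous_id).log fun g => (pf_pos a g).ne'

theorem memLp_lpf {S ι : Type} [Fintype S] [Nonempty S] [Fintype ι] (a : S → ι → ℝ) :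
    MemLp (fun g => log (pf a g)) 2 (gp ι) := by
  refine MemLp.mono' ((memLp_const (Fintype.card S : ℝ)).add
    (memLp_finset_sum' Finset.univ fun σ _ => (ibp0_memLp (a σ)).abs))
    (cont_lpf a).aestronglyMeasurable (ae_of_all _ fun g => ?_)
  simp only [Pi.add_apply, Finset.sum_apply, Pi.abs_apply, Real.norm_eq_abs]
  have h1 : ∀ σ, |a σ ⬝ᵥ g| ≤ ∑ σ, |a σ ⬝ᵥ g| := fun σ =>
    Finset.single_le_sum (f := fun σ => |a σ ⬝ᵥ g|) (fun _ _ => abs_nonneg _) (Finset.mem_univ σ)
  set M := ∑ σ, |a σ ⬝ᵥ g|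
  have h0 : (0 : ℝ) ≤ Fintype.card S := by positivity
  rw [abs_le, le_log_iff_exp_le (pf_pos a g), log_le_iff_le_exp (pf_pos a g)]
  constructor
  · obtain ⟨σ⟩ := ‹Nonempty S›
    refine le_trans (exp_le_exp.2 ?_) (Finset.single_le_sum (f := fun σ => exp (a σ ⬝ᵥ g))
      (fun _ _ => (exp_pos _).le) (Finset.mem_univ σ))
    linarith [h1 σ, neg_abs_le (a σ ⬝ᵥ g)]
  · refine (Finset.sum_le_card_nsmul _ _ (exp M) fun σ _ =>
      exp_le_exp.2 ((le_abs_self _).trans (h1 σ))).trans ?_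
    rw [exp_add, nsmul_eq_mul, Finset.card_univ]
    gcongr
    linarith [add_one_le_exp (Fintype.card S : ℝ)]

variable {n : ℕ} {lam : ℝ}

/-- free energy of the matrix model -/
def FF (lam : ℝ) (g : XS n) : ℝ := log (pf (fe lam XX) g)

theorem c1_trunc (hl : 0 ≤ lam) {K : ℝ} (hK : 0 < K) :
    C1 (fun g : XS n => K * sin (FF lam g / K)) (fun g => (cos (FF lam g / K) * lam) • AA lam g)
      (K + lam) := by
  have hc : Continuous (FF (n := n) lam) := cont_lpf _
  refine ⟨by fun_prop, by fun_prop, fun z => ?_, fun z e => ?_, fun G G' t hG => ?_⟩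
  · rw [abs_mul, abs_of_pos hK]
    linarith [mul_le_of_le_one_right hK.le (abs_sin_le_one (FF lam z / K))]
  · rw [Pi.smul_apply, smul_eq_mul, abs_mul, abs_mul, abs_of_nonneg hl]
    have := mul_le_mul (mul_le_of_le_one_left hl (abs_cos_le_one (FF lam z / K))) (abs_AA z e)
      (abs_nonneg (AA lam z e)) hl
    linarith
  · refine (((der_lpf (a := fe lam XX) hG).div_const K).sin.const_mul K).congr_deriv ?_
    simp only [fe, smul_dotProduct, smul_eq_mul, av_cmul, AA_dot, tm, FF]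
    unfold ob
    field_simp

theorem var_FF (hl : 0 ≤ lam) {R : ℝ} (hR : 0 ≤ R)
    (h : ∀ α ∈ Set.Ioo 0 (π / 2), cos α * yy n lam α ≤ R) :
    Var[FF (n := n) lam; gp (Ix n)] ≤ 2 * lam ^ 2 * R * (π / 2) := by
  have hc : Continuous (FF (n := n) lam) := cont_lpf _
  have hm : MemLp (FF (n := n) lam) 2 (gp (Ix n)) := memLp_lpf _
  have h1 : ∀ K : ℝ, 0 < K → ∫ z, (K * sin (FF lam z / K)) * (K * sin (FF lam z / K)) ∂gp (Ix n) -
      (∫ z, K * sin (FF lam z / K) ∂gp (Ix n)) ^ 2 ≤ 2 * lam ^ 2 * R * (π / 2) := by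
    intro K hK
    have hf := c1_trunc (n := n) hl hK
    refine var_le hf fun α hα => ?_
    have hτ : 0 < cos α := cos_pos_of_mem_Ioo ⟨by linarith [hα.1, pi_pos], hα.2⟩
    have hσ : 0 < sin α := sin_pos_of_pos_of_lt_pi hα.1 (by linarith [hα.2, pi_pos])
    have h2 : ∫ p, ((cos (FF lam (c1 α p) / K) * lam) • AA lam (c1 α p)) ⬝ᵥ
        ((cos (FF lam (c2 α p) / K) * lam) • AA lam (c2 α p)) ∂g3 (Ix n) ≤ lam ^ 2 * yy n lam α := by
      rw [yy, ← integral_const_mul]
      refine integral_mono (int_bd (Continuous.measurable (by fun_prop))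
        fun p => abs_dot_le' (hf.bd' _) (hf.bd' _))
        ((b_AA (by fun_prop) (by fun_prop)).int.const_mul _) fun p => ?_
      simp only [smul_dotProduct, dotProduct_smul, smul_eq_mul]
      have a1 := (cvx_AA (lam := lam) (c1 α p)).nn (cvx_AA (lam := lam) (c2 α p))
      have a2 : cos (FF lam (c1 α p) / K) * cos (FF lam (c2 α p) / K) ≤ 1 :=
        (le_abs_self _).trans (by
          rw [abs_mul]; exact mul_le_one₀ (abs_cos_le_one _) (abs_nonneg _) (abs_cos_le_one _))
      linarith [mul_le_mul_of_nonneg_right a2 (mul_nonneg (sq_nonneg lam) a1)]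
    have h3 := mul_le_mul_of_nonneg_left h2 (show 0 ≤ 2 * sin α * cos α by positivity)
    have h4 := mul_le_mul_of_nonneg_left (h α hα) (show 0 ≤ 2 * lam ^ 2 * sin α by positivity)
    have h5 := mul_le_mul_of_nonneg_left (sin_le_one α) (show 0 ≤ 2 * lam ^ 2 * R by positivity)
    linarith
  have hp : ∀ k : ℕ, (0 : ℝ) < k + 1 := fun k => by positivity
  have l0 : ∀ x : ℝ, Tendsto (fun k : ℕ => ((k : ℝ) + 1) * sin (x / (k + 1))) atTop (𝓝 x) := by
    intro x
    have d : HasDerivAt (fun t => sin (x * t)) x 0 := by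
      simpa using ((hasDerivAt_id (0 : ℝ)).const_mul x).sin
    have t : Tendsto (fun k : ℕ => 1 / ((k : ℝ) + 1)) atTop (𝓝[≠] 0) :=
      tendsto_nhdsWithin_iff.2 ⟨tendsto_one_div_add_atTop_nhds_zero_nat,
        Eventually.of_forall fun k => (one_div_pos.2 (hp k)).ne'⟩
    simpa [div_eq_mul_inv, Function.comp_def] using d.tendsto_slope_zero.comp t
  have b0 : ∀ (k : ℕ) (x : ℝ), |((k : ℝ) + 1) * sin (x / (k + 1))| ≤ |x| := fun k x => by
    rw [abs_mul]
    refine (mul_le_mul_of_nonneg_left abs_sin_le_abs (abs_nonneg _)).trans_eq ?_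
    rw [← abs_mul, mul_div_cancel₀ _ (hp k).ne']
  have l1 := tendsto_integral_of_dominated_convergence (μ := gp (Ix n))
    (F := fun (k : ℕ) z => ((k : ℝ) + 1) * sin (FF lam z / (k + 1))) (f := FF lam)
    (fun z => |FF lam z|) (fun k => Continuous.aestronglyMeasurable (by fun_prop))
    (hm.integrable one_le_two).abs (fun k => ae_of_all _ fun z => b0 k _) (ae_of_all _ fun z => l0 _)
  have l2 := tendsto_integral_of_dominated_convergence (μ := gp (Ix n))
    (F := fun (k : ℕ) z => (((k : ℝ) + 1) * sin (FF lam z / (k + 1))) *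
      (((k : ℝ) + 1) * sin (FF lam z / (k + 1)))) (f := fun z => FF lam z * FF lam z)
    (fun z => FF lam z ^ 2) (fun k => Continuous.aestronglyMeasurable (by fun_prop))
    hm.integrable_sq (fun k => ae_of_all _ fun z => by
      rw [Real.norm_eq_abs, abs_mul, ← sq_abs (FF lam z), sq]
      exact mul_le_mul (b0 k _) (b0 k _) (abs_nonneg _) (abs_nonneg _))
    (ae_of_all _ fun z => (l0 _).mul (l0 _))
  rw [variance_eq_sub hm]
  simp only [Pi.pow_apply, sq (FF lam _)]
  exact le_of_tendsto' (l2.sub (l1.pow 2)) fun k => h1 _ (hp k)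

/-- features of the Sherrington-Kirkpatrick model -/
def fs (β : ℝ) (σ : Cf n) : Edge (n + 1) → ℝ :=
  fun e => β / √(n + 1) * (spin (σ e.1.1) * spin (σ e.1.2))

theorem free_eq (β : ℝ) : freeEnergy β (n + 1) = fun g => log (pf (fs β) g) := by
  funext g
  simp only [freeEnergy, pf, ham, fs, dotProduct, Finset.mul_sum]
  congr 2
  funext σ
  congr 2
  funext e
  push_cast
  ring

/-- the same features with one constant coordinate, inside the matrix model -/
def ft (β b : ℝ) (σ : Cf n) : XS n := fun e =>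
  (if e.1 < e.2 then β / √(n + 1) * (spin (σ e.1) * spin (σ e.2)) else 0) +
    if e = (0, 0) then b else 0

theorem ft_dot (β b : ℝ) (σ : Cf n) (g : XS n) :
    ft β b σ ⬝ᵥ g = fs β σ ⬝ᵥ (fun e => g e.1) + b * g (0, 0) := by
  simp only [dotProduct, ft, add_mul, Finset.sum_add_distrib, ite_mul, zero_mul,
    Finset.sum_ite_eq', Finset.mem_univ, if_true, ← Finset.sum_filter]
  rw [Finset.sum_subtype (p := fun e : Ix n => e.1 < e.2) _ (by simp)]
  rfl

theorem sum_tri {φ : Ix n → ℝ} (hs : ∀ i j, φ (i, j) = φ (j, i)) :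
    ∑ e, φ e = 2 * ∑ e : Edge (n + 1), φ e.1 + ∑ i, φ (i, i) := by
  have e1 : ∀ e : Ix n, φ e = (if e.1 < e.2 then φ e else 0) + (if e.2 < e.1 then φ e else 0) +
      if e.1 = e.2 then φ e else 0 := fun e => by
    rcases lt_trichotomy e.1 e.2 with h | h | h
    · simp [h, h.ne, h.not_gt]
    · simp [h]
    · simp [h, h.ne', h.not_gt]
  have e2 : ∑ e : Ix n, (if e.2 < e.1 then φ e else 0) = ∑ e : Ix n, if e.1 < e.2 then φ e else 0 := by
    rw [← Equiv.sum_comp (Equiv.prodComm _ _)]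
    exact Finset.sum_congr rfl fun e _ => by simp [Prod.swap, hs e.2 e.1]
  have e3 : ∑ e : Ix n, (if e.1 < e.2 then φ e else 0) = ∑ e : Edge (n + 1), φ e.1 := by
    rw [← Finset.sum_filter, Finset.sum_subtype (p := fun e : Ix n => e.1 < e.2) _ (by simp)]
  rw [Finset.sum_congr rfl fun e _ => e1 e, Finset.sum_add_distrib, Finset.sum_add_distrib, e2, e3,
    Fintype.sum_prod_type]
  simp [two_mul]

theorem gram {β b : ℝ} (hb : 2 * b ^ 2 = β ^ 2) (hl : lam ^ 2 = b ^ 2 * (n + 1)) (σ σ' : Cf n) :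
    ft β b σ ⬝ᵥ ft β b σ' = fe lam XX σ ⬝ᵥ fe lam XX σ' := by
  have h := mul_self_sqrt (Np n).le
  have h0 : √((n : ℝ) + 1) ≠ 0 := (sqrt_pos.2 (Np n)).ne'
  have hN := (Np n).ne'
  have e0 : (fun e : Edge (n + 1) => ft β b σ' e.1) = fs β σ' := by
    funext e
    have : e.1 ≠ (0, 0) := fun h => by have := e.2; simp [h] at this
    simp [ft, fs, e.2, this]
  have e1 : ∀ (σ : Cf n) (e : Edge (n + 1)), fs β σ e = β * √(n + 1) * XX σ e.1 := fun σ e => by
    simp only [fs, XX, op, xs]; field_simp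
  rw [ft_dot, e0]
  simp only [fe, smul_dotProduct, dotProduct_smul, smul_eq_mul]
  rw [dotProduct, dotProduct, sum_tri (φ := fun e => XX σ e * XX σ' e) fun i j => by
    simp only [XX, op]; ring]
  have e2 : ∀ (σ : Cf n) i, XX σ (i, i) = 1 / (n + 1) := fun σ i => xs_mul σ i
  have e3 : ∀ e : Edge (n + 1), fs β σ e * fs β σ' e = β ^ 2 * (n + 1) * (XX σ e.1 * XX σ' e.1) :=
    fun e => by rw [e1, e1]; linear_combination β ^ 2 * (XX σ e.1 * XX σ' e.1) * h
  simp only [e2, e3, ← Finset.mul_sum, ft, lt_irrefl, if_false, if_true, zero_add, Finset.sum_const,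
    Finset.card_univ, Fintype.card_fin, nsmul_eq_mul]
  rw [← mul_assoc lam, ← sq lam, hl, ← hb, ← sq b]
  push_cast
  field_simp

theorem transfer {β b : ℝ} (hb : 2 * b ^ 2 = β ^ 2) (hl : lam ^ 2 = b ^ 2 * (n + 1)) :
    Var[freeEnergy β (n + 1); disorder (n + 1)] ≤ 2 * Var[FF (n := n) lam; gp (Ix n)] + β ^ 2 := by
  obtain ⟨U, hU, hU'⟩ := gp_isometry (fe lam XX) (ft β b) (gram hb hl)
  have hr : MeasurePreserving (fun (g : XS n) (e : Edge (n + 1)) => g e.1) (gp (Ix n))
      (gp (Edge (n + 1))) := measurePreserving_fst.comp (measurePreserving_piEquivPiSubtypeProd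
        (fun _ : Ix n => gaussianReal 0 1) fun e => e.1 < e.2)
  have hm : MemLp (FF (n := n) lam) 2 (gp (Ix n)) := memLp_lpf _
  have hc := cont_lpf (fs (n := n) β)
  have hX : MemLp (fun g => FF lam (U g)) 2 (gp (Ix n)) := hm.comp_measurePreserving hU
  have hY := ibp0_memLp (Pi.single (0, 0) b : XS n)
  have e1 : ∀ g : XS n, log (pf (fs β) fun e => g e.1) =
      FF lam (U g) - (Pi.single (0, 0) b : XS n) ⬝ᵥ g := fun g => by
    simp only [FF, pf, ← hU', ft_dot, exp_add, ← Finset.sum_mul, single_dotProduct]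
    have h := (pf_pos (fs (n := n) β) fun e => g e.1).ne'
    rw [pf] at h
    rw [log_mul h (exp_pos _).ne', log_exp]
    ring
  have hc' : Continuous fun g : XS n => log (pf (fs β) fun e => g e.1) :=
    hc.comp (f := fun (g : XS n) (e : Edge (n + 1)) => g e.1) (by fun_prop)
  rw [free_eq, disorder, ← hr.variance_fun_comp hc.aemeasurable,
    ← hU.variance_fun_comp hm.aemeasurable, variance_eq_integral hX.aemeasurable,
    ← variance_sub_const hc'.aestronglyMeasurable (∫ g, FF lam (U g) ∂gp (Ix n))]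
  refine (variance_le_expectation_sq (hc'.sub continuous_const).aestronglyMeasurable).trans ?_
  have i1 := (hX.sub (memLp_const (∫ g, FF lam (U g) ∂gp (Ix n)))).integrable_sq
  refine (integral_mono_of_nonneg (ae_of_all _ fun g => sq_nonneg _)
    ((i1.const_mul 2).add (hY.integrable_sq.const_mul 2)) (ae_of_all _ fun g => ?_)).trans_eq ?_
  · simp only [Pi.pow_apply, Pi.add_apply, Pi.sub_apply, Function.comp, e1]
    nlinarith [sq_nonneg (FF lam (U g) - (∫ g, FF lam (U g) ∂gp (Ix n)) +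
      (Pi.single (0, 0) b : XS n) ⬝ᵥ g)]
  · simp only [Pi.add_apply]
    rw [integral_add (i1.const_mul 2) (hY.integrable_sq.const_mul 2), integral_const_mul,
      integral_const_mul, ibp0_sq, single_dotProduct, Pi.single_eq_same, ← hb, sq b]
    rfl

theorem main (β : ℝ) (hβ : 0 < β) : ∃ C : ℝ, ∀ n : ℕ, 2 ≤ n →
    MemLp (freeEnergy β n) 2 (disorder n) ∧
      Var[freeEnergy β n; disorder n] ≤ C * (n : ℝ) ^ (35 / 36 : ℝ) := by
  set b := β / √2 with hbd
  have hb : 0 < b := by positivity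
  have hb2 : 2 * b ^ 2 = β ^ 2 := by
    rw [hbd, div_pow, sq_sqrt zero_le_two]; ring
  have hK : 0 ≤ K0 b := by unfold K0; positivity
  refine ⟨2 * (2 * b ^ 2 * (2 + 2 * K0 b) * (π / 2)) + β ^ 2, fun m hm => ?_⟩
  obtain ⟨n, rfl⟩ : ∃ n, m = n + 1 := ⟨m - 1, by omega⟩
  refine ⟨by rw [free_eq]; exact memLp_lpf _, ?_⟩
  have hN := Np n
  have hN1 : (1 : ℝ) ≤ n + 1 := by simp
  set ε : ℝ := (n + 1) ^ (-(1 / 36) : ℝ) with hε
  have h0 : 0 < ε := rpow_pos_of_pos hN _
  have h1 : ε ≤ 1 := rpow_le_one_of_one_le_of_nonpos hN1 (by norm_num)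
  have h2 : (n : ℝ) + 1 = 1 / ε ^ 36 := by
    rw [hε, ← rpow_natCast, ← rpow_mul hN.le, one_div, ← rpow_neg hN.le]
    norm_num
  have h3 : ((n : ℝ) + 1) * ε = (n + 1) ^ (35 / 36 : ℝ) := by
    rw [hε, ← rpow_one_add' hN.le (by norm_num)]
    norm_num
  have h4 : (b / ε ^ 18) ^ 2 = b ^ 2 * (n + 1) := by rw [h2]; field_simp
  have h5 := var_FF (n := n) (lam := b / ε ^ 18) (by positivity) (by positivity)
    fun α hα => yy_le hb h0 h1 h2 hα
  have h6 := transfer hb2 h4
  have h7 := mul_le_mul_of_nonneg_left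
    (one_le_rpow hN1 (show (0 : ℝ) ≤ 35 / 36 by norm_num)) (sq_nonneg β)
  rw [h4] at h5
  push_cast
  rw [← h3] at h7 ⊢
  linarith

end

end Vale.Agent.P146
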