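import Mathlib

/-! P146: finite Gibbs averages with linear features. -/

open Real Finset
open scoped BigOperators Matrix

namespace Vale.Agent.P146

noncomputable section

variable {S ι : Type} [Fintype S] [Nonempty S] [Fintype ι]

/-- partition function -/
def pf (a : S → ι → ℝ) (g : ι → ℝ) : ℝ := ∑ σ, exp (a σ ⬝ᵥ g)

/-- Gibbs weight -/
def gw (a : S → ι → ℝ) (g : ι → ℝ) (σ : S) : ℝ := exp (a σ ⬝ᵥ g) / pf a g

/-- Gibbs average -/
def av (a : S → ι → ℝ) (g : ι → ℝ) (b : S → ℝ) : ℝ := ∑ σ, gw a g σ * b σ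

/-- Gibbs covariance -/
def cv (a : S → ι → ℝ) (g : ι → ℝ) (b b' : S → ℝ) : ℝ :=
  av a g (fun σ => b σ * b' σ) - av a g b * av a g b'

variable {a : S → ι → ℝ} {g : ι → ℝ} {b b' : S → ℝ}

theorem pf_pos (a : S → ι → ℝ) (g : ι → ℝ) : 0 < pf a g :=
  Finset.sum_pos (fun _ _ => exp_pos _) Finset.univ_nonempty

theorem gw_pos (a : S → ι → ℝ) (g : ι → ℝ) (σ : S) : 0 < gw a g σ :=
  div_pos (exp_pos _) (pf_pos a g)

theorem sum_gw (a : S → ι → ℝ) (g : ι → ℝ) : ∑ σ, gw a g σ = 1 := by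
  unfold gw
  rw [← Finset.sum_div]
  exact div_self (pf_pos a g).ne'

theorem gw_le_one (a : S → ι → ℝ) (g : ι → ℝ) (σ : S) : gw a g σ ≤ 1 := by
  rw [← sum_gw a g]
  exact Finset.single_le_sum (fun τ _ => (gw_pos a g τ).le) (Finset.mem_univ σ)

theorem av_const (a : S → ι → ℝ) (g : ι → ℝ) (c : ℝ) : av a g (fun _ => c) = c := by
  unfold av
  rw [← Finset.sum_mul, sum_gw, one_mul]

omit [Nonempty S] in
theorem av_add (b b' : S → ℝ) : av a g (fun σ => b σ + b' σ) = av a g b + av a g b' := by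
  simp only [av, mul_add, Finset.sum_add_distrib]

omit [Nonempty S] in
theorem av_sub (b b' : S → ℝ) : av a g (fun σ => b σ - b' σ) = av a g b - av a g b' := by
  simp only [av, mul_sub, Finset.sum_sub_distrib]

omit [Nonempty S] in
theorem av_cmul (c : ℝ) (b : S → ℝ) : av a g (fun σ => c * b σ) = c * av a g b := by
  simp only [av, Finset.mul_sum]
  exact Finset.sum_congr rfl fun _ _ => by ring

omit [Nonempty S] in
theorem av_mulc (c : ℝ) (b : S → ℝ) : av a g (fun σ => b σ * c) = av a g b * c := by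
  simp only [av, Finset.sum_mul]
  exact Finset.sum_congr rfl fun _ _ => by ring

omit [Nonempty S] in
theorem av_sum {κ : Type} [Fintype κ] (b : κ → S → ℝ) :
    av a g (fun σ => ∑ k, b k σ) = ∑ k, av a g (b k) := by
  simp only [av, Finset.mul_sum]
  exact Finset.sum_comm

theorem av_mono (h : ∀ σ, b σ ≤ b' σ) : av a g b ≤ av a g b' :=
  Finset.sum_le_sum fun σ _ => mul_le_mul_of_nonneg_left (h σ) (gw_pos a g σ).le

theorem av_le {c : ℝ} (h : ∀ σ, b σ ≤ c) : av a g b ≤ c :=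
  (av_mono h).trans_eq (av_const a g c)

theorem av_nonneg (h : ∀ σ, 0 ≤ b σ) : 0 ≤ av a g b :=
  (av_const a g 0).symm.trans_le (av_mono h)

theorem abs_av_le {c : ℝ} (h : ∀ σ, |b σ| ≤ c) : |av a g b| ≤ c := by
  rw [abs_le]
  refine ⟨?_, av_le fun σ => (abs_le.1 (h σ)).2⟩
  exact (av_const a g (-c)).symm.trans_le (av_mono fun σ => (abs_le.1 (h σ)).1)

theorem av_le_sum (h : ∀ σ, 0 ≤ b σ) : av a g b ≤ ∑ σ, b σ :=
  Finset.sum_le_sum fun σ _ => mul_le_of_le_one_left (h σ) (gw_le_one a g σ)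

theorem cv_eq (b b' : S → ℝ) :
    cv a g b b' = av a g (fun σ => (b σ - av a g b) * b' σ) := by
  simp only [sub_mul, av_sub, av_cmul, cv]

theorem cv_self (b : S → ℝ) : cv a g b b = av a g (fun σ => (b σ - av a g b) ^ 2) := by
  have e : (fun σ => (b σ - av a g b) ^ 2) =
      fun σ => (b σ * b σ - 2 * av a g b * b σ) + av a g b ^ 2 := by
    funext σ; ring
  rw [e, av_add, av_sub, av_cmul, av_const, cv]
  ring

theorem cv_self_nonneg (b : S → ℝ) : 0 ≤ cv a g b b := by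
  rw [cv_self]
  exact av_nonneg fun _ => sq_nonneg _

omit [Nonempty S] in
theorem cv_comm (b b' : S → ℝ) : cv a g b b' = cv a g b' b := by
  simp only [cv, mul_comm]

theorem cv_const (b : S → ℝ) (c : ℝ) : cv a g b (fun _ => c) = 0 := by
  rw [cv, av_mulc, av_const, sub_self]

omit [Nonempty S] in
theorem cv_cmul (c : ℝ) (b b' : S → ℝ) : cv a g b (fun σ => c * b' σ) = c * cv a g b b' := by
  have e : (fun σ => b σ * (c * b' σ)) = fun σ => c * (b σ * b' σ) := by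
    funext σ; ring
  rw [cv, e, av_cmul, av_cmul, cv]
  ring

omit [Nonempty S] in
theorem cv_sum {κ : Type} [Fintype κ] (b : S → ℝ) (b' : κ → S → ℝ) :
    cv a g b (fun σ => ∑ k, b' k σ) = ∑ k, cv a g b (b' k) := by
  simp only [cv, Finset.mul_sum, av_sum, Finset.sum_sub_distrib]

omit [Nonempty S] in
theorem cv_dot (b : S → ℝ) (x : S → ι → ℝ) (v : ι → ℝ) :
    cv a g b (fun σ => x σ ⬝ᵥ v) = (fun e => cv a g b (fun σ => x σ e)) ⬝ᵥ v := by
  simp only [dotProduct, cv_sum]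
  refine Finset.sum_congr rfl fun e _ => ?_
  rw [mul_comm _ (v e), ← cv_cmul]
  congr 1
  funext σ
  ring

/-- AM-GM form of Cauchy-Schwarz -/
theorem abs_cv_le {κ : ℝ} (hκ : 0 < κ) (b b' : S → ℝ) :
    |cv a g b b'| ≤ (cv a g b b / κ + κ * av a g (fun σ => b' σ ^ 2)) / 2 := by
  have key : ∀ x y : ℝ, |x * y| ≤ (x ^ 2 / κ + κ * y ^ 2) / 2 := by
    intro x y
    rw [abs_mul, ← sq_abs x, ← sq_abs y]
    have h : 0 ≤ (|x| - κ * |y|) ^ 2 / κ := by positivity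
    have e : (|x| - κ * |y|) ^ 2 / κ = |x| ^ 2 / κ + κ * |y| ^ 2 - 2 * (|x| * |y|) := by
      field_simp; ring
    linarith
  have e : (cv a g b b / κ + κ * av a g (fun σ => b' σ ^ 2)) / 2 =
      av a g (fun σ => ((b σ - av a g b) ^ 2 / κ + κ * b' σ ^ 2) / 2) := by
    rw [cv_self]
    simp only [div_eq_mul_inv, av_mulc, av_add, av_cmul]
  rw [e, cv_eq, abs_le]
  constructor
  · have h := av_mono (a := a) (g := g)
      (b := fun σ => (-1) * (((b σ - av a g b) ^ 2 / κ + κ * b' σ ^ 2) / 2))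
      (b' := fun σ => (b σ - av a g b) * b' σ) fun σ => by
        have := (abs_le.1 (key (b σ - av a g b) (b' σ))).1
        linarith
    rw [av_cmul] at h
    linarith
  · exact av_mono fun σ => (abs_le.1 (key _ _)).2

theorem abs_cv_le_one {κ : ℝ} (hκ : 0 < κ) (b : S → ℝ) (h : ∀ σ, |b' σ| ≤ 1) :
    |cv a g b b'| ≤ (cv a g b b / κ + κ) / 2 := by
  refine (abs_cv_le hκ b b').trans ?_
  have : av a g (fun σ => b' σ ^ 2) ≤ 1 := av_le fun σ => by
    rw [← sq_abs]; exact pow_le_one₀ (abs_nonneg _) (h σ)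
  have h2 : κ * av a g (fun σ => b' σ ^ 2) ≤ κ * 1 := mul_le_mul_of_nonneg_left this hκ.le
  linarith

theorem abs_cv_bd {c c' : ℝ} (h : ∀ σ, |b σ| ≤ c) (h' : ∀ σ, |b' σ| ≤ c') :
    |cv a g b b'| ≤ 2 * (c * c') := by
  have h1 : |av a g (fun σ => b σ * b' σ)| ≤ c * c' := abs_av_le fun σ => by
    rw [abs_mul]; exact mul_le_mul (h σ) (h' σ) (abs_nonneg _) ((abs_nonneg _).trans (h σ))
  have h2 : |av a g b * av a g b'| ≤ c * c' := by
    rw [abs_mul]
    exact mul_le_mul (abs_av_le h) (abs_av_le h') (abs_nonneg _)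
      ((abs_nonneg _).trans (abs_av_le (a := a) (g := g) h))
  have := abs_sub (av a g (fun σ => b σ * b' σ)) (av a g b * av a g b')
  rw [cv]
  linarith

theorem dot_amgm (x y : ι → ℝ) {κ : ℝ} (hκ : 0 < κ) :
    x ⬝ᵥ y ≤ (x ⬝ᵥ x / κ + κ * (y ⬝ᵥ y)) / 2 := by
  simp only [dotProduct, Finset.sum_div, Finset.mul_sum, ← Finset.sum_add_distrib]
  refine Finset.sum_le_sum fun i _ => ?_
  have h : 0 ≤ (x i - κ * y i) ^ 2 / κ := by positivity
  have e : (x i - κ * y i) ^ 2 / κ = x i * x i / κ + κ * (y i * y i) - 2 * (x i * y i) := by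
    field_simp; ring
  linarith

theorem dot_self_nn (x : ι → ℝ) : 0 ≤ x ⬝ᵥ x := Finset.sum_nonneg fun _ _ => mul_self_nonneg _

theorem dot_sq_le (x y : ι → ℝ) : (x ⬝ᵥ y) ^ 2 ≤ (x ⬝ᵥ x) * (y ⬝ᵥ y) := by
  simpa only [dotProduct, sq] using Finset.sum_mul_sq_le_sq_mul_sq Finset.univ x y

theorem abs_dot_le_one {x y : ι → ℝ} (hx : x ⬝ᵥ x ≤ 1) (hy : y ⬝ᵥ y ≤ 1) : |x ⬝ᵥ y| ≤ 1 := by
  rw [← sq_le_one_iff_abs_le_one]
  exact (dot_sq_le x y).trans (mul_le_one₀ hx (dot_self_nn y) hy)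

/-- the vector of covariances with features of norm at most one is short -/
theorem cv_vec_le (b : S → ℝ) {x : S → ι → ℝ} (hx : ∀ σ, x σ ⬝ᵥ x σ ≤ 1) :
    (fun e => cv a g b (fun σ => x σ e)) ⬝ᵥ (fun e => cv a g b (fun σ => x σ e)) ≤ cv a g b b := by
  set Θ : ι → ℝ := fun e => cv a g b (fun σ => x σ e) with hΘ
  have h1 : Θ ⬝ᵥ Θ = cv a g b (fun σ => x σ ⬝ᵥ Θ) := (cv_dot b x Θ).symm
  have h2 := (le_abs_self _).trans (abs_cv_le (a := a) (g := g) one_pos b (fun σ => x σ ⬝ᵥ Θ))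
  have h3 : av a g (fun σ => (x σ ⬝ᵥ Θ) ^ 2) ≤ Θ ⬝ᵥ Θ := av_le fun σ =>
    (dot_sq_le _ _).trans (mul_le_of_le_one_left (dot_self_nn Θ) (hx σ))
  rw [div_one, one_mul] at h2
  linarith

theorem one_le_av_mul (h : ∀ σ, 0 < b σ) : 1 ≤ av a g b * av a g (fun σ => (b σ)⁻¹) := by
  have hp : 0 < av a g b :=
    Finset.sum_pos (fun σ _ => mul_pos (gw_pos a g σ) (h σ)) Finset.univ_nonempty
  set m := av a g b with hm
  have h1 : av a g (fun σ => 2 / m - b σ * (1 / m ^ 2)) ≤ av a g (fun σ => (b σ)⁻¹) :=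
    av_mono fun σ => by
      have hb := h σ
      have e : (b σ)⁻¹ - (2 / m - b σ * (1 / m ^ 2)) = (m - b σ) ^ 2 / (b σ * m ^ 2) := by
        field_simp; ring
      have : 0 ≤ (m - b σ) ^ 2 / (b σ * m ^ 2) := by positivity
      linarith
  rw [av_sub, av_const, av_mulc, ← hm] at h1
  have e : 2 / m - m * (1 / m ^ 2) = 1 / m := by field_simp; ring
  rw [e] at h1
  calc (1 : ℝ) = m * (1 / m) := by field_simp
    _ ≤ _ := mul_le_mul_of_nonneg_left h1 hp.le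

theorem av_sq_le (b : S → ℝ) : av a g b ^ 2 ≤ av a g (fun σ => b σ ^ 2) := by
  have := cv_self_nonneg (a := a) (g := g) b
  simp only [cv, ← sq] at this
  linarith

/-- tilting -/
theorem av_tilt (g r : ι → ℝ) (b : S → ℝ) :
    av a (g + r) b = av a g (fun σ => b σ * exp (a σ ⬝ᵥ r)) / av a g (fun σ => exp (a σ ⬝ᵥ r)) := by
  have h1 := (pf_pos a g).ne'
  have h2 := (pf_pos a (g + r)).ne'
  have e : av a g (fun σ => exp (a σ ⬝ᵥ r)) = pf a (g + r) / pf a g := by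
    simp only [av, gw, pf, dotProduct_add, exp_add, Finset.sum_div]
    exact Finset.sum_congr rfl fun _ _ => by ring
  rw [e]
  simp only [av, gw, dotProduct_add, exp_add, Finset.sum_div]
  refine Finset.sum_congr rfl fun σ _ => ?_
  field_simp

theorem tilt_le {κ : ℝ} (hκ : 0 < κ) (g r : ι → ℝ) (b : S → ℝ) :
    |av a (g + r) b - av a g b| ≤ (cv a g b b / κ +
      κ * av a g (fun σ => exp (4 * (a σ ⬝ᵥ r)) + exp (-4 * (a σ ⬝ᵥ r)))) / 2 := by
  set E : S → ℝ := fun σ => exp (a σ ⬝ᵥ r) with hE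
  have hEp : ∀ σ, 0 < E σ := fun σ => exp_pos _
  have hp : 0 < av a g E :=
    Finset.sum_pos (fun σ _ => mul_pos (gw_pos a g σ) (hEp σ)) Finset.univ_nonempty
  have e1 : av a (g + r) b - av a g b = cv a g b (fun σ => (av a g E)⁻¹ * E σ) := by
    rw [av_tilt, cv_cmul, cv]
    change av a g (fun σ => b σ * E σ) / av a g E - _ = _
    field_simp
  rw [e1]
  refine (abs_cv_le hκ _ _).trans ?_
  gcongr
  have e2 : av a g (fun σ => ((av a g E)⁻¹ * E σ) ^ 2) =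
      (av a g E)⁻¹ ^ 2 * av a g (fun σ => E σ ^ 2) := by
    simp only [mul_pow, av_cmul]
  have h3 : (av a g E)⁻¹ ≤ av a g (fun σ => (E σ)⁻¹) := by
    rw [inv_le_iff_one_le_mul₀' hp]
    exact one_le_av_mul hEp
  have h4 : (av a g E)⁻¹ ^ 2 ≤ av a g (fun σ => (E σ)⁻¹ ^ 2) :=
    (pow_le_pow_left₀ (by positivity) h3 2).trans (av_sq_le _)
  have h5 := av_sq_le (a := a) (g := g) (fun σ => (E σ)⁻¹ ^ 2)
  have h6 := av_sq_le (a := a) (g := g) (fun σ => E σ ^ 2)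
  have h7 : 0 ≤ av a g (fun σ => E σ ^ 2) := av_nonneg fun _ => sq_nonneg _
  have e3 : (fun σ => exp (4 * (a σ ⬝ᵥ r)) + exp (-4 * (a σ ⬝ᵥ r))) =
      fun σ => (E σ ^ 2) ^ 2 + ((E σ)⁻¹ ^ 2) ^ 2 := by
    funext σ
    simp only [hE, ← exp_neg, ← pow_mul, ← exp_nat_mul]
    congr 2 <;> push_cast <;> ring
  rw [e2, e3, av_add]
  have h8 := mul_le_mul_of_nonneg_right h4 h7
  nlinarith [sq_nonneg (av a g (fun σ => (E σ)⁻¹ ^ 2) - av a g (fun σ => E σ ^ 2)),
    sq_nonneg (av a g (fun σ => (E σ)⁻¹ ^ 2)), sq_nonneg (av a g (fun σ => E σ ^ 2))]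

/-! continuity and derivatives -/

section cont
variable {α : Type} [TopologicalSpace α]

omit [Nonempty S] in
@[fun_prop] theorem cont_pf (a : S → ι → ℝ) {G : α → ι → ℝ} (hG : Continuous G) :
    Continuous fun x => pf a (G x) := by
  unfold pf; fun_prop

@[fun_prop] theorem cont_gw (a : S → ι → ℝ) {G : α → ι → ℝ} (hG : Continuous G) (σ : S) :
    Continuous fun x => gw a (G x) σ := by
  unfold gw
  exact Continuous.div (by fun_prop) (cont_pf a hG) fun x => (pf_pos a _).ne'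

theorem cont_av (a : S → ι → ℝ) {G : α → ι → ℝ} (hG : Continuous G) {B : α → S → ℝ}
    (hB : ∀ σ, Continuous fun x => B x σ) : Continuous fun x => av a (G x) (B x) := by
  unfold av
  exact continuous_finsetSum _ fun σ _ => (cont_gw a hG σ).mul (hB σ)

theorem cont_cv (a : S → ι → ℝ) {G : α → ι → ℝ} (hG : Continuous G) {B B' : α → S → ℝ}
    (hB : ∀ σ, Continuous fun x => B x σ) (hB' : ∀ σ, Continuous fun x => B' x σ) :
    Continuous fun x => cv a (G x) (B x) (B' x) := by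
  unfold cv
  exact (cont_av a hG fun σ => (hB σ).mul (hB' σ)).sub ((cont_av a hG hB).mul (cont_av a hG hB'))

end cont

theorem der_dot (x : ι → ℝ) {G : ℝ → ι → ℝ} {G' : ι → ℝ} {t : ℝ} (hG : HasDerivAt G G' t) :
    HasDerivAt (fun t => x ⬝ᵥ G t) (x ⬝ᵥ G') t := by
  unfold dotProduct
  exact HasDerivAt.fun_sum fun i _ => ((hasDerivAt_pi.1 hG) i).const_mul (x i)

omit [Nonempty S] in
theorem der_num (b : S → ℝ) {G : ℝ → ι → ℝ} {G' : ι → ℝ} {t : ℝ} (hG : HasDerivAt G G' t) :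
    HasDerivAt (fun t => ∑ σ, exp (a σ ⬝ᵥ G t) * b σ)
      (∑ σ, exp (a σ ⬝ᵥ G t) * (a σ ⬝ᵥ G') * b σ) t :=
  HasDerivAt.fun_sum fun σ _ => ((der_dot (a σ) hG).exp).mul_const (b σ)

theorem der_av (b : S → ℝ) {G : ℝ → ι → ℝ} {G' : ι → ℝ} {t : ℝ} (hG : HasDerivAt G G' t) :
    HasDerivAt (fun t => av a (G t) b) (cv a (G t) b (fun σ => a σ ⬝ᵥ G')) t := by
  have h1 := der_num (a := a) b hG
  have h2 := der_num (a := a) (fun _ => 1) hG
  have hp := (pf_pos a (G t)).ne'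
  simp only [mul_one] at h2
  have h3 := h1.div h2 hp
  have e : (fun t => av a (G t) b) =
      (fun t => ∑ σ, exp (a σ ⬝ᵥ G t) * b σ) / fun t => ∑ σ, exp (a σ ⬝ᵥ G t) := by
    funext t
    simp only [av, gw, pf, Pi.div_apply, Finset.sum_div]
    exact Finset.sum_congr rfl fun _ _ => by ring
  rw [e]
  refine h3.congr_deriv ?_
  have e1 : ∀ c : S → ℝ, av a (G t) c = (∑ σ, exp (a σ ⬝ᵥ G t) * c σ) / pf a (G t) := fun c => by
    simp only [av, gw, Finset.sum_div]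
    exact Finset.sum_congr rfl fun _ _ => by ring
  have e2 : ∑ σ, exp (a σ ⬝ᵥ G t) * (a σ ⬝ᵥ G') * b σ =
      ∑ σ, exp (a σ ⬝ᵥ G t) * (b σ * (a σ ⬝ᵥ G')) := Finset.sum_congr rfl fun _ _ => by ring
  rw [cv, e1, e1, e1, e2]
  change _ / pf a (G t) ^ 2 = _
  change (_ * pf a (G t) - _) / _ = _
  field_simp

theorem der_lpf {G : ℝ → ι → ℝ} {G' : ι → ℝ} {t : ℝ} (hG : HasDerivAt G G' t) :
    HasDerivAt (fun t => log (pf a (G t))) (av a (G t) (fun σ => a σ ⬝ᵥ G')) t := by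
  have h2 := der_num (a := a) (fun _ => 1) hG
  simp only [mul_one] at h2
  refine (h2.log (pf_pos a (G t)).ne').congr_deriv ?_
  simp only [av, gw, pf, Finset.sum_div]
  exact Finset.sum_congr rfl fun _ _ => by ring

end

end Vale.Agent.P146
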