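import Vale.Agent.P157.IBP0
import Vale.Agent.P146.Gibbs

/-! P146: Gaussian interpolation for pairs of smooth bounded functions. -/

open MeasureTheory ProbabilityTheory Real P157
open scoped BigOperators Matrix

namespace Vale.Agent.P146

noncomputable section

variable {ι : Type} [Fintype ι]

theorem int_bd {Ω : Type} [MeasurableSpace Ω] {P : Measure Ω} [IsFiniteMeasure P] {f : Ω → ℝ}
    (hf : Measurable f) {K : ℝ} (h : ∀ ω, |f ω| ≤ K) : Integrable f P :=
  Integrable.of_bound hf.aestronglyMeasurable K (ae_of_all _ h)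

theorem abs_int_le {Ω : Type} [MeasurableSpace Ω] {P : Measure Ω} [IsProbabilityMeasure P]
    {f : Ω → ℝ} {K : ℝ} (h : ∀ ω, |f ω| ≤ K) : |∫ ω, f ω ∂P| ≤ K := by
  have := norm_integral_le_of_norm_le_const (μ := P) (f := f) (C := K) (ae_of_all _ h)
  simpa using this

theorem mp_int {Ω Ω' : Type} [MeasurableSpace Ω] [MeasurableSpace Ω'] {P : Measure Ω}
    {Q : Measure Ω'} {T : Ω → Ω'} (hT : MeasurePreserving T P Q) {f : Ω' → ℝ} (hf : Measurable f) :
    ∫ y, f y ∂Q = ∫ x, f (T x) ∂P := by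
  rw [← hT.map_eq, integral_map hT.measurable.aemeasurable hf.aestronglyMeasurable]

/-- bounded functions with bounded continuous gradient -/
structure C1 (f : (ι → ℝ) → ℝ) (f' : (ι → ℝ) → ι → ℝ) (K : ℝ) : Prop where
  cont : Continuous f
  cont' : Continuous f'
  bd : ∀ z, |f z| ≤ K
  bd' : ∀ z e, |f' z e| ≤ K
  der : ∀ (G : ℝ → ι → ℝ) (G' : ι → ℝ) (t : ℝ), HasDerivAt G G' t →
    HasDerivAt (fun t => f (G t)) (f' (G t) ⬝ᵥ G') t

variable {f h : (ι → ℝ) → ℝ} {f' h' : (ι → ℝ) → ι → ℝ} {K : ℝ}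

theorem C1.nn (hf : C1 f f' K) : 0 ≤ K := (abs_nonneg _).trans (hf.bd 0)

theorem int_coord (e : ι) : Integrable (fun g : ι → ℝ => g e) (gp ι) :=
  (measurePreserving_eval (fun _ : ι => gaussianReal 0 1) e).integrable_comp_of_integrable ibp0_id

theorem ibp_vec (hh : C1 h h' K) (v y : ι → ℝ) (τ : ℝ) :
    ∫ b, (v ⬝ᵥ b) * h (y + τ • b) ∂gp ι = τ * ∫ b, v ⬝ᵥ h' (y + τ • b) ∂gp ι := by
  classical
  have hc := hh.cont
  have hc' := hh.cont'
  have key : ∀ e, ∫ b, b e * h (y + τ • b) ∂gp ι = ∫ b, τ * h' (y + τ • b) e ∂gp ι := by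
    intro e
    refine gp_ibp e (Continuous.measurable (by fun_prop)) (Continuous.measurable (by fun_prop))
      (fun g => ?_) (C := K * (1 + |τ|)) (fun g => ?_) fun g => ?_
    · have hd : HasDerivAt (fun t => y + τ • Function.update g e t) (τ • Pi.single e 1) (g e) :=
        ((hasDerivAt_update g e (g e)).const_smul τ).const_add y
      refine (hh.der _ _ _ hd).congr_deriv ?_
      rw [Function.update_eq_self, dotProduct_smul, dotProduct_single, mul_one, smul_eq_mul]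
    · nlinarith [hh.bd (y + τ • g), hh.nn, abs_nonneg τ]
    · rw [abs_mul]
      nlinarith [hh.bd' (y + τ • g) e, hh.nn, abs_nonneg τ, abs_nonneg (h' (y + τ • g) e)]
  have i1 : ∀ e, Integrable (fun b : ι → ℝ => v e * (b e * h (y + τ • b))) (gp ι) := fun e =>
    ((int_coord e).mul_bdd (Continuous.aestronglyMeasurable (by fun_prop))
      (ae_of_all _ fun b => hh.bd _)).const_mul _
  have i2 : ∀ e, Integrable (fun b : ι → ℝ => v e * h' (y + τ • b) e) (gp ι) := fun e =>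
    (int_bd (Continuous.measurable (by fun_prop)) fun b => hh.bd' _ e).const_mul _
  simp only [dotProduct, Finset.sum_mul, mul_assoc]
  rw [integral_finsetSum _ fun e _ => i1 e, integral_finsetSum _ fun e _ => i2 e, Finset.mul_sum]
  refine Finset.sum_congr rfl fun e _ => ?_
  rw [integral_const_mul, integral_const_mul, key, integral_const_mul]
  ring

/-- three independent Gaussian vectors -/
abbrev g3 (ι : Type) [Fintype ι] : Measure (((ι → ℝ) × (ι → ℝ)) × (ι → ℝ)) :=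
  ((gp ι).prod (gp ι)).prod (gp ι)

theorem swap23 : MeasurePreserving
    (fun p : ((ι → ℝ) × (ι → ℝ)) × (ι → ℝ) => ((p.1.1, p.2), p.1.2)) (g3 ι) (g3 ι) :=
  ((measurePreserving_prodAssoc (gp ι) (gp ι) (gp ι)).symm _).comp
    (((MeasurePreserving.id (gp ι)).prod Measure.measurePreserving_swap).comp
      (measurePreserving_prodAssoc (gp ι) (gp ι) (gp ι)))

/-- the two correlated vectors -/
def c1 (α : ℝ) (p : ((ι → ℝ) × (ι → ℝ)) × (ι → ℝ)) : ι → ℝ := sin α • p.1.1 + cos α • p.1.2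
def c2 (α : ℝ) (p : ((ι → ℝ) × (ι → ℝ)) × (ι → ℝ)) : ι → ℝ := sin α • p.1.1 + cos α • p.2

omit [Fintype ι] in
@[fun_prop] theorem cont_c1 (α : ℝ) : Continuous (c1 (ι := ι) α) := by unfold c1; fun_prop
omit [Fintype ι] in
@[fun_prop] theorem cont_c2 (α : ℝ) : Continuous (c2 (ι := ι) α) := by unfold c2; fun_prop

theorem abs_dot_le {x y : ι → ℝ} {K : ℝ} (hx : ∀ e, |x e| ≤ K) : |x ⬝ᵥ y| ≤ K * ∑ e, |y e| := by
  rw [Finset.mul_sum]
  refine (Finset.abs_sum_le_sum_abs _ _).trans (Finset.sum_le_sum fun e _ => ?_)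
  rw [abs_mul]
  exact mul_le_mul_of_nonneg_right (hx e) (abs_nonneg _)

theorem abs_dot_le' {x y : ι → ℝ} {K : ℝ} (hx : ∀ e, |x e| ≤ K) (hy : ∀ e, |y e| ≤ K) :
    |x ⬝ᵥ y| ≤ Fintype.card ι * K ^ 2 := by
  refine (Finset.abs_sum_le_sum_abs _ _).trans ?_
  refine (Finset.sum_le_card_nsmul _ _ (K ^ 2) fun e _ => ?_).trans (by simp)
  rw [abs_mul, sq]
  exact mul_le_mul (hx e) (hy e) (abs_nonneg _) ((abs_nonneg _).trans (hx e))

theorem int_l1 : Integrable (fun g : ι → ℝ => ∑ e, |g e|) (gp ι) :=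
  integrable_finsetSum _ fun e _ => (int_coord e).abs

theorem half_term (hf : C1 f f' K) (hh : C1 h h' K) (α : ℝ) :
    ∫ p, (f' (c1 α p) ⬝ᵥ (cos α • p.1.1 - sin α • p.1.2)) * h (c2 α p) ∂g3 ι =
      sin α * cos α * ∫ p, f' (c1 α p) ⬝ᵥ h' (c2 α p) ∂g3 ι := by
  have hc := hh.cont
  have hc' := hh.cont'
  have hd := hf.cont'
  have R := ((gp_rotate (ι := ι) α).prod (MeasurePreserving.id (gp ι))).comp swap23
  have hsc := sin_sq_add_cos_sq α
  have e1 : ∀ a b : ι → ℝ, sin α • (sin α • a + cos α • b) + cos α • (cos α • a - sin α • b) = a := by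
    intro a b; funext e; simp only [Pi.add_apply, Pi.sub_apply, Pi.smul_apply, smul_eq_mul]
    linear_combination a e * hsc
  have e2 : ∀ a b : ι → ℝ, cos α • (sin α • a + cos α • b) - sin α • (cos α • a - sin α • b) = b := by
    intro a b; funext e; simp only [Pi.add_apply, Pi.sub_apply, Pi.smul_apply, smul_eq_mul]
    linear_combination b e * hsc
  have e3 : ∀ a b z : ι → ℝ, sin α • (sin α • a + cos α • b) + cos α • z =
      (sin α ^ 2 • a + cos α • z) + (sin α * cos α) • b := by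
    intro a b z; funext e; simp only [Pi.add_apply, Pi.smul_apply, smul_eq_mul]; ring
  rw [mp_int R (f := fun p => f' (c1 α p) ⬝ᵥ h' (c2 α p)) (Continuous.measurable (by fun_prop)),
    mp_int R (f := fun p => (f' (c1 α p) ⬝ᵥ (cos α • p.1.1 - sin α • p.1.2)) * h (c2 α p))
      (Continuous.measurable (by fun_prop))]
  simp only [Function.comp, Prod.map, id, c1, c2, e1, e2]
  simp only [e3]
  have i1 : Integrable (fun p : ((ι → ℝ) × (ι → ℝ)) × (ι → ℝ) => (f' p.1.1 ⬝ᵥ p.2) *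
      h ((sin α ^ 2 • p.1.1 + cos α • p.1.2) + (sin α * cos α) • p.2)) (g3 ι) := by
    refine Integrable.mono' ((int_l1.comp_snd ((gp ι).prod (gp ι))).const_mul (K * K))
      (Continuous.aestronglyMeasurable (by fun_prop)) (ae_of_all _ fun p => ?_)
    rw [Real.norm_eq_abs, abs_mul]
    have := mul_le_mul (abs_dot_le (y := p.2) (hf.bd' p.1.1)) (hh.bd
      ((sin α ^ 2 • p.1.1 + cos α • p.1.2) + (sin α * cos α) • p.2)) (abs_nonneg _)
      (mul_nonneg hf.nn (Finset.sum_nonneg fun _ _ => abs_nonneg _))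
    linarith
  have i2 : Integrable (fun p : ((ι → ℝ) × (ι → ℝ)) × (ι → ℝ) => f' p.1.1 ⬝ᵥ
      h' ((sin α ^ 2 • p.1.1 + cos α • p.1.2) + (sin α * cos α) • p.2)) (g3 ι) :=
    int_bd (Continuous.measurable (by fun_prop)) fun p => abs_dot_le' (hf.bd' _) (hh.bd' _)
  rw [integral_prod _ i1, integral_prod _ i2, ← integral_const_mul]
  exact integral_congr_ae (ae_of_all _ fun q =>
    ibp_vec hh (f' q.1) (sin α ^ 2 • q.1 + cos α • q.2) (sin α * cos α))

/-- the interpolation formula -/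
theorem interp (hf : C1 f f' K) (hh : C1 h h' K) (α : ℝ) :
    HasDerivAt (fun α => ∫ p, f (c1 α p) * h (c2 α p) ∂g3 ι)
      (2 * sin α * cos α * ∫ p, f' (c1 α p) ⬝ᵥ h' (c2 α p) ∂g3 ι) α := by
  have hc := hh.cont
  have hc' := hh.cont'
  have hd := hf.cont
  have hd' := hf.cont'
  have l1 : Integrable (fun p : ((ι → ℝ) × (ι → ℝ)) × (ι → ℝ) => ∑ e, |p.1.1 e|) (g3 ι) :=
    (int_l1.comp_fst (gp ι)).comp_fst (gp ι)
  have l2 : Integrable (fun p : ((ι → ℝ) × (ι → ℝ)) × (ι → ℝ) => ∑ e, |p.1.2 e|) (g3 ι) :=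
    (int_l1.comp_snd (gp ι)).comp_fst (gp ι)
  have l3 : Integrable (fun p : ((ι → ℝ) × (ι → ℝ)) × (ι → ℝ) => ∑ e, |p.2 e|) (g3 ι) :=
    int_l1.comp_snd ((gp ι).prod (gp ι))
  have bv : ∀ (θ : ℝ) (x y : ι → ℝ), ∑ e, |(cos θ • x - sin θ • y) e| ≤ ∑ e, |x e| + ∑ e, |y e| := by
    intro θ x y
    rw [← Finset.sum_add_distrib]
    refine Finset.sum_le_sum fun e _ => ?_
    simp only [Pi.sub_apply, Pi.smul_apply, smul_eq_mul]
    refine (abs_sub _ _).trans (add_le_add ?_ ?_) <;> rw [abs_mul]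
    · exact mul_le_of_le_one_left (abs_nonneg _) (abs_cos_le_one θ)
    · exact mul_le_of_le_one_left (abs_nonneg _) (abs_sin_le_one θ)
  have bt : ∀ {u : (ι → ℝ) → ℝ} {u' v' w' : (ι → ℝ) → ι → ℝ} {w : (ι → ℝ) → ℝ}, C1 u u' K →
      C1 w w' K → ∀ (θ : ℝ) (x y z z' : ι → ℝ),
      |(u' z ⬝ᵥ (cos θ • x - sin θ • y)) * w z'| ≤ K * K * (∑ e, |x e| + ∑ e, |y e|) := by
    intro u u' v' w' w hu hw θ x y z z'
    rw [abs_mul]
    have h1 := (abs_dot_le (y := cos θ • x - sin θ • y) (hu.bd' z)).trans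
      (mul_le_mul_of_nonneg_left (bv θ x y) hu.nn)
    have := mul_le_mul h1 (hw.bd z') (abs_nonneg _) ((abs_nonneg _).trans h1)
    linarith
  have i1 : Integrable (fun p => (f' (c1 α p) ⬝ᵥ (cos α • p.1.1 - sin α • p.1.2)) * h (c2 α p))
      (g3 ι) := Integrable.mono' ((l1.add l2).const_mul (K * K))
      (Continuous.aestronglyMeasurable (by fun_prop))
      (ae_of_all _ fun p => bt (v' := f') hf hh _ _ _ _ _)
  have i2 : Integrable (fun p => (h' (c2 α p) ⬝ᵥ (cos α • p.1.1 - sin α • p.2)) * f (c1 α p))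
      (g3 ι) := Integrable.mono' ((l1.add l3).const_mul (K * K))
      (Continuous.aestronglyMeasurable (by fun_prop))
      (ae_of_all _ fun p => bt (v' := f') hh hf _ _ _ _ _)
  have key := (hasDerivAt_integral_of_dominated_loc_of_deriv_le (μ := g3 ι) (s := Set.univ)
    (x₀ := α) (F := fun α p => f (c1 α p) * h (c2 α p))
    (F' := fun α p => (f' (c1 α p) ⬝ᵥ (cos α • p.1.1 - sin α • p.1.2)) * h (c2 α p) +
      (h' (c2 α p) ⬝ᵥ (cos α • p.1.1 - sin α • p.2)) * f (c1 α p))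
    (bound := fun p => K * K * (∑ e, |p.1.1 e| + ∑ e, |p.1.2 e|) +
      K * K * (∑ e, |p.1.1 e| + ∑ e, |p.2 e|)) Filter.univ_mem
    (Filter.Eventually.of_forall fun θ => Continuous.aestronglyMeasurable (by fun_prop))
    (int_bd (K := K * K) (Continuous.measurable (by fun_prop)) fun p => by
      rw [abs_mul]; exact mul_le_mul (hf.bd _) (hh.bd _) (abs_nonneg _) hf.nn)
    (i1.add i2).aestronglyMeasurable
    (ae_of_all _ fun p θ _ => (abs_add_le _ _).trans
      (add_le_add (bt (v' := f') hf hh _ _ _ _ _) (bt (v' := f') hh hf _ _ _ _ _)))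
    (((l1.add l2).const_mul _).add ((l1.add l3).const_mul _))
    (ae_of_all _ fun p θ _ => ?_)).2
  · refine key.congr_deriv ?_
    rw [integral_add i1 i2, half_term hf hh,
      mp_int swap23 (f := fun p => (h' (c2 α p) ⬝ᵥ (cos α • p.1.1 - sin α • p.2)) * f (c1 α p))
        (Continuous.measurable (by fun_prop))]
    have e := half_term hh hf α
    rw [mp_int swap23 (f := fun p => h' (c1 α p) ⬝ᵥ f' (c2 α p))
      (Continuous.measurable (by fun_prop))] at e
    simp only [c1, c2] at e ⊢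
    rw [e]
    simp only [dotProduct_comm (h' _)]
    ring
  · have d1 : ∀ x y : ι → ℝ, HasDerivAt (fun θ => sin θ • x + cos θ • y)
        (cos θ • x - sin θ • y) θ := fun x y => by
      refine (((hasDerivAt_sin θ).smul_const x).add ((hasDerivAt_cos θ).smul_const y)).congr_deriv ?_
      rw [neg_smul, sub_eq_add_neg]
    refine ((hf.der _ _ _ (d1 p.1.1 p.1.2)).mul (hh.der _ _ _ (d1 p.1.1 p.2))).congr_deriv ?_
    simp only [c1, c2]
    ring

end

end Vale.Agent.P146
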