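import Vale.Agent.P146.Gauss

/-! P146: sums of Gaussian vectors, Poincare inequality, monotonicity of the noise operator. -/

open MeasureTheory ProbabilityTheory Real P157
open scoped BigOperators Matrix

namespace Vale.Agent.P146

noncomputable section

variable {ι : Type} [Fintype ι]

theorem gp_rot1 (θ : ℝ) : MeasurePreserving
    (fun p : (ι → ℝ) × (ι → ℝ) => sin θ • p.1 + cos θ • p.2) ((gp ι).prod (gp ι)) (gp ι) :=
  measurePreserving_fst.comp (gp_rotate θ)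

theorem gp_unit {a b : ℝ} (ha : 0 ≤ a) (hb : 0 ≤ b) (h : a ^ 2 + b ^ 2 = 1) : MeasurePreserving
    (fun p : (ι → ℝ) × (ι → ℝ) => a • p.1 + b • p.2) ((gp ι).prod (gp ι)) (gp ι) := by
  have h1 : a ≤ 1 := by nlinarith
  have e1 : sin (arcsin a) = a := sin_arcsin (by linarith) h1
  have e2 : cos (arcsin a) = b := by
    rw [cos_arcsin, show 1 - a ^ 2 = b ^ 2 by linarith, sqrt_sq hb]
  have := gp_rot1 (ι := ι) (arcsin a)
  rwa [e1, e2] at this

theorem gp_sum {x y r : ℝ} (hx : 0 ≤ x) (hy : 0 ≤ y) (hr : 0 ≤ r) (h : x ^ 2 + y ^ 2 = r ^ 2)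
    {φ : (ι → ℝ) → ℝ} (hφ : Measurable φ) :
    ∫ p, φ (x • p.1 + y • p.2) ∂(gp ι).prod (gp ι) = ∫ z, φ (r • z) ∂gp ι := by
  rcases hr.eq_or_lt with h0 | h0
  · have hx0 : x = 0 := by nlinarith
    have hy0 : y = 0 := by nlinarith
    simp [hx0, hy0, ← h0]
  · have hu := gp_unit (ι := ι) (a := x / r) (b := y / r) (by positivity) (by positivity)
      (by field_simp; linarith)
    rw [mp_int hu (f := fun z => φ (r • z)) (hφ.comp (by fun_prop))]
    refine integral_congr_ae (ae_of_all _ fun p => ?_)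
    simp only [smul_add, smul_smul, mul_div_cancel₀ _ h0.ne']

theorem mp_c1 (α : ℝ) : MeasurePreserving (c1 α) (g3 ι) (gp ι) :=
  (gp_rot1 α).comp measurePreserving_fst

theorem mp_c2 (α : ℝ) : MeasurePreserving (c2 α) (g3 ι) (gp ι) := (mp_c1 α).comp swap23

variable {f h : (ι → ℝ) → ℝ} {f' h' : (ι → ℝ) → ι → ℝ} {K : ℝ}

theorem end_top (hf : Measurable f) (hh : Measurable h) :
    ∫ p, f (c1 (π / 2) p) * h (c2 (π / 2) p) ∂g3 ι = ∫ z, f z * h z ∂gp ι := by
  rw [mp_int (mp_c1 (π / 2)) (f := fun z => f z * h z) (hf.mul hh)]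
  simp only [c1, c2, sin_pi_div_two, cos_pi_div_two, one_smul, zero_smul, add_zero]

theorem end_bot (hf : Measurable f) :
    ∫ p, f (c1 0 p) * h (c2 0 p) ∂g3 ι = (∫ z, f z ∂gp ι) * ∫ z, h z ∂gp ι := by
  simp only [c1, c2, sin_zero, cos_zero, one_smul, zero_smul, zero_add]
  rw [integral_prod_mul (fun q : (ι → ℝ) × (ι → ℝ) => f q.2) h,
    ← mp_int measurePreserving_snd hf]

theorem mvt_le {φ φ' : ℝ → ℝ} (hd : ∀ x, HasDerivAt φ (φ' x) x) {a b L : ℝ} (hab : a ≤ b)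
    (hL : ∀ x ∈ Set.Ioo a b, φ' x ≤ L) : φ b - φ a ≤ L * (b - a) := by
  have := (convex_Icc a b).image_sub_le_mul_sub_of_deriv_le
    (f := φ) (fun x _ => (hd x).continuousAt.continuousWithinAt)
    (fun x _ => (hd x).differentiableAt.differentiableWithinAt) (C := L)
    (fun x hx => by rw [(hd x).deriv]; exact hL x (by simpa using hx)) a
    (Set.left_mem_Icc.2 hab) b (Set.right_mem_Icc.2 hab) hab
  exact this

theorem var_le (hf : C1 f f' K) {L : ℝ} (hL : ∀ α ∈ Set.Ioo 0 (π / 2),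
    2 * sin α * cos α * ∫ p, f' (c1 α p) ⬝ᵥ f' (c2 α p) ∂g3 ι ≤ L) :
    ∫ z, f z * f z ∂gp ι - (∫ z, f z ∂gp ι) ^ 2 ≤ L * (π / 2) := by
  have := mvt_le (interp hf hf) (by positivity : (0 : ℝ) ≤ π / 2) hL
  rwa [end_top hf.cont.measurable hf.cont.measurable, end_bot hf.cont.measurable, sub_zero,
    ← sq] at this

theorem poincare (hf : C1 f f' K) :
    ∫ z, f z * f z ∂gp ι - (∫ z, f z ∂gp ι) ^ 2 ≤ 2 * ∫ z, f' z ⬝ᵥ f' z ∂gp ι := by
  have hc := hf.cont'
  have hm : Measurable fun z => f' z ⬝ᵥ f' z := Continuous.measurable (by fun_prop)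
  have h0 : 0 ≤ ∫ z, f' z ⬝ᵥ f' z ∂gp ι := integral_nonneg fun z => dot_self_nn _
  refine (var_le hf (L := ∫ z, f' z ⬝ᵥ f' z ∂gp ι) fun α _ => ?_).trans ?_
  · have h1 : ∫ p, f' (c1 α p) ⬝ᵥ f' (c2 α p) ∂g3 ι ≤ ∫ z, f' z ⬝ᵥ f' z ∂gp ι := by
      have i1 : Integrable (fun p => f' (c1 α p) ⬝ᵥ f' (c1 α p)) (g3 ι) :=
        int_bd (Continuous.measurable (by fun_prop)) fun p => abs_dot_le' (hf.bd' _) (hf.bd' _)
      have i2 : Integrable (fun p => f' (c2 α p) ⬝ᵥ f' (c2 α p)) (g3 ι) :=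
        int_bd (Continuous.measurable (by fun_prop)) fun p => abs_dot_le' (hf.bd' _) (hf.bd' _)
      have i3 : Integrable (fun p => f' (c1 α p) ⬝ᵥ f' (c2 α p)) (g3 ι) :=
        int_bd (Continuous.measurable (by fun_prop)) fun p => abs_dot_le' (hf.bd' _) (hf.bd' _)
      have h2 := integral_mono i3 ((i1.add i2).div_const 2) fun p => by
        simpa using dot_amgm (f' (c1 α p)) (f' (c2 α p)) one_pos
      simp only [Pi.add_apply] at h2
      rw [integral_div, integral_add i1 i2, ← mp_int (mp_c1 α) hm, ← mp_int (mp_c2 α) hm] at h2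
      linarith
    have h3 : 2 * sin α * cos α ≤ 1 := by rw [← sin_two_mul]; exact sin_le_one _
    have h4 : -1 ≤ 2 * sin α * cos α := by rw [← sin_two_mul]; exact neg_one_le_sin _
    by_cases h5 : 0 ≤ 2 * sin α * cos α
    · nlinarith
    · rename_i hα
      exact absurd (mul_nonneg (mul_nonneg zero_le_two (sin_nonneg_of_nonneg_of_le_pi hα.1.le
        (by linarith [hα.2, pi_pos]))) (cos_nonneg_of_mem_Icc ⟨by linarith [hα.1, pi_pos],
        hα.2.le⟩)) h5
  · nlinarith [pi_le_four]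

theorem l1_le {Ω : Type} [MeasurableSpace Ω] {P : Measure Ω} [IsProbabilityMeasure P] {f : Ω → ℝ}
    (hf : Measurable f) {K : ℝ} (hb : ∀ ω, |f ω| ≤ K) {κ : ℝ} (hκ : 0 < κ) :
    ∫ z, |f z - ∫ w, f w ∂P| ∂P ≤ ((∫ z, f z * f z ∂P - (∫ z, f z ∂P) ^ 2) / κ + κ) / 2 := by
  set m := ∫ w, f w ∂P with hm
  have i1 : Integrable f P := int_bd hf hb
  have i2 : Integrable (fun z => f z * f z) P := int_bd (K := K * K) (hf.mul hf) fun z => by
    rw [abs_mul]; exact mul_le_mul (hb z) (hb z) (abs_nonneg _) ((abs_nonneg _).trans (hb z))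
  have i3 : Integrable (fun z => ((f z * f z - 2 * m * f z + m ^ 2) / κ + κ) / 2) P :=
    (((((i2.sub (i1.const_mul _)).add (integrable_const _)).div_const _).add
      (integrable_const _)).div_const _)
  have h1 := integral_mono ((i1.sub (integrable_const m)).abs) i3 fun z => by
    have h : 0 ≤ (|f z - m| - κ) ^ 2 / κ := by positivity
    have e : (|f z - m| - κ) ^ 2 / κ = |f z - m| ^ 2 / κ + κ - 2 * |f z - m| := by
      field_simp; ring
    have e2 : |f z - m| ^ 2 = f z * f z - 2 * m * f z + m ^ 2 := by rw [sq_abs]; ring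
    simp only [Pi.sub_apply]
    rw [e, e2] at h
    linarith
  simp only [Pi.sub_apply] at h1
  refine h1.trans_eq ?_
  have j1 : Integrable (fun z => f z * f z - 2 * m * f z) P := i2.sub (i1.const_mul _)
  have j2 : Integrable (fun z => (f z * f z - 2 * m * f z + m ^ 2) / κ) P :=
    (j1.add (integrable_const _)).div_const _
  rw [integral_div, integral_add j2 (integrable_const _), integral_div,
    integral_add j1 (integrable_const _), integral_sub i2 (i1.const_mul _), integral_const_mul]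
  simp only [integral_const, probReal_univ, one_smul, ← hm]
  ring

theorem sq_int_le {Ω : Type} [MeasurableSpace Ω] {P : Measure Ω} [IsProbabilityMeasure P]
    {f : Ω → ℝ} (hf : Measurable f) {K : ℝ} (hb : ∀ ω, |f ω| ≤ K) :
    (∫ z, f z ∂P) ^ 2 ≤ ∫ z, f z ^ 2 ∂P := by
  have hm : MemLp f 2 P := MemLp.of_bound hf.aestronglyMeasurable K (ae_of_all _ hb)
  have h := variance_nonneg f P
  rw [variance_eq_sub hm] at h
  simp only [Pi.pow_apply] at h
  linarith

/-- noise operator -/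
def nz (α : ℝ) (φ : (ι → ℝ) → ℝ) (m : ι → ℝ) : ℝ := ∫ ζ, φ (sin α • m + cos α • ζ) ∂gp ι

theorem meas_int {Ω Ω' : Type} [MeasurableSpace Ω] [MeasurableSpace Ω'] {Q : Measure Ω'}
    [SFinite Q] {f : Ω → Ω' → ℝ} (hf : Measurable fun p : Ω × Ω' => f p.1 p.2) :
    Measurable fun ω => ∫ y, f ω y ∂Q :=
  (hf.stronglyMeasurable.integral_prod_right' (ν := Q)).measurable

theorem nz_mono {φ : (ι → ℝ) → ℝ} (hφ : Measurable φ) {K : ℝ} (hb : ∀ z, |φ z| ≤ K) {α α' : ℝ}
    (h0 : 0 ≤ α) (h1 : α ≤ α') (h2 : α' ≤ π / 2) :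
    ∫ m, nz α φ m ^ 2 ∂gp ι ≤ ∫ m, nz α' φ m ^ 2 ∂gp ι := by
  rcases h1.eq_or_lt with rfl | h1
  · exact le_rfl
  have hs : 0 ≤ sin α := sin_nonneg_of_nonneg_of_le_pi h0 (by linarith [pi_pos])
  have hs' : 0 < sin α' := sin_pos_of_pos_of_lt_pi (by linarith) (by linarith [pi_pos])
  have hss : sin α ≤ sin α' := sin_le_sin_of_le_of_le_pi_div_two (by linarith [pi_pos]) h2 h1.le
  have hc : 0 ≤ cos α := cos_nonneg_of_mem_Icc ⟨by linarith [pi_pos], by linarith⟩
  have hc' : 0 ≤ cos α' := cos_nonneg_of_mem_Icc ⟨by linarith [pi_pos], h2⟩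
  set μ := sin α / sin α' with hμ
  have hμ0 : 0 ≤ μ := by positivity
  have hμ1 : μ ≤ 1 := (div_le_one hs').2 hss
  set ν := √(1 - μ ^ 2) with hν
  have hν2 : ν ^ 2 = 1 - μ ^ 2 := sq_sqrt (by nlinarith)
  have hμs : sin α' * μ = sin α := by rw [hμ]; field_simp
  have mz : Measurable (nz α' φ) := meas_int (hφ.comp (by fun_prop))
  have bz : ∀ m, |nz α' φ m| ≤ K := fun m => abs_int_le fun _ => hb _
  have e1 : ∀ m, nz α φ m = ∫ ξ, nz α' φ (μ • m + ν • ξ) ∂gp ι := by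
    intro m
    have h3 := gp_sum (ι := ι) (x := sin α' * ν) (y := cos α') (r := cos α) (by positivity) hc' hc
      (by nlinarith [sin_sq_add_cos_sq α, sin_sq_add_cos_sq α'])
      (φ := fun z => φ (sin α • m + z)) (hφ.comp (by fun_prop))
    have i4 : Integrable (fun p : (ι → ℝ) × (ι → ℝ) =>
        φ (sin α • m + ((sin α' * ν) • p.1 + cos α' • p.2))) ((gp ι).prod (gp ι)) :=
      int_bd (hφ.comp (by fun_prop)) fun p => hb _
    rw [nz, ← h3, integral_prod _ i4]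
    refine integral_congr_ae (ae_of_all _ fun ξ => ?_)
    simp only [nz, smul_add, smul_smul, hμs, add_assoc]
  have hu := gp_unit (ι := ι) hμ0 (sqrt_nonneg (1 - μ ^ 2)) (by rw [← hν]; linarith)
  have b2 : ∀ m, |nz α' φ m ^ 2| ≤ K ^ 2 := fun m => by
    rw [abs_pow]; exact pow_le_pow_left₀ (abs_nonneg _) (bz m) 2
  have mq : Measurable fun p : (ι → ℝ) × (ι → ℝ) => nz α' φ (μ • p.1 + ν • p.2) ^ 2 :=
    (mz.comp (by fun_prop)).pow_const 2
  rw [mp_int hu (mz.pow_const 2), integral_prod _ (int_bd mq fun p => b2 _)]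
  refine integral_mono_of_nonneg (ae_of_all _ fun m => sq_nonneg _)
    (int_bd (meas_int (f := fun m ξ => nz α' φ (μ • m + ν • ξ) ^ 2) mq) (K := K ^ 2)
      fun m => abs_int_le fun _ => b2 _) (ae_of_all _ fun m => ?_)
  simp only [e1]
  exact sq_int_le (mz.comp (by fun_prop)) fun _ => bz _

end

end Vale.Agent.P146
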