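import Vale.Agent.P146.Lem

/-! P146: interpolation in the cavity row. -/

open MeasureTheory ProbabilityTheory Real P157 Function
open scoped BigOperators Matrix

namespace Vale.Agent.P146

noncomputable section

variable {n : ℕ} {lam c s a κ : ℝ}

/-- first and second leaf -/
def l1 (c s α : ℝ) (x : XS n) (ω : Om n) : XS n := c • mix row x (cb α (ω 3) (ω 4)) + s • ω 6
def l2 (c s α : ℝ) (y : XS n) (ω : Om n) : XS n := c • mix row y (cb α (ω 3) (ω 5)) + s • ω 7

@[fun_prop] theorem cont_l1 {β : Type} [TopologicalSpace β] {α : ℝ} {x : β → XS n} {T : β → Om n}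
    (hx : Continuous x) (hT : Continuous T) : Continuous fun y => l1 c s α (x y) (T y) := by
  unfold l1; fun_prop
@[fun_prop] theorem cont_l2 {β : Type} [TopologicalSpace β] {α : ℝ} {x : β → XS n} {T : β → Om n}
    (hx : Continuous x) (hT : Continuous T) : Continuous fun y => l2 c s α (x y) (T y) := by
  unfold l2; fun_prop

def GV (lam c s : ℝ) (W : Om n → ℝ) (x y : Om n → XS n) (α : ℝ) : ℝ :=
  ∫ ω, W ω * (VV lam (l1 c s α (x ω) ω) ⬝ᵥ VV lam (l2 c s α (y ω) ω)) ∂PP n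
def GC (lam c s : ℝ) (W : Om n → ℝ) (x y : Om n → XS n) (α : ℝ) : ℝ :=
  ∫ ω, W ω * (CC lam (l1 c s α (x ω) ω) ⬝ᵥ CC lam (l2 c s α (y ω) ω)) ∂PP n

/-- the constant in the derivative -/
def bb (n : ℕ) (lam c : ℝ) : ℝ := c ^ 2 * (2 * lam ^ 2 / (n + 1))

theorem der_pt (hl : 0 ≤ lam) (hc : |c| ≤ 1) {w : ℝ} (hw : |w| ≤ 1) (x y η η' : XS n) (α : ℝ) :
    HasDerivAt (fun α => ∫ p, w * (VV lam (c • mix row x (c1 α p) + s • η) ⬝ᵥ
        VV lam (c • mix row y (c2 α p) + s • η')) ∂g3 (Ix n))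
      (2 * sin α * cos α * bb n lam c * ∫ p, w * (CC lam (c • mix row x (c1 α p) + s • η) ⬝ᵥ
        CC lam (c • mix row y (c2 α p) + s • η')) ∂g3 (Ix n)) α := by
  have A := fun j => c1_VV (s := s) hl hc x η j hw
  have B := fun j => c1_VV (s := s) hl hc y η' j (w := 1) (by simp)
  have h := HasDerivAt.fun_sum (u := Finset.univ) fun j _ => interp (A j) (B j) α
  have i1 : ∀ (θ : ℝ) j, Integrable (fun p => w * VV lam (c • mix row x (c1 θ p) + s • η) j *
      (1 * VV lam (c • mix row y (c2 θ p) + s • η') j)) (g3 (Ix n)) := fun θ j =>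
    ((B1.comp ⟨(A j).cont, (A j).bd⟩ (cont_c1 θ)).mul
      (B1.comp ⟨(B j).cont, (B j).bd⟩ (cont_c2 θ))).int
  have i2 : ∀ j, Integrable (fun p => (w • gV lam c (c • mix row x (c1 α p) + s • η) j) ⬝ᵥ
      ((1 : ℝ) • gV lam c (c • mix row y (c2 α p) + s • η') j)) (g3 (Ix n)) := fun j =>
    int_bd (((A j).cont'.comp (cont_c1 α)).dotProduct ((B j).cont'.comp (cont_c2 α))).measurable
      fun p => abs_dot_le' ((A j).bd' _) ((B j).bd' _)
  refine (h.congr_deriv ?_).congr_of_eventuallyEq (Filter.Eventually.of_forall fun θ => ?_)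
  swap
  · simp only
    rw [← integral_finsetSum _ fun j _ => i1 θ j]
    simp only [dotProduct, Finset.mul_sum, one_mul, mul_assoc]
  · rw [← Finset.mul_sum, ← integral_finsetSum _ fun j _ => i2 j, mul_assoc _ (bb n lam c),
      ← integral_const_mul (bb n lam c)]
    simp only [one_smul, smul_dotProduct, smul_eq_mul, ← Finset.mul_sum, gV_dot, bb]
    congr 2
    funext p
    ring

variable {W : Om n → ℝ} {x y B : Om n → XS n}

theorem Gder (hl : 0 ≤ lam) (hc : |c| ≤ 1) (hW : B1 W 1) (cx : Continuous x) (cy : Continuous y)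
    (iW : ∀ ω p q r, W (update (update (update ω 3 p) 4 q) 5 r) = W ω)
    (ix : ∀ ω p q r, x (update (update (update ω 3 p) 4 q) 5 r) = x ω)
    (iy : ∀ ω p q r, y (update (update (update ω 3 p) 4 q) 5 r) = y ω) (α : ℝ) :
    HasDerivAt (GV lam c s W x y) (2 * sin α * cos α * bb n lam c * GC lam c s W x y α) α := by
  have cW := hW.cont
  have e1 : GV lam c s W x y = fun α => ∫ ω, ∫ p, W ω *
      (VV lam (c • mix row (x ω) (c1 α p) + s • ω 6) ⬝ᵥ
        VV lam (c • mix row (y ω) (c2 α p) + s • ω 7)) ∂g3 (Ix n) ∂PP n := by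
    funext θ
    rw [GV, res3 3 4 5 (hW.mul (b_VV (by fun_prop) (by fun_prop)))]
    simp only [iW, ix, iy, l1, l2, update_self, ne_eq, Fin.reduceEq, not_false_eq_true,
      update_of_ne]
    rfl
  have e2 : GC lam c s W x y α = ∫ ω, ∫ p, W ω *
      (CC lam (c • mix row (x ω) (c1 α p) + s • ω 6) ⬝ᵥ
        CC lam (c • mix row (y ω) (c2 α p) + s • ω 7)) ∂g3 (Ix n) ∂PP n := by
    rw [GC, res3 3 4 5 (hW.mul (b_CC (by fun_prop) (by fun_prop)))]
    simp only [iW, ix, iy, l1, l2, update_self, ne_eq, Fin.reduceEq, not_false_eq_true,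
      update_of_ne]
    rfl
  rw [e1, e2, ← integral_const_mul]
  refine der_int (K := 1 * 1) (K' := 2 * 1 * 1 * |bb n lam c| * (1 * 4))
    (F' := fun α ω => 2 * sin α * cos α * bb n lam c * ∫ p, W ω *
      (CC lam (c • mix row (x ω) (c1 α p) + s • ω 6) ⬝ᵥ
        CC lam (c • mix row (y ω) (c2 α p) + s • ω 7)) ∂g3 (Ix n))
    (fun θ => meas_int (Continuous.measurable (by fun_prop)))
    (fun θ => (meas_int (Continuous.measurable (by fun_prop))).const_mul _)
    (fun θ ω => abs_int_le fun p => ?_) (fun θ ω => ?_)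
    (fun ω θ => der_pt hl hc (hW.bd ω) _ _ _ _ θ) α
  · rw [abs_mul]
    exact mul_le_mul (hW.bd ω) (abs_VV_VV _ _) (abs_nonneg _) zero_le_one
  · simp only [abs_mul, abs_two]
    gcongr
    · exact abs_sin_le_one θ
    · exact abs_cos_le_one θ
    · refine abs_int_le fun p => ?_
      rw [abs_mul]
      exact mul_le_mul (hW.bd ω) (abs_CC_CC _ _) (abs_nonneg _) zero_le_one

/-- gauge flip of the first leaf -/
def fl (ω : Om n) : Om n := fun k => if k = 4 ∨ k = 6 then sy kF (Equiv.refl _) (ω k) else ω k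

theorem mp_fl : MeasurePreserving (fl (n := n)) (PP n) (PP n) := by
  have h := measurePreserving_pi (fun _ : Fin 8 => gp (Ix n)) (fun _ => gp (Ix n))
    (f := fun k z => if k = 4 ∨ k = 6 then sy kF (Equiv.refl _) z else z) fun k => by
      split_ifs
      · exact sy_flip.mp
      · exact MeasurePreserving.id _
  exact h

theorem G0 (hW : B1 W 1) (cx : Continuous x) (cy : Continuous y) (iW : ∀ ω, W (fl ω) = W ω)
    (ix : ∀ ω, x (fl ω) = x ω) (iy : ∀ ω, y (fl ω) = y ω) :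
    GV lam c s W x y 0 = (∫ ω, W ω ∂PP n) / (n + 1) := by
  have b := hW.mul (b_VV (lam := lam) (G := fun ω => l1 c s 0 (x ω) ω)
    (G' := fun ω => l2 c s 0 (y ω) ω) (by fun_prop) (by fun_prop))
  have h1 := mp_int mp_fl b.cont.measurable
  have h2 : ∀ ω : Om n, W ω * (VV lam (l1 c s 0 (x ω) ω) ⬝ᵥ VV lam (l2 c s 0 (y ω) ω)) +
      W (fl ω) * (VV lam (l1 c s 0 (x (fl ω)) (fl ω)) ⬝ᵥ VV lam (l2 c s 0 (y (fl ω)) (fl ω))) =
      W ω * (2 / (n + 1)) := by
    intro ω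
    have a1 : l1 c s 0 (x ω) (fl ω) = sy kF (Equiv.refl _) (l1 c s 0 (x ω) ω) := by
      simp [l1, fl, cb, sy_lin, flip_mix]
    have a2 : l2 c s 0 (y ω) (fl ω) = l2 c s 0 (y ω) ω := by simp [l2, fl]
    rw [iW, ix, iy, a1, a2, ← mul_add, ← add_dotProduct]
    congr 1
    rw [dotProduct, Finset.sum_eq_single 0]
    · simp only [Pi.add_apply, VV_zero]
      have h := mul_self_sqrt (Np n).le
      have h0 : √((n : ℝ) + 1) ≠ 0 := (sqrt_pos.2 (Np n)).ne'
      field_simp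
      rw [sq, h]; ring
    · intro j _ hj
      simp [flip_VV _ hj]
    · simp
  have h3 := integral_add b.int (mp_fl.integrable_comp_of_integrable b.int)
  simp only [Function.comp, h2] at h3
  rw [← h1, integral_mul_const] at h3
  rw [GV, eq_div_iff (Np n).ne']
  have := Np n
  field_simp at h3
  linarith

/-- the smoothed covariance matrix -/
def DD (lam c s α : ℝ) (x m : XS n) : XS n :=
  fun e => nz α (fun γ => ∫ η, CC lam (c • mix row x γ + s • η) e ∂gp (Ix n)) m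

theorem b_D0 (α : ℝ) (e : Ix n) : B1 (fun p : (XS n × XS n) × XS n =>
    ∫ η, CC lam (c • mix row p.1.1 (cb α p.1.2 p.2) + s • η) e ∂gp (Ix n)) 2 :=
  B1.fib (f := fun (p : (XS n × XS n) × XS n) η =>
    CC lam (c • mix row p.1.1 (cb α p.1.2 p.2) + s • η) e) ⟨by fun_prop, fun _ => abs_CC _ _⟩

theorem b_D (α : ℝ) (e : Ix n) : B1 (fun p : XS n × XS n => DD lam c s α p.1 p.2 e) 2 :=
  B1.fib (f := fun (p : XS n × XS n) ζ =>
    ∫ η, CC lam (c • mix row p.1 (cb α p.2 ζ) + s • η) e ∂gp (Ix n)) (b_D0 α e)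

@[fun_prop] theorem cont_DD {β : Type} [TopologicalSpace β] {α : ℝ} {x m : β → XS n}
    (hx : Continuous x) (hm : Continuous m) : Continuous fun y => DD lam c s α (x y) (m y) :=
  continuous_pi fun e => ((b_D α e).comp (T := fun y => (x y, m y)) (hx.prodMk hm)).cont

theorem abs_DD (α : ℝ) (x m : XS n) (e : Ix n) : |DD lam c s α x m e| ≤ 2 := (b_D α e).bd (x, m)

theorem DD_dot (α : ℝ) (x m B : XS n) : DD lam c s α x m ⬝ᵥ B =
    ∫ p, CC lam (c • mix row x (cb α m p.1) + s • p.2) ⬝ᵥ B ∂(gp (Ix n)).prod (gp (Ix n)) := by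
  have b : B1 (fun p : XS n × XS n => CC lam (c • mix row x (cb α m p.1) + s • p.2) ⬝ᵥ B)
      (2 * ∑ e, |B e|) := ⟨by fun_prop, fun p => abs_dot_le (abs_CC _)⟩
  rw [integral_prod _ b.int]
  refine (int_dot (F := fun ζ e => ∫ η, CC lam (c • mix row x (cb α m ζ) + s • η) e ∂gp (Ix n))
    (continuous_pi fun e => ((b_D0 α e).comp (T := fun ζ => ((x, m), ζ))
      (Continuous.prodMk_right (x, m))).cont)
    (fun ζ e => (b_D0 α e).bd ((x, m), ζ)) B).trans ?_
  refine integral_congr_ae (ae_of_all _ fun ζ => ?_)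
  exact int_dot (F := fun η => CC lam (c • mix row x (cb α m ζ) + s • η)) (by fun_prop)
    (fun _ _ => abs_CC _ _) B

theorem cond {K : ℝ} (α : ℝ) {i j : Fin 8} (h3i : 3 ≠ i) (h3j : 3 ≠ j) (hij : i ≠ j) (hW : B1 W K)
    (cx : Continuous x) (cB : Continuous B) (hB : ∀ ω e, |B ω e| ≤ 2)
    (iW : ∀ ω p q, W (update (update ω i p) j q) = W ω)
    (ix : ∀ ω p q, x (update (update ω i p) j q) = x ω)
    (iB : ∀ ω p q, B (update (update ω i p) j q) = B ω) :
    ∫ ω, W ω * (CC lam (c • mix row (x ω) (cb α (ω 3) (ω i)) + s • ω j) ⬝ᵥ B ω) ∂PP n =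
      ∫ ω, W ω * (DD lam c s α (x ω) (ω 3) ⬝ᵥ B ω) ∂PP n := by
  rw [res2 i j (hW.mul ⟨by fun_prop, fun ω => abs_dot_le' (abs_CC _) (hB ω)⟩)]
  simp only [iW, ix, iB, update_self, update_of_ne h3i, update_of_ne h3j, update_of_ne hij,
    integral_const_mul, DD_dot]

theorem Kmono {K : ℝ} (hW : B1 W K) (h0 : ∀ ω, 0 ≤ W ω) (cx : Continuous x)
    (iW : ∀ ω p, W (update ω 3 p) = W ω) (ix : ∀ ω p, x (update ω 3 p) = x ω) {α α' : ℝ}
    (h1 : 0 ≤ α) (h2 : α ≤ α') (h3 : α' ≤ π / 2) :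
    ∫ ω, W ω * (DD lam c s α (x ω) (ω 3) ⬝ᵥ DD lam c s α (x ω) (ω 3)) ∂PP n ≤
      ∫ ω, W ω * (DD lam c s α' (x ω) (ω 3) ⬝ᵥ DD lam c s α' (x ω) (ω 3)) ∂PP n := by
  have b : ∀ θ, B1 (fun ω : Om n => W ω * (DD lam c s θ (x ω) (ω 3) ⬝ᵥ DD lam c s θ (x ω) (ω 3)))
      (K * (Fintype.card (Ix n) * 2 ^ 2)) := fun θ =>
    hW.mul ⟨by fun_prop, fun ω => abs_dot_le' (abs_DD _ _ _) (abs_DD _ _ _)⟩
  have b' : ∀ θ, B1 (fun ω : Om n => ∫ m, DD lam c s θ (x ω) m ⬝ᵥ DD lam c s θ (x ω) m ∂gp (Ix n))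
      (Fintype.card (Ix n) * 2 ^ 2) := fun θ =>
    B1.fib (f := fun ω m => DD lam c s θ (x ω) m ⬝ᵥ DD lam c s θ (x ω) m)
      ⟨by fun_prop, fun ω => abs_dot_le' (abs_DD _ _ _) (abs_DD _ _ _)⟩
  rw [res1 3 (b α), res1 3 (b α')]
  simp only [iW, ix, update_self, integral_const_mul]
  refine integral_mono (hW.mul (b' α)).int (hW.mul (b' α')).int fun ω =>
    mul_le_mul_of_nonneg_left ?_ (h0 ω)
  have i1 : ∀ θ e, Integrable (fun m => DD lam c s θ (x ω) m e * DD lam c s θ (x ω) m e)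
      (gp (Ix n)) := fun θ e => (((b_D θ e).comp (Continuous.prodMk_right (x ω))).mul
        ((b_D θ e).comp (Continuous.prodMk_right (x ω)))).int
  simp only [dotProduct]
  rw [integral_finsetSum _ fun e _ => i1 α e, integral_finsetSum _ fun e _ => i1 α' e]
  refine Finset.sum_le_sum fun e _ => ?_
  simp only [← sq, DD]
  have b1 := B1.fib (f := fun γ η => CC lam (c • mix row (x ω) γ + s • η) e)
    ⟨by fun_prop, fun _ => abs_CC _ _⟩
  exact nz_mono b1.cont.measurable b1.bd h1 h2 h3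

end

end Vale.Agent.P146
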