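import Vale.Agent.P146.Om

/-! P146: approximation lemmas on the sample space. -/

open MeasureTheory ProbabilityTheory Real P157 Function
open scoped BigOperators Matrix

namespace Vale.Agent.P146

noncomputable section

variable {n : ℕ} {lam c s a κ : ℝ}

/-- rotation of two matrices -/
def cb (a : ℝ) (x y : XS n) : XS n := sin a • x + cos a • y

@[fun_prop] theorem cont_cb {α : Type} [TopologicalSpace α] {U G : α → XS n} (hU : Continuous U)
    (hG : Continuous G) : Continuous fun y => cb a (U y) (G y) := by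
  unfold cb; fun_prop

/-- admissible parameters -/
structure Par (lam c s a κ : ℝ) : Prop where
  hl : 0 < lam
  hc : 0 < c
  hc1 : c ≤ 1
  hs : 0 < s
  hs1 : s ≤ 1
  ha : 0 < cos a
  hk : 0 < κ

def e1 (lam c s a κ : ℝ) : ℝ := (2 * (s * lam) ^ 2 * (1 / (c * cos a * lam)) / κ + κ) / 2
def e2 (n : ℕ) (lam s κ : ℝ) : ℝ :=
  (1 / (s * lam) / κ + κ * (2 * exp (8 * lam ^ 2 * (2 / (n + 1))))) / 2
def e3 (lam s κ : ℝ) : ℝ := 2 / (s * lam) / κ + 2 * κ

theorem Par.abs_c (hp : Par lam c s a κ) : |c| ≤ 1 := by rw [abs_of_pos hp.hc]; exact hp.hc1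

theorem Par.e1_nn (hp : Par lam c s a κ) : 0 ≤ e1 lam c s a κ := by
  have := hp.hl; have := hp.hc; have := hp.ha; have := hp.hk
  unfold e1; positivity

theorem Par.e2_nn (hp : Par lam c s a κ) : 0 ≤ e2 n lam s κ := by
  have := hp.hl; have := hp.hs; have := hp.hk
  unfold e2; positivity

theorem Par.e3_nn (hp : Par lam c s a κ) : 0 ≤ e3 lam s κ := by
  have := hp.hl; have := hp.hs; have := hp.hk
  unfold e3; positivity

section b1
variable {α : Type} [TopologicalSpace α] {G G' B : α → XS n}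

theorem b_A (hG : Continuous G) (cB : Continuous B) (hB : ∀ ω, B ω ⬝ᵥ B ω ≤ 1) :
    B1 (fun ω => AA lam (G ω) ⬝ᵥ B ω) 1 := ⟨by fun_prop, fun ω => (cvx_AA _).abs_le (hB ω)⟩
theorem b_M (hG : Continuous G) (cB : Continuous B) (hB : ∀ ω, B ω ⬝ᵥ B ω ≤ 1) :
    B1 (fun ω => MM lam c s (G ω) ⬝ᵥ B ω) 1 := ⟨by fun_prop, fun ω => (cvx_MM _).abs_le (hB ω)⟩
theorem b_C (hG : Continuous G) (cB : Continuous B) (hB : ∀ ω, B ω ⬝ᵥ B ω ≤ 1) :
    B1 (fun ω => CC lam (G ω) ⬝ᵥ B ω) 2 := ⟨by fun_prop, fun ω => abs_CC_dot _ (hB ω)⟩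
theorem b_AA (hG : Continuous G) (hG' : Continuous G') :
    B1 (fun ω => AA lam (G ω) ⬝ᵥ AA lam (G' ω)) 1 :=
  b_A hG (by fun_prop) fun _ => (cvx_AA _).nrm
theorem b_AM (hG : Continuous G) (hG' : Continuous G') :
    B1 (fun ω => AA lam (G ω) ⬝ᵥ MM lam c s (G' ω)) 1 :=
  b_A hG (by fun_prop) fun _ => (cvx_MM _).nrm
theorem b_MA (hG : Continuous G) (hG' : Continuous G') :
    B1 (fun ω => MM lam c s (G ω) ⬝ᵥ AA lam (G' ω)) 1 :=
  b_M hG (by fun_prop) fun _ => (cvx_AA _).nrm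
theorem b_MM (hG : Continuous G) (hG' : Continuous G') :
    B1 (fun ω => MM lam c s (G ω) ⬝ᵥ MM lam c s (G' ω)) 1 :=
  b_M hG (by fun_prop) fun _ => (cvx_MM _).nrm
theorem b_CM (hG : Continuous G) (hG' : Continuous G') :
    B1 (fun ω => CC lam (G ω) ⬝ᵥ MM lam c s (G' ω)) 2 :=
  b_C hG (by fun_prop) fun _ => (cvx_MM _).nrm
theorem b_CA (hG : Continuous G) (hG' : Continuous G') :
    B1 (fun ω => CC lam (G ω) ⬝ᵥ AA lam (G' ω)) 2 :=
  b_C hG (by fun_prop) fun _ => (cvx_AA _).nrm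
theorem b_CC (hG : Continuous G) (hG' : Continuous G') :
    B1 (fun ω => CC lam (G ω) ⬝ᵥ CC lam (G' ω)) 4 := ⟨by fun_prop, fun _ => abs_CC_CC _ _⟩
theorem b_VV (hG : Continuous G) (hG' : Continuous G') :
    B1 (fun ω => VV lam (G ω) ⬝ᵥ VV lam (G' ω)) 1 := ⟨by fun_prop, fun _ => abs_VV_VV _ _⟩

theorem B1.fib [FirstCountableTopology α] {f : α → XS n → ℝ} {K : ℝ}
    (hf : B1 (fun p : α × XS n => f p.1 p.2) K) : B1 (fun y => ∫ t, f y t ∂gp (Ix n)) K :=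
  ⟨cont_int hf.cont fun y t => hf.bd (y, t), fun y => abs_int_le fun t => hf.bd (y, t)⟩
end b1

theorem mp_cb (a : ℝ) {i j : Fin 8} (hij : i ≠ j) :
    MeasurePreserving (fun ω : Om n => cb a (ω i) (ω j)) (PP n) (gp (Ix n)) :=
  (gp_rot1 a).comp (mp_two hij)

theorem mp_mixcb (a α : ℝ) {k j : Fin 8} (h0k : 0 ≠ k) (h0j : 0 ≠ j) (hk3 : k ≠ 3) (hkj : k ≠ j)
    (h3j : 3 ≠ j) : MeasurePreserving
      (fun ω : Om n => mix row (cb a (ω 0) (ω k)) (cb α (ω 3) (ω j))) (PP n) (gp (Ix n)) := by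
  refine mp_cancel (mp_upd2 (gp (Ix n)) 3 j) (Continuous.measurable (by fun_prop)) ?_
  simp only [update_self, update_of_ne h0j, update_of_ne hkj, update_of_ne h3j, update_of_ne hk3,
    update_of_ne (show (0 : Fin 8) ≠ 3 by decide)]
  exact mp_mix.comp ((mp_cb a h0k).prod (gp_rot1 α))

variable {U B : Om n → XS n}

theorem stab2 (hp : Par lam c s a κ) (w : XS n) {B : XS n} (hB : B ⬝ᵥ B ≤ 1) :
    ∫ p, |AA lam (c • cb a w p.1 + s • p.2) ⬝ᵥ B - MM lam c s (cb a w p.1) ⬝ᵥ B|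
      ∂(gp (Ix n)).prod (gp (Ix n)) ≤ e1 lam c s a κ := by
  have hk := hp.hk
  have b1 : B1 (fun p : XS n × XS n =>
      |AA lam (c • cb a w p.1 + s • p.2) ⬝ᵥ B - MM lam c s (cb a w p.1) ⬝ᵥ B|) (1 + 1) :=
    ((b_A (by fun_prop) continuous_const fun _ => hB).sub
      (b_M (by fun_prop) continuous_const fun _ => hB)).abs
  have b2 : B1 (fun p : XS n × XS n => tv lam XX (c • cb a w p.1 + s • p.2) B) 2 :=
    ⟨by fun_prop, fun p => abs_tv XX_dot _ hB⟩
  have b3 := B1.fib (f := fun ξ η => tv lam XX (c • cb a w ξ + s • η) B) b2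
  rw [integral_prod _ b1.int]
  have h1 : ∫ ξ, ∫ η, tv lam XX (c • cb a w ξ + s • η) B ∂gp (Ix n) ∂gp (Ix n) ≤
      1 / (c * cos a * lam) := by
    rw [integral_integral_swap b2.int]
    refine int_le (by have := hp.hl; have := hp.hc; have := hp.ha; positivity) fun η => ?_
    have e : ∀ ξ : XS n, c • cb a w ξ + s • η = ((c * sin a) • w + s • η) + (c * cos a) • ξ := by
      intro ξ; simp only [cb, smul_add, smul_smul]; abel
    simp only [e]
    exact therm XX_dot hp.hl _ (mul_pos hp.hc hp.ha) hB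
  refine (integral_mono_of_nonneg (ae_of_all _ fun ξ => integral_nonneg fun t => abs_nonneg _)
    ((((b3.int.const_mul (2 * (s * lam) ^ 2)).div_const κ).add (integrable_const κ)).div_const 2)
    (ae_of_all _ fun ξ => ?_)).trans ?_
  · simp only [MM_dot, AA_dot, Pi.add_apply]
    exact stab XX_dot hp.hl _ (by rw [abs_of_pos hp.hs]; exact hp.hs1) hB hk
  · simp only [Pi.add_apply]
    rw [integral_div, integral_add ((b3.int.const_mul _).div_const κ) (integrable_const κ),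
      integral_div, integral_const_mul]
    simp only [integral_const, probReal_univ, one_smul]
    unfold e1
    gcongr

theorem stabE (hp : Par lam c s a κ) {k l : Fin 8} (h0k : 0 ≠ k) (h0l : 0 ≠ l) (hkl : k ≠ l)
    (cB : Continuous B) (hB : ∀ ω, B ω ⬝ᵥ B ω ≤ 1) (ik : ∀ ω t, B (update ω k t) = B ω)
    (il : ∀ ω t, B (update ω l t) = B ω) :
    ∫ ω, |AA lam (c • cb a (ω 0) (ω k) + s • ω l) ⬝ᵥ B ω - MM lam c s (cb a (ω 0) (ω k)) ⬝ᵥ B ω|
      ∂PP n ≤ e1 lam c s a κ := by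
  rw [res2 k l ((b_A (by fun_prop) cB hB).sub (b_M (by fun_prop) cB hB)).abs]
  refine int_le hp.e1_nn fun ω => ?_
  simp only [ik, il, update_self, update_of_ne h0k, update_of_ne h0l, update_of_ne hkl]
  exact stab2 hp _ (hB ω)

theorem rrA (hp : Par lam c s a κ) (l : Fin 8) (hU : MeasurePreserving U (PP n) (gp (Ix n)))
    (cU : Continuous U) (cB : Continuous B) (hB : ∀ ω, B ω ⬝ᵥ B ω ≤ 1)
    (iU : ∀ ω t, U (update ω l t) = U ω) (iB : ∀ ω t, B (update ω l t) = B ω) :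
    ∫ ω, |AA lam (c • U ω + s • ω l) ⬝ᵥ B ω - AA lam (c • mix row (U ω) 0 + s • ω l) ⬝ᵥ B ω|
      ∂PP n ≤ e2 n lam s κ := by
  rw [res1 l ((b_A (by fun_prop) cB hB).sub (b_A (by fun_prop) cB hB)).abs]
  simp only [iU, iB, update_self, AA_dot]
  exact rr1 XX_dot hp.hl row_norm hp.abs_c hp.hs hp.hk hU cU cB hB

theorem rrM (hp : Par lam c s a κ) (hU : MeasurePreserving U (PP n) (gp (Ix n)))
    (cU : Continuous U) (cB : Continuous B) (hB : ∀ ω, B ω ⬝ᵥ B ω ≤ 1) :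
    ∫ ω, |MM lam c s (U ω) ⬝ᵥ B ω - MM lam c s (mix row (U ω) 0) ⬝ᵥ B ω| ∂PP n ≤
      e2 n lam s κ := by
  refine le_trans ?_ (rr1 XX_dot hp.hl row_norm hp.abs_c hp.hs hp.hk hU cU cB hB)
  simp only [← AA_dot]
  have b1 := B1.fib (f := fun (ω : Om n) t => |AA lam (c • U ω + s • t) ⬝ᵥ B ω -
    AA lam (c • mix row (U ω) 0 + s • t) ⬝ᵥ B ω|) ((b_A (by fun_prop) (by fun_prop)
      fun p => hB p.1).sub (b_A (by fun_prop) (by fun_prop) fun p => hB p.1)).abs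
  refine integral_mono_of_nonneg (ae_of_all _ fun ω => abs_nonneg _) b1.int
    (ae_of_all _ fun ω => ?_)
  simp only [MM_dot]
  rw [← integral_sub (b_A (by fun_prop) continuous_const fun _ => hB ω).int
    (b_A (by fun_prop) continuous_const fun _ => hB ω).int]
  exact abs_integral_le_integral_abs

theorem rep (hp : Par lam c s a κ) (α : ℝ) {k j l : Fin 8} (h0k : 0 ≠ k) (h0j : 0 ≠ j)
    (h0l : 0 ≠ l) (hk3 : k ≠ 3) (hkj : k ≠ j) (hkl : k ≠ l) (h3j : 3 ≠ j) (h3l : 3 ≠ l)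
    (hjl : j ≠ l) (cB : Continuous B) (hB : ∀ ω, B ω ⬝ᵥ B ω ≤ 1)
    (ik : ∀ ω t, B (update ω k t) = B ω) (il : ∀ ω t, B (update ω l t) = B ω) :
    ∫ ω, |AA lam (c • mix row (cb a (ω 0) (ω k)) (cb α (ω 3) (ω j)) + s • ω l) ⬝ᵥ B ω -
      MM lam c s (mix row (cb a (ω 0) (ω k)) 0) ⬝ᵥ B ω| ∂PP n ≤
      e2 n lam s κ + e2 n lam s κ + e1 lam c s a κ + e2 n lam s κ := by
  have h1 := rrA hp l (mp_mixcb a α h0k h0j hk3 hkj h3j) (by fun_prop) cB hB (fun ω t => by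
    simp only [update_of_ne h0l, update_of_ne hkl, update_of_ne h3l, update_of_ne hjl]) il
  simp only [mix_mix] at h1
  have h2 := symm_le (rrA hp l (mp_cb a h0k) (by fun_prop) cB hB (fun ω t => by
    simp only [update_of_ne h0l, update_of_ne hkl]) il)
  have h3 := stabE hp h0k h0l hkl cB hB ik il
  have h4 := rrM hp (mp_cb a h0k) (by fun_prop) cB hB
  exact tri (b_A (by fun_prop) cB hB) (b_M (by fun_prop) cB hB) (b_M (by fun_prop) cB hB)
    (tri (b_A (by fun_prop) cB hB) (b_A (by fun_prop) cB hB) (b_M (by fun_prop) cB hB)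
      (tri (b_A (by fun_prop) cB hB) (b_A (by fun_prop) cB hB) (b_A (by fun_prop) cB hB) h1 h2)
      h3) h4

theorem qE (l : Fin 8) {h P Q : Om n → XS n} (ch : Continuous h) (cP : Continuous P)
    (cQ : Continuous Q) {K L : ℝ} (hb : ∀ g ω, |Er lam g (P ω) (Q ω)| ≤ K) (hL : 0 ≤ L)
    (ih : ∀ ω t, h (update ω l t) = h ω) (iP : ∀ ω t, P (update ω l t) = P ω)
    (iQ : ∀ ω t, Q (update ω l t) = Q ω)
    (hq : ∀ ω, ∫ t, |Er lam (h ω + s • t) (P ω) (Q ω)| ∂gp (Ix n) ≤ L) :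
    ∫ ω, |Er lam (h ω + s • ω l) (P ω) (Q ω)| ∂PP n ≤ L := by
  rw [res1 l (B1.abs ⟨by fun_prop, fun ω => hb _ ω⟩)]
  simp only [ih, iP, iQ, update_self]
  exact int_le hL hq

theorem symE {W : Om n → ℝ} {K : ℝ} (hW : B1 W K) {g g' : Om n → XS n} (cg : Continuous g)
    (cg' : Continuous g') (hs : ∀ {κ : XS n} {pm : Equiv.Perm (Ix n)} {ϖ : Equiv.Perm (Cf n)},
      Sy κ pm ϖ → ∀ ω : Om n, W (fun k => sy κ pm (ω k)) = W ω ∧
        g (fun k => sy κ pm (ω k)) = sy κ pm (g ω) ∧ g' (fun k => sy κ pm (ω k)) = sy κ pm (g' ω)) :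
    ∫ ω, W ω * (AA lam (g ω) ⬝ᵥ AA lam (g' ω)) ∂PP n =
      ∫ ω, W ω * (VV lam (g ω) ⬝ᵥ VV lam (g' ω)) ∂PP n := by
  set R : Fin (n + 1) → Om n → ℝ :=
    fun i ω => W ω * ∑ j, AA lam (g ω) (i, j) * AA lam (g' ω) (i, j) with hR
  have cW := hW.cont
  have bR : ∀ i, B1 (R i) (K * ∑ _j : Fin (n + 1), 1) := fun i => hW.mul ⟨by fun_prop, fun ω =>
    (Finset.abs_sum_le_sum_abs _ _).trans (Finset.sum_le_sum fun j _ => by
      rw [abs_mul]; exact mul_le_one₀ (abs_AA _ _) (abs_nonneg _) (abs_AA _ _))⟩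
  have h1 : ∀ i, ∫ ω, R i ω ∂PP n = ∫ ω, R 0 ω ∂PP n := by
    intro i
    have hm := measurePreserving_pi (fun _ : Fin 8 => gp (Ix n)) (fun _ => gp (Ix n))
      fun _ => (sy_swap i).mp
    rw [mp_int hm (bR 0).cont.measurable]
    refine integral_congr_ae (ae_of_all _ fun ω => ?_)
    obtain ⟨a1, a2, a3⟩ := hs (sy_swap i) ω
    simp only [hR, a1, a2, a3, (sy_swap i).AA]
    simp only [sy, one_mul, Equiv.prodCongr_apply, Prod.map, Equiv.swap_apply_left]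
    rw [Equiv.sum_comp (Equiv.swap 0 i) fun j => AA lam (g ω) (i, j) * AA lam (g' ω) (i, j)]
  have h2 : ∀ ω, W ω * (AA lam (g ω) ⬝ᵥ AA lam (g' ω)) = ∑ i, R i ω := fun ω => by
    simp only [hR, dotProduct, Fintype.sum_prod_type, ← Finset.mul_sum]
  have h3 : ∀ ω, W ω * (VV lam (g ω) ⬝ᵥ VV lam (g' ω)) = (n + 1) * R 0 ω := fun ω => by
    rw [VV_row, hR]; ring
  simp only [h2, h3]
  rw [integral_finsetSum _ fun i _ => (bR i).int, integral_const_mul]
  simp [h1]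

theorem cb_mix (x y m z : XS n) :
    cb a (mix row x m) (mix row y z) = mix row (cb a x y) (cb a m z) := by
  funext e
  simp only [cb, mix, Pi.add_apply, Pi.smul_apply]
  split_ifs <;> rfl

theorem theta {f : XS n → XS n → XS n → XS n → ℝ}
    (hf : Continuous fun p : XS n × XS n × XS n × XS n => f p.1 p.2.1 p.2.2.1 p.2.2.2) :
    ∫ ω, f (cb a (ω 0) (ω 1)) (cb a (ω 0) (ω 2)) (ω 6) (ω 7) ∂PP n =
      ∫ ω, f (mix row (cb a (ω 0) (ω 1)) (cb a (ω 3) (ω 4)))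
        (mix row (cb a (ω 0) (ω 2)) (cb a (ω 3) (ω 5))) (ω 6) (ω 7) ∂PP n := by
  have hm : ∀ {x y : Om n → XS n}, Continuous x → Continuous y →
      Measurable fun ω => f (x ω) (y ω) (ω 6) (ω 7) := fun {x y} hx hy =>
    (hf.comp (f := fun ω : Om n => (x ω, y ω, ω 6, ω 7)) (by fun_prop)).measurable
  rw [sub2 (i := 0) (j := 3) (by decide) (mp_mix (r := row)) (hm (by fun_prop) (by fun_prop))
    fun ω t => by simp]
  simp only [update_self, ne_eq, Fin.reduceEq, not_false_eq_true, update_of_ne]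
  rw [sub2 (i := 1) (j := 4) (by decide) (mp_mix (r := row)) (hm (by fun_prop) (by fun_prop))
    fun ω t => by simp]
  simp only [update_self, ne_eq, Fin.reduceEq, not_false_eq_true, update_of_ne]
  rw [sub2 (i := 2) (j := 5) (by decide) (mp_mix (r := row)) (hm (by fun_prop) (by fun_prop))
    fun ω t => by simp]
  simp only [update_self, ne_eq, Fin.reduceEq, not_false_eq_true, update_of_ne, cb_mix]

end

end Vale.Agent.P146
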