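import Vale.Agent.P146.Sym

/-! P146: the sample space of eight Gaussian matrices, resampling, bounded functions. -/

open MeasureTheory ProbabilityTheory Real P157 Function
open scoped BigOperators Matrix

namespace Vale.Agent.P146

noncomputable section

section gen
variable {κ A : Type} [Fintype κ] [DecidableEq κ] [MeasurableSpace A] (μ : Measure A)
  [IsProbabilityMeasure μ]

theorem mp_upd (k : κ) : MeasurePreserving (fun p : (κ → A) × A => update p.1 k p.2)
    ((Measure.pi fun _ => μ).prod μ) (Measure.pi fun _ => μ) := by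
  have hm : Measurable fun p : (κ → A) × A => update p.1 k p.2 := measurable_update'
  refine ⟨hm, (Measure.pi_eq fun s hs => ?_).symm⟩
  rw [Measure.map_apply hm (MeasurableSet.univ_pi hs)]
  have e : (fun p : (κ → A) × A => update p.1 k p.2) ⁻¹' Set.pi Set.univ s =
      (Set.pi Set.univ (update s k Set.univ)) ×ˢ s k := by
    ext p
    simp only [Set.mem_preimage, Set.mem_pi, Set.mem_univ, true_imp_iff, Set.mem_prod]
    constructor
    · intro h
      refine ⟨fun i => ?_, by simpa using h k⟩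
      by_cases hi : i = k
      · subst hi; simp
      · simpa [hi] using h i
    · rintro ⟨h1, h2⟩ i
      by_cases hi : i = k
      · subst hi; simpa using h2
      · simpa [hi] using h1 i
  rw [e, Measure.prod_prod, Measure.pi_pi, ← Finset.mul_prod_erase _ _ (Finset.mem_univ k),
    ← Finset.mul_prod_erase _ _ (Finset.mem_univ k), update_self, measure_univ, one_mul, mul_comm]
  congr 1
  exact Finset.prod_congr rfl fun i hi => by rw [update_of_ne (Finset.ne_of_mem_erase hi)]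

theorem mp_upd2 (i j : κ) : MeasurePreserving
    (fun p : (κ → A) × (A × A) => update (update p.1 i p.2.1) j p.2.2)
    ((Measure.pi fun _ => μ).prod (μ.prod μ)) (Measure.pi fun _ => μ) :=
  ((mp_upd μ j).comp ((mp_upd μ i).prod (MeasurePreserving.id μ))).comp
    (measurePreserving_prodAssoc (Measure.pi fun _ : κ => μ) μ μ).symm

theorem mp_upd3 (i j k : κ) : MeasurePreserving
    (fun p : (κ → A) × ((A × A) × A) => update (update (update p.1 i p.2.1.1) j p.2.1.2) k p.2.2)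
    ((Measure.pi fun _ => μ).prod ((μ.prod μ).prod μ)) (Measure.pi fun _ => μ) :=
  ((mp_upd μ k).comp ((mp_upd2 μ i j).prod (MeasurePreserving.id μ))).comp
    (measurePreserving_prodAssoc (Measure.pi fun _ : κ => μ) (μ.prod μ) μ).symm

end gen

theorem mp_cancel {Ω Ω' Ω'' : Type} [MeasurableSpace Ω] [MeasurableSpace Ω'] [MeasurableSpace Ω'']
    {P : Measure Ω} {Q : Measure Ω'} {R : Measure Ω''} {T : Ω → Ω'} {F : Ω' → Ω''}
    (hT : MeasurePreserving T P Q) (hF : Measurable F)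
    (h : MeasurePreserving (fun x => F (T x)) P R) : MeasurePreserving F Q R :=
  ⟨hF, by rw [← hT.map_eq, Measure.map_map hF hT.measurable]; exact h.map_eq⟩

abbrev Om (n : ℕ) : Type := Fin 8 → XS n
abbrev PP (n : ℕ) : Measure (Om n) := Measure.pi fun _ => gp (Ix n)

variable {n : ℕ}

/-- bounded continuous functions -/
structure B1 {α : Type} [TopologicalSpace α] (f : α → ℝ) (K : ℝ) : Prop where
  cont : Continuous f
  bd : ∀ ω, |f ω| ≤ K

section b1
variable {α : Type} [TopologicalSpace α] {f g : α → ℝ} {K K' : ℝ}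

theorem B1.mul (hf : B1 f K) (hg : B1 g K') : B1 (fun ω => f ω * g ω) (K * K') :=
  ⟨hf.cont.mul hg.cont, fun ω => by
    rw [abs_mul]; exact mul_le_mul (hf.bd ω) (hg.bd ω) (abs_nonneg _) ((abs_nonneg _).trans (hf.bd ω))⟩

theorem B1.mul1 (hf : B1 f 1) (hg : B1 g K) : B1 (fun ω => f ω * g ω) K := by
  simpa using hf.mul hg

theorem B1.sub (hf : B1 f K) (hg : B1 g K') : B1 (fun ω => f ω - g ω) (K + K') :=
  ⟨hf.cont.sub hg.cont, fun ω => (abs_sub _ _).trans (add_le_add (hf.bd ω) (hg.bd ω))⟩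

theorem B1.add (hf : B1 f K) (hg : B1 g K') : B1 (fun ω => f ω + g ω) (K + K') :=
  ⟨hf.cont.add hg.cont, fun ω => (abs_add_le _ _).trans (add_le_add (hf.bd ω) (hg.bd ω))⟩

theorem B1.abs (hf : B1 f K) : B1 (fun ω => |f ω|) K :=
  ⟨hf.cont.abs, fun ω => by rw [abs_abs]; exact hf.bd ω⟩

theorem B1.comp {β : Type} [TopologicalSpace β] (hf : B1 f K) {T : β → α} (hT : Continuous T) :
    B1 (fun x => f (T x)) K := ⟨hf.cont.comp hT, fun _ => hf.bd _⟩

theorem B1.int [MeasurableSpace α] [OpensMeasurableSpace α] {P : Measure α} [IsFiniteMeasure P]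
    (hf : B1 f K) : Integrable f P := int_bd hf.cont.measurable hf.bd

end b1

variable {f W X Y F G : Om n → ℝ} {K K' L : ℝ}

theorem res1 (k : Fin 8) (hf : B1 f K) :
    ∫ ω, f ω ∂PP n = ∫ ω, ∫ t, f (update ω k t) ∂gp (Ix n) ∂PP n := by
  rw [mp_int (mp_upd (gp (Ix n)) k) hf.cont.measurable]
  exact integral_prod _ ((mp_upd (gp (Ix n)) k).integrable_comp_of_integrable hf.int)

theorem res2 (i j : Fin 8) (hf : B1 f K) :
    ∫ ω, f ω ∂PP n = ∫ ω, ∫ p, f (update (update ω i p.1) j p.2)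
      ∂(gp (Ix n)).prod (gp (Ix n)) ∂PP n := by
  rw [mp_int (mp_upd2 (gp (Ix n)) i j) hf.cont.measurable]
  exact integral_prod _ ((mp_upd2 (gp (Ix n)) i j).integrable_comp_of_integrable hf.int)

theorem res3 (i j k : Fin 8) (hf : B1 f K) :
    ∫ ω, f ω ∂PP n = ∫ ω, ∫ p, f (update (update (update ω i p.1.1) j p.1.2) k p.2)
      ∂g3 (Ix n) ∂PP n := by
  rw [mp_int (mp_upd3 (gp (Ix n)) i j k) hf.cont.measurable]
  exact integral_prod _ ((mp_upd3 (gp (Ix n)) i j k).integrable_comp_of_integrable hf.int)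

theorem int_le {Ω : Type} [MeasurableSpace Ω] {P : Measure Ω} [IsProbabilityMeasure P]
    {f : Ω → ℝ} {L : ℝ} (hL : 0 ≤ L) (h : ∀ ω, f ω ≤ L) : ∫ ω, f ω ∂P ≤ L := by
  by_cases hi : Integrable f P
  · simpa using integral_mono hi (integrable_const L) h
  · rw [integral_undef hi]; exact hL

theorem mp_two {i j : Fin 8} (hij : i ≠ j) : MeasurePreserving (fun ω : Om n => (ω i, ω j)) (PP n)
    ((gp (Ix n)).prod (gp (Ix n))) := by
  refine mp_cancel (mp_upd2 (gp (Ix n)) i j) (by fun_prop) ?_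
  simp only [update_self, update_of_ne hij]
  exact measurePreserving_snd

theorem sub2 {i j : Fin 8} (hij : i ≠ j) {T : XS n × XS n → XS n}
    (hT : MeasurePreserving T ((gp (Ix n)).prod (gp (Ix n))) (gp (Ix n))) (hf : Measurable f)
    (hj : ∀ ω t, f (update ω j t) = f ω) :
    ∫ ω, f ω ∂PP n = ∫ ω, f (update ω i (T (ω i, ω j))) ∂PP n := by
  have hm : Measurable fun ω : Om n => update ω i (T (ω i, ω j)) :=
    (mp_upd (gp (Ix n)) i).measurable.comp
      (measurable_id.prodMk (hT.measurable.comp (mp_two hij).measurable))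
  rw [mp_int (mp_upd2 (gp (Ix n)) i j) (f := fun ω => f (update ω i (T (ω i, ω j)))) (hf.comp hm),
    mp_int ((mp_upd (gp (Ix n)) i).comp ((MeasurePreserving.id (PP n)).prod hT)) hf]
  refine integral_congr_ae (ae_of_all _ fun p => ?_)
  simp only [update_self, update_of_ne hij, Function.comp, Prod.map, id]
  rw [update_comm hij.symm, hj, update_idem]

theorem close (hW : B1 W K) (hX : B1 X K') (hY : B1 Y L) {e : ℝ}
    (h : ∫ ω, |X ω - Y ω| ∂PP n ≤ e) (hF : ∀ ω, F ω = W ω * X ω) (hG : ∀ ω, G ω = W ω * Y ω) :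
    ∫ ω, F ω ∂PP n ≤ ∫ ω, G ω ∂PP n + K * e := by
  have hK : 0 ≤ K := (abs_nonneg _).trans (hW.bd 0)
  simp only [hF, hG]
  have h1 : ∫ ω, W ω * X ω ∂PP n ≤ ∫ ω, W ω * Y ω + K * |X ω - Y ω| ∂PP n :=
    integral_mono (hW.mul hX).int ((hW.mul hY).int.add ((hX.sub hY).abs.int.const_mul K))
      fun ω => by
        have h2 := le_abs_self (W ω * (X ω - Y ω))
        rw [abs_mul] at h2
        have h3 := mul_le_mul_of_nonneg_right (hW.bd ω) (abs_nonneg (X ω - Y ω))
        simp only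
        linarith
  rw [integral_add (hW.mul hY).int ((hX.sub hY).abs.int.const_mul K), integral_const_mul] at h1
  linarith [mul_le_mul_of_nonneg_left h hK]

theorem tri {Z : Om n → ℝ} (hX : B1 X K) (hY : B1 Y K) (hZ : B1 Z K) {e e' : ℝ}
    (h : ∫ ω, |X ω - Y ω| ∂PP n ≤ e) (h' : ∫ ω, |Y ω - Z ω| ∂PP n ≤ e') :
    ∫ ω, |X ω - Z ω| ∂PP n ≤ e + e' := by
  have h1 : ∫ ω, |X ω - Z ω| ∂PP n ≤ ∫ ω, |X ω - Y ω| + |Y ω - Z ω| ∂PP n :=
    integral_mono (hX.sub hZ).abs.int ((hX.sub hY).abs.int.add (hY.sub hZ).abs.int)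
      fun ω => abs_sub_le _ _ _
  rw [integral_add (hX.sub hY).abs.int (hY.sub hZ).abs.int] at h1
  linarith

theorem symm_le {e : ℝ} (h : ∫ ω, |X ω - Y ω| ∂PP n ≤ e) : ∫ ω, |Y ω - X ω| ∂PP n ≤ e := by
  simpa only [abs_sub_comm (X _)] using h

theorem der_int {Ω : Type} [MeasurableSpace Ω] {P : Measure Ω} [IsProbabilityMeasure P]
    {F F' : ℝ → Ω → ℝ} (hF : ∀ a, Measurable (F a)) (hF' : ∀ a, Measurable (F' a)) {K K' : ℝ}
    (bF : ∀ a ω, |F a ω| ≤ K) (bF' : ∀ a ω, |F' a ω| ≤ K')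
    (hd : ∀ ω a, HasDerivAt (fun a => F a ω) (F' a ω) a) (a : ℝ) :
    HasDerivAt (fun a => ∫ ω, F a ω ∂P) (∫ ω, F' a ω ∂P) a :=
  (hasDerivAt_integral_of_dominated_loc_of_deriv_le (μ := P) (s := Set.univ) (x₀ := a) (F := F)
    (F' := F') (bound := fun _ => K') Filter.univ_mem
    (Filter.Eventually.of_forall fun θ => (hF θ).aestronglyMeasurable) (int_bd (hF a) (bF a))
    (hF' a).aestronglyMeasurable (ae_of_all _ fun ω θ _ => bF' θ ω) (integrable_const _)
    (ae_of_all _ fun ω θ _ => hd ω θ)).2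

end

end Vale.Agent.P146
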