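import Vale.Agent.P146.Therm
import Vale.Agent.P146.Defs

/-! P146: the full matrix model, its two point matrix, cavity vector and covariance matrix. -/

open MeasureTheory ProbabilityTheory Real P157
open scoped BigOperators Matrix

namespace Vale.Agent.P146

noncomputable section

abbrev Cf (n : ℕ) : Type := Fin (n + 1) → Bool
abbrev Ix (n : ℕ) : Type := Fin (n + 1) × Fin (n + 1)
abbrev XS (n : ℕ) : Type := Ix n → ℝ

variable {n : ℕ}

def xs (σ : Cf n) : Fin (n + 1) → ℝ := fun i => spin (σ i) / √(n + 1)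
def op (p q : Fin (n + 1) → ℝ) : XS n := fun e => p e.1 * q e.2
def XX (σ : Cf n) : XS n := op (xs σ) (xs σ)
def row (e : Ix n) : Prop := e.1 = 0 ∨ e.2 = 0
instance : DecidablePred (row (n := n)) := fun e => inferInstanceAs (Decidable (e.1 = 0 ∨ e.2 = 0))
def AA (lam : ℝ) (g : XS n) : XS n := fun e => av (fe lam XX) g (fun σ => XX σ e)
def VV (lam : ℝ) (g : XS n) : Fin (n + 1) → ℝ :=
  fun j => av (fe lam XX) g (fun σ => spin (σ 0) * xs σ j)
def CC (lam : ℝ) (g : XS n) : XS n := AA lam g - op (VV lam g) (VV lam g)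
def MM (lam c s : ℝ) (u : XS n) : XS n := fun e => ∫ t, AA lam (c • u + s • t) e ∂gp (Ix n)

theorem spin_sq (b : Bool) : spin b * spin b = 1 := by cases b <;> simp [spin]
theorem abs_spin (b : Bool) : |spin b| ≤ 1 := by cases b <;> simp [spin]
theorem spin_not (b : Bool) : spin (!b) = -spin b := by cases b <;> simp [spin]

theorem Np (n : ℕ) : (0 : ℝ) < n + 1 := by positivity

theorem xs_mul (σ : Cf n) (i : Fin (n + 1)) : xs σ i * xs σ i = 1 / (n + 1) := by
  rw [xs, div_mul_div_comm, spin_sq, mul_self_sqrt (Np n).le]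

theorem xs_dot (σ : Cf n) : xs σ ⬝ᵥ xs σ = 1 := by
  simp only [dotProduct, xs_mul, Finset.sum_const, Finset.card_univ, Fintype.card_fin, nsmul_eq_mul]
  push_cast
  field_simp

theorem op_dot (p q p' q' : Fin (n + 1) → ℝ) : op p q ⬝ᵥ op p' q' = (p ⬝ᵥ p') * (q ⬝ᵥ q') := by
  simp only [dotProduct, op, Fintype.sum_prod_type, Finset.sum_mul_sum]
  exact Finset.sum_congr rfl fun i _ => Finset.sum_congr rfl fun j _ => by ring

theorem XX_dot (σ : Cf n) : XX σ ⬝ᵥ XX σ ≤ 1 := by rw [XX, op_dot, xs_dot, one_mul]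

theorem op_le {p q : Fin (n + 1) → ℝ} (hp : p ⬝ᵥ p ≤ 1) (hq : q ⬝ᵥ q ≤ 1) :
    op p q ⬝ᵥ op p q ≤ 1 := by
  rw [op_dot]; exact mul_le_one₀ hp (dot_self_nn q) hq

theorem ob_op (p q : Fin (n + 1) → ℝ) :
    ob XX (op p q) = fun σ => (xs σ ⬝ᵥ p) * (xs σ ⬝ᵥ q) := by
  funext σ; rw [ob, XX, op_dot]

theorem row_sum {φ : Ix n → ℝ} (h0 : φ (0, 0) = 0) :
    ∑ e, (if row e then φ e else 0) = ∑ k, φ (0, k) + ∑ k, φ (k, 0) := by
  have e1 : ∀ e : Ix n, (if row e then φ e else 0) =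
      (if e.1 = 0 then φ e else 0) + if e.2 = 0 then φ e else 0 := by
    rintro ⟨i, j⟩
    by_cases hi : i = 0 <;> by_cases hj : j = 0 <;> simp [row, hi, hj, h0]
  simp only [e1, Finset.sum_add_distrib, Fintype.sum_prod_type]
  congr 1
  · rw [Finset.sum_comm]; simp
  · simp

theorem row_norm (σ : Cf n) : mix row 0 (XX σ) ⬝ᵥ mix row 0 (XX σ) ≤ 2 / (n + 1) := by
  have e1 : ∀ e : Ix n, mix row 0 (XX σ) e * mix row 0 (XX σ) e ≤
      (if e.1 = 0 then 1 / ((n : ℝ) + 1) ^ 2 else 0) + if e.2 = 0 then 1 / ((n : ℝ) + 1) ^ 2 else 0 := by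
    rintro ⟨i, j⟩
    have e2 : XX σ (i, j) * XX σ (i, j) = 1 / ((n : ℝ) + 1) ^ 2 := by
      have : XX σ (i, j) * XX σ (i, j) = (xs σ i * xs σ i) * (xs σ j * xs σ j) := by
        simp only [XX, op]; ring
      rw [this, xs_mul, xs_mul]; field_simp
    have h3 : 0 ≤ 1 / ((n : ℝ) + 1) ^ 2 := by positivity
    unfold mix
    by_cases hr : row (i, j)
    · rw [if_pos hr, e2]
      rcases hr with hr | hr
      · rw [if_pos hr]; split_ifs <;> linarith
      · rw [if_pos hr]; split_ifs <;> linarith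
    · rw [if_neg hr, Pi.zero_apply, mul_zero]
      split_ifs <;> linarith
  refine (Finset.sum_le_sum fun e _ => e1 e).trans_eq ?_
  simp only [Finset.sum_add_distrib, Fintype.sum_prod_type]
  rw [Finset.sum_comm]
  simp only [Finset.sum_ite_eq', Finset.mem_univ, if_true, Finset.sum_const, Finset.card_univ,
    Fintype.card_fin, nsmul_eq_mul]
  push_cast
  field_simp
  ring

variable {lam c s : ℝ}

theorem AA_dot (g B : XS n) : AA lam g ⬝ᵥ B = tm lam XX g B := by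
  unfold tm ob
  simp only [AA, dotProduct, av_sum, av_mulc]

section cont
variable {α : Type} [TopologicalSpace α] {G : α → XS n}
@[fun_prop] theorem cont_AA (hG : Continuous G) : Continuous fun y => AA lam (G y) :=
  continuous_pi fun _ => cont_av _ hG fun _ => continuous_const
@[fun_prop] theorem cont_VV (hG : Continuous G) : Continuous fun y => VV lam (G y) :=
  continuous_pi fun _ => cont_av _ hG fun _ => continuous_const
@[fun_prop] theorem cont_op {P Q : α → Fin (n + 1) → ℝ} (hP : Continuous P) (hQ : Continuous Q) :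
    Continuous fun y => op (P y) (Q y) := by
  unfold op; fun_prop
@[fun_prop] theorem cont_CC (hG : Continuous G) : Continuous fun y => CC lam (G y) := by
  unfold CC; fun_prop
end cont

theorem abs_AA (g : XS n) (e : Ix n) : |AA lam g e| ≤ 1 :=
  abs_av_le fun σ => abs_coord_le (XX_dot σ) e

theorem cont_int {α ι : Type} [TopologicalSpace α] [FirstCountableTopology α] [Fintype ι]
    {f : α → (ι → ℝ) → ℝ} (hf : Continuous fun p : α × (ι → ℝ) => f p.1 p.2) {K : ℝ}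
    (hb : ∀ y t, |f y t| ≤ K) : Continuous fun y => ∫ t, f y t ∂gp ι :=
  continuous_of_dominated (bound := fun _ => K)
    (fun y => (hf.comp (Continuous.prodMk_right y)).aestronglyMeasurable)
    (fun y => ae_of_all _ fun t => hb y t) (integrable_const _)
    (ae_of_all _ fun t => hf.comp (Continuous.prodMk_left t))

theorem cont_MM0 : Continuous (MM (n := n) lam c s) :=
  continuous_pi fun e => cont_int (f := fun u t => AA lam (c • u + s • t) e) (by fun_prop)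
    fun _ _ => abs_AA _ _

@[fun_prop] theorem cont_MM {α : Type} [TopologicalSpace α] {G : α → XS n} (hG : Continuous G) :
    Continuous fun y => MM lam c s (G y) := cont_MM0.comp hG

theorem int_dot {ι κ : Type} [Fintype ι] [Fintype κ] {F : (ι → ℝ) → κ → ℝ} (hF : Continuous F)
    {K : ℝ} (hb : ∀ t e, |F t e| ≤ K) (B : κ → ℝ) :
    (fun e => ∫ t, F t e ∂gp ι) ⬝ᵥ B = ∫ t, F t ⬝ᵥ B ∂gp ι := by
  have i1 : ∀ e, Integrable (fun t => F t e * B e) (gp ι) := fun e =>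
    (int_bd (Continuous.measurable (by fun_prop)) fun t => hb t e).mul_const _
  simp only [dotProduct]
  rw [integral_finsetSum _ fun e _ => i1 e]
  exact Finset.sum_congr rfl fun e _ => (integral_mul_const _ _).symm

theorem MM_dot (u B : XS n) :
    MM lam c s u ⬝ᵥ B = ∫ t, AA lam (c • u + s • t) ⬝ᵥ B ∂gp (Ix n) :=
  int_dot (F := fun t => AA lam (c • u + s • t)) (by fun_prop) (fun _ _ => abs_AA _ _) B

/-- convex combinations of the rank one matrices -/
def Cvx (P : XS n) : Prop :=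
  ∃ ν : Cf n → ℝ, (∀ σ, 0 ≤ ν σ) ∧ ∑ σ, ν σ = 1 ∧ ∀ B, P ⬝ᵥ B = ∑ σ, ν σ * (XX σ ⬝ᵥ B)

theorem cvx_AA (g : XS n) : Cvx (AA lam g) :=
  ⟨gw (fe lam XX) g, fun σ => (gw_pos _ _ σ).le, sum_gw _ _, fun B => AA_dot g B⟩

theorem cvx_MM (u : XS n) : Cvx (MM lam c s u) := by
  have i1 : ∀ σ, Integrable (fun t => gw (fe lam XX) (c • u + s • t) σ) (gp (Ix n)) := fun σ =>
    int_bd (K := 1) (Continuous.measurable (by fun_prop)) fun t => by
      rw [abs_of_pos (gw_pos _ _ _)]; exact gw_le_one _ _ _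
  refine ⟨fun σ => ∫ t, gw (fe lam XX) (c • u + s • t) σ ∂gp (Ix n),
    fun σ => integral_nonneg fun t => (gw_pos _ _ σ).le, ?_, fun B => ?_⟩
  · rw [← integral_finsetSum _ fun σ _ => i1 σ]
    simp [sum_gw]
  · rw [MM_dot]
    simp only [AA_dot, tm, av, ob]
    rw [integral_finsetSum _ fun σ _ => (i1 σ).mul_const _]
    exact Finset.sum_congr rfl fun σ _ => integral_mul_const _ _

theorem Cvx.abs_le {P B : XS n} (hP : Cvx P) (hB : B ⬝ᵥ B ≤ 1) : |P ⬝ᵥ B| ≤ 1 := by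
  obtain ⟨ν, h0, h1, h2⟩ := hP
  rw [h2, ← h1]
  refine (Finset.abs_sum_le_sum_abs _ _).trans (Finset.sum_le_sum fun σ _ => ?_)
  rw [abs_mul, abs_of_nonneg (h0 σ)]
  exact mul_le_of_le_one_right (h0 σ) (abs_dot_le_one (XX_dot σ) hB)

theorem Cvx.nrm {P : XS n} (hP : Cvx P) : P ⬝ᵥ P ≤ 1 := by
  obtain ⟨ν, h0, h1, h2⟩ := id hP
  rw [h2, ← h1]
  refine Finset.sum_le_sum fun σ _ => mul_le_of_le_one_right (h0 σ) ?_
  rw [dotProduct_comm]
  exact (le_abs_self _).trans (hP.abs_le (XX_dot σ))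

theorem Cvx.nn {P Q : XS n} (hP : Cvx P) (hQ : Cvx Q) : 0 ≤ P ⬝ᵥ Q := by
  obtain ⟨ν, h0, -, h2⟩ := hP
  obtain ⟨ν', h0', -, h2'⟩ := hQ
  rw [h2]
  refine Finset.sum_nonneg fun σ _ => mul_nonneg (h0 σ) ?_
  rw [dotProduct_comm, h2']
  refine Finset.sum_nonneg fun τ _ => mul_nonneg (h0' τ) ?_
  rw [XX, XX, op_dot]
  exact mul_self_nonneg _

theorem Cvx.abs {P Q : XS n} (hP : Cvx P) (hQ : Cvx Q) : |P ⬝ᵥ Q| ≤ 1 := hP.abs_le hQ.nrm

theorem VV_dot (g : XS n) (z : Fin (n + 1) → ℝ) :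
    VV lam g ⬝ᵥ z = av (fe lam XX) g (fun σ => spin (σ 0) * (xs σ ⬝ᵥ z)) := by
  simp only [VV, dotProduct, Finset.mul_sum, av_sum, ← mul_assoc, av_mulc]

theorem VV_nrm (g : XS n) : VV lam g ⬝ᵥ VV lam g ≤ 1 := by
  have h1 : VV lam g ⬝ᵥ VV lam g ≤ (1 + VV lam g ⬝ᵥ VV lam g) / 2 := by
    conv_lhs => rw [VV_dot]
    refine av_le fun σ => ?_
    have h2 := dot_amgm (spin (σ 0) • xs σ) (VV lam g) one_pos
    rw [smul_dotProduct, smul_dotProduct, dotProduct_smul, xs_dot] at h2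
    simpa [spin_sq] using h2
  linarith

theorem CC_dot (g B : XS n) :
    CC lam g ⬝ᵥ B = AA lam g ⬝ᵥ B - op (VV lam g) (VV lam g) ⬝ᵥ B := sub_dotProduct _ _ _

theorem abs_CC_dot (g : XS n) {B : XS n} (hB : B ⬝ᵥ B ≤ 1) : |CC lam g ⬝ᵥ B| ≤ 2 := by
  rw [CC_dot]
  have h1 := (cvx_AA (lam := lam) g).abs_le hB
  have h2 := abs_dot_le_one (op_le (VV_nrm (lam := lam) g) (VV_nrm (lam := lam) g)) hB
  linarith [abs_sub (AA lam g ⬝ᵥ B) (op (VV lam g) (VV lam g) ⬝ᵥ B)]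

theorem abs_CC_CC (g g' : XS n) : |CC lam g ⬝ᵥ CC lam g'| ≤ 4 := by
  rw [CC_dot, dotProduct_comm (AA lam g), dotProduct_comm (op _ _)]
  have h1 := abs_CC_dot (lam := lam) g' (cvx_AA (lam := lam) g).nrm
  have h2 := abs_CC_dot (lam := lam) g' (op_le (VV_nrm (lam := lam) g) (VV_nrm (lam := lam) g))
  linarith [abs_sub (CC lam g' ⬝ᵥ AA lam g) (CC lam g' ⬝ᵥ op (VV lam g) (VV lam g))]

theorem abs_CC (g : XS n) (e : Ix n) : |CC lam g e| ≤ 2 := by
  have h := abs_CC_dot (lam := lam) g (B := Pi.single e 1) (by simp)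
  simpa using h

theorem abs_VV_VV (g g' : XS n) : |VV lam g ⬝ᵥ VV lam g'| ≤ 1 :=
  abs_dot_le_one (VV_nrm g) (VV_nrm g')

/-! the replica algebra -/

def Er (lam : ℝ) (g P Q : XS n) : ℝ :=
  (AA lam g ⬝ᵥ P) * (CC lam g ⬝ᵥ Q) - (AA lam g ⬝ᵥ Q) * (CC lam g ⬝ᵥ P)

@[fun_prop] theorem cont_Er {α : Type} [TopologicalSpace α] {G P Q : α → XS n} (hG : Continuous G)
    (hP : Continuous P) (hQ : Continuous Q) : Continuous fun y => Er lam (G y) (P y) (Q y) := by
  unfold Er; fun_prop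

theorem abs_Er (g : XS n) {P Q : XS n} (hP : P ⬝ᵥ P ≤ 1) (hQ : Q ⬝ᵥ Q ≤ 1) :
    |Er lam g P Q| ≤ 4 := by
  have h1 := mul_le_mul ((cvx_AA (lam := lam) g).abs_le hP) (abs_CC_dot (lam := lam) g hQ)
    (abs_nonneg _) zero_le_one
  have h2 := mul_le_mul ((cvx_AA (lam := lam) g).abs_le hQ) (abs_CC_dot (lam := lam) g hP)
    (abs_nonneg _) zero_le_one
  rw [← abs_mul] at h1 h2
  refine (abs_sub _ _).trans ?_
  linarith

theorem Er_anti (g P Q : XS n) : Er lam g P Q = -Er lam g Q P := by unfold Er; ring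

theorem q1 (hl : 0 < lam) (hs : 0 < s) {κ : ℝ} (hκ : 0 < κ) (h : XS n) {y z : Fin (n + 1) → ℝ}
    (hy : y ⬝ᵥ y ≤ 1) (hz : z ⬝ᵥ z ≤ 1) :
    ∫ t, |Er lam (h + s • t) (op y y) (op z z)| ∂gp (Ix n) ≤ 2 / (s * lam) / κ + 2 * κ := by
  have i1 : ∀ {p q : Fin (n + 1) → ℝ}, p ⬝ᵥ p ≤ 1 → q ⬝ᵥ q ≤ 1 →
      Integrable (fun t => tv lam XX (h + s • t) (op p q)) (gp (Ix n)) := fun hp hq =>
    int_bd (Continuous.measurable (by fun_prop)) fun t => abs_tv XX_dot _ (op_le hp hq)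
  have j1 : Integrable (fun t => tv lam XX (h + s • t) (op y y) +
      2 * tv lam XX (h + s • t) (op y z)) (gp (Ix n)) := (i1 hy hy).add ((i1 hy hz).const_mul 2)
  have j2 : Integrable (fun t => (tv lam XX (h + s • t) (op y y) +
      2 * tv lam XX (h + s • t) (op y z) + tv lam XX (h + s • t) (op z z)) / (2 * κ)) (gp (Ix n)) :=
    (j1.add (i1 hz hz)).div_const _
  have h1 := integral_mono_of_nonneg (μ := gp (Ix n))
    (ae_of_all _ fun t => abs_nonneg (Er lam (h + s • t) (op y y) (op z z)))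
    (j2.add (integrable_const (2 * κ))) (ae_of_all _ fun t => by
      have h2 := q_alg (a := fe lam XX) (g := h + s • t) (Y := fun σ => xs σ ⬝ᵥ y)
        (Z := fun σ => xs σ ⬝ᵥ z) (ε := fun σ => spin (σ 0))
        (fun σ => abs_dot_le_one (xs_dot σ).le hy) (fun σ => abs_dot_le_one (xs_dot σ).le hz)
        (fun σ => abs_spin _) hκ
      simp only [Pi.add_apply, tv, ob_op]
      refine le_trans (le_of_eq ?_) h2
      rw [← abs_neg]
      congr 1
      simp only [Er, CC_dot, AA_dot, tm, ob_op, op_dot, VV_dot]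
      ring)
  refine h1.trans ?_
  simp only [Pi.add_apply]
  rw [integral_add j2 (integrable_const _), integral_div, integral_add j1 (i1 hz hz),
    integral_add (i1 hy hy) ((i1 hy hz).const_mul 2), integral_const_mul]
  simp only [integral_const, probReal_univ, one_smul]
  have t1 := therm XX_dot hl h hs (op_le hy hy)
  have t2 := therm XX_dot hl h hs (op_le hy hz)
  have t3 := therm XX_dot hl h hs (op_le hz hz)
  have e : 2 / (s * lam) / κ = (1 / (s * lam) + 2 * (1 / (s * lam)) + 1 / (s * lam)) / (2 * κ) := by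
    field_simp; ring
  rw [e]
  gcongr

theorem q_cvx (h : XS n) {P Q : XS n} (hP : Cvx P) (hQ : Q ⬝ᵥ Q ≤ 1) {L : ℝ}
    (hL : ∀ σ, ∫ t, |Er lam (h + s • t) (XX σ) Q| ∂gp (Ix n) ≤ L) :
    ∫ t, |Er lam (h + s • t) P Q| ∂gp (Ix n) ≤ L := by
  obtain ⟨ν, h0, h1, h2⟩ := hP
  have i1 : ∀ σ, Integrable (fun t => ν σ * |Er lam (h + s • t) (XX σ) Q|) (gp (Ix n)) := fun σ =>
    (int_bd (Continuous.measurable (by fun_prop)) fun t => abs_Er _ (XX_dot σ) hQ).abs.const_mul _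
  have h3 := integral_mono_of_nonneg (μ := gp (Ix n))
    (ae_of_all _ fun t => abs_nonneg (Er lam (h + s • t) P Q))
    (integrable_finsetSum Finset.univ fun σ _ => i1 σ) (ae_of_all _ fun t => by
      have e : Er lam (h + s • t) P Q = ∑ σ, ν σ * Er lam (h + s • t) (XX σ) Q := by
        simp only [Er, dotProduct_comm _ P, h2, Finset.sum_mul, Finset.mul_sum,
          ← Finset.sum_sub_distrib]
        refine Finset.sum_congr rfl fun σ _ => ?_
        rw [dotProduct_comm (XX σ), dotProduct_comm (XX σ)]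
        ring
      simp only [e]
      refine (Finset.abs_sum_le_sum_abs _ _).trans (Finset.sum_le_sum fun σ _ => ?_)
      rw [abs_mul, abs_of_nonneg (h0 σ)])
  refine h3.trans ?_
  rw [integral_finsetSum _ fun σ _ => i1 σ]
  calc _ ≤ ∑ σ, ν σ * L := Finset.sum_le_sum fun σ _ => by
        rw [integral_const_mul]; exact mul_le_mul_of_nonneg_left (hL σ) (h0 σ)
    _ = L := by rw [← Finset.sum_mul, h1, one_mul]

theorem q2 (hl : 0 < lam) (hs : 0 < s) {κ : ℝ} (hκ : 0 < κ) (h : XS n) {P : XS n} (hP : Cvx P)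
    {z : Fin (n + 1) → ℝ} (hz : z ⬝ᵥ z ≤ 1) :
    ∫ t, |Er lam (h + s • t) P (op z z)| ∂gp (Ix n) ≤ 2 / (s * lam) / κ + 2 * κ :=
  q_cvx h hP (op_le hz hz) fun σ => q1 hl hs hκ h (xs_dot σ).le hz

theorem q3 (hl : 0 < lam) (hs : 0 < s) {κ : ℝ} (hκ : 0 < κ) (h : XS n) {P Q : XS n} (hP : Cvx P)
    (hQ : Cvx Q) : ∫ t, |Er lam (h + s • t) P Q| ∂gp (Ix n) ≤ 2 / (s * lam) / κ + 2 * κ := by
  simp only [Er_anti _ P Q, abs_neg]
  refine q_cvx h hQ hP.nrm fun σ => ?_
  simp only [Er_anti _ (XX σ) P, abs_neg]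
  exact q2 hl hs hκ h hP (xs_dot σ).le

theorem q4 (hl : 0 < lam) (hs : 0 < s) {κ : ℝ} (hκ : 0 < κ) (h : XS n) {P : XS n} (hP : Cvx P)
    (g' : XS n) :
    ∫ t, |Er lam (h + s • t) P (CC lam g')| ∂gp (Ix n) ≤ 2 * (2 / (s * lam) / κ + 2 * κ) := by
  have hV := VV_nrm (lam := lam) g'
  have i1 : Integrable (fun t => |Er lam (h + s • t) P (AA lam g')|) (gp (Ix n)) :=
    (int_bd (Continuous.measurable (by fun_prop)) fun t => abs_Er _ hP.nrm (cvx_AA g').nrm).abs
  have i2 : Integrable (fun t => |Er lam (h + s • t) P (op (VV lam g') (VV lam g'))|) (gp (Ix n)) :=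
    (int_bd (Continuous.measurable (by fun_prop)) fun t => abs_Er _ hP.nrm (op_le hV hV)).abs
  have h3 := integral_mono_of_nonneg (μ := gp (Ix n))
    (ae_of_all _ fun t => abs_nonneg (Er lam (h + s • t) P (CC lam g'))) (i1.add i2)
    (ae_of_all _ fun t => by
      have e : Er lam (h + s • t) P (CC lam g') = Er lam (h + s • t) P (AA lam g') -
          Er lam (h + s • t) P (op (VV lam g') (VV lam g')) := by
        simp only [Er, CC, dotProduct_sub]; ring
      simp only [e, Pi.add_apply]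
      exact abs_sub _ _)
  simp only [Pi.add_apply] at h3
  rw [integral_add i1 i2] at h3
  linarith [q3 hl hs hκ h hP (cvx_AA (lam := lam) g'), q2 hl hs hκ h hP hV]

end

end Vale.Agent.P146
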