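import Vale.Agent.P146.SK

/-! P146: site permutations, the gauge flip of the cavity spin, gradients in the cavity row. -/

open MeasureTheory ProbabilityTheory Real P157
open scoped BigOperators Matrix

namespace Vale.Agent.P146

noncomputable section

theorem mp_perm {κ A : Type} [Fintype κ] [MeasurableSpace A] (μ : Measure A)
    [IsProbabilityMeasure μ] (pm : Equiv.Perm κ) :
    MeasurePreserving (fun g : κ → A => fun k => g (pm k)) (Measure.pi fun _ => μ)
      (Measure.pi fun _ => μ) := by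
  have h := (measurePreserving_piCongrLeft (fun _ : κ => μ) pm).symm
  exact h

theorem mp_sign {k : ℝ} (hk : k * k = 1) :
    MeasurePreserving (fun x : ℝ => k * x) (gaussianReal 0 1) (gaussianReal 0 1) := by
  refine ⟨by fun_prop, ?_⟩
  rw [gaussianReal_map_const_mul, mul_zero, mul_one]
  congr 1
  ext
  simp only [NNReal.coe_mk, NNReal.coe_one, sq, hk]

variable {n : ℕ} {lam c s : ℝ}

/-- signed permutation of the couplings -/
def sy (κ : XS n) (pm : Equiv.Perm (Ix n)) (g : XS n) : XS n := fun e => κ e * g (pm e)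

/-- symmetries of the model -/
structure Sy (κ : XS n) (pm : Equiv.Perm (Ix n)) (ϖ : Equiv.Perm (Cf n)) : Prop where
  sq : ∀ e, κ e * κ e = 1
  xx : ∀ σ, XX (ϖ σ) = sy κ pm (XX σ)

variable {κ : XS n} {pm : Equiv.Perm (Ix n)} {ϖ : Equiv.Perm (Cf n)}

theorem sy_lin (a b : ℝ) (u v : XS n) : sy κ pm (a • u + b • v) = a • sy κ pm u + b • sy κ pm v := by
  funext e; simp only [sy, Pi.add_apply, Pi.smul_apply, smul_eq_mul]; ring

@[fun_prop] theorem cont_sy {α : Type} [TopologicalSpace α] {G : α → XS n} (hG : Continuous G) :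
    Continuous fun y => sy κ pm (G y) := by
  unfold sy; fun_prop

theorem Sy.mp (h : Sy κ pm ϖ) : MeasurePreserving (sy κ pm) (gp (Ix n)) (gp (Ix n)) :=
  (measurePreserving_pi (fun _ : Ix n => gaussianReal 0 1) (fun _ => gaussianReal 0 1)
    fun e => mp_sign (h.sq e)).comp (mp_perm _ pm)

theorem Sy.dot (h : Sy κ pm ϖ) (u v : XS n) : sy κ pm u ⬝ᵥ sy κ pm v = u ⬝ᵥ v := by
  simp only [dotProduct, sy]
  rw [← Equiv.sum_comp pm fun e => u e * v e]
  exact Finset.sum_congr rfl fun e _ => by linear_combination (u (pm e) * v (pm e)) * h.sq e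

theorem Sy.av (h : Sy κ pm ϖ) (g : XS n) (b : Cf n → ℝ) :
    av (fe lam XX) (sy κ pm g) b = av (fe lam XX) g (fun σ => b (ϖ σ)) := by
  have e1 : ∀ σ, fe lam XX (ϖ σ) ⬝ᵥ sy κ pm g = fe lam XX σ ⬝ᵥ g := fun σ => by
    simp only [fe, smul_dotProduct, h.xx, h.dot]
  have e2 : pf (fe lam XX) (sy κ pm g) = pf (fe lam XX) g := by
    unfold pf
    rw [← Equiv.sum_comp ϖ]
    simp only [e1]
  unfold P146.av
  rw [← Equiv.sum_comp ϖ]
  simp only [gw, e1, e2]

theorem Sy.AA (h : Sy κ pm ϖ) (g : XS n) : AA lam (sy κ pm g) = sy κ pm (AA lam g) := by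
  funext e
  simp only [P146.AA, h.av, h.xx, sy, av_cmul]

theorem Sy.MM (h : Sy κ pm ϖ) (u : XS n) : MM lam c s (sy κ pm u) = sy κ pm (MM lam c s u) := by
  funext e
  rw [P146.MM, mp_int h.mp (f := fun t => P146.AA lam (c • sy κ pm u + s • t) e)
    (Continuous.measurable (by fun_prop))]
  simp only [← sy_lin, h.AA]
  simp only [sy, P146.MM, integral_const_mul]

/-- exchange of the sites `0` and `i` -/
theorem sy_swap (i : Fin (n + 1)) : Sy (n := n) (fun _ => 1)
    (Equiv.prodCongr (Equiv.swap 0 i) (Equiv.swap 0 i))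
    (Equiv.arrowCongr (Equiv.swap 0 i) (Equiv.refl Bool)) :=
  ⟨fun _ => one_mul 1, fun σ => by
    funext e
    simp [XX, op, xs, sy, Equiv.arrowCongr_apply]⟩

/-- sign of the gauge flip -/
def kf (i : Fin (n + 1)) : ℝ := if i = 0 then -1 else 1

def flipC : Equiv.Perm (Cf n) :=
  Function.Involutive.toPerm (fun σ => Function.update σ 0 (!σ 0)) fun σ => by simp

theorem flipC_apply (σ : Cf n) : flipC σ = Function.update σ 0 (!σ 0) := rfl

theorem flip_xs (σ : Cf n) (i : Fin (n + 1)) : xs (flipC σ) i = kf i * xs σ i := by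
  simp only [xs, flipC_apply, kf]
  by_cases hi : i = 0
  · subst hi; simp [spin_not, neg_div]
  · simp [hi]

def kF : XS n := fun e => kf e.1 * kf e.2

theorem sy_flip : Sy (n := n) kF (Equiv.refl _) flipC :=
  ⟨fun e => by unfold kF kf; split_ifs <;> norm_num, fun σ => by
    funext e
    simp only [XX, op, flip_xs, sy, kF, Equiv.refl_apply]
    ring⟩

theorem flip_VV (g : XS n) {j : Fin (n + 1)} (hj : j ≠ 0) :
    VV lam (sy kF (Equiv.refl _) g) j = -VV lam g j := by
  simp only [VV, sy_flip.av, flip_xs, kf, if_neg hj, one_mul]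
  have e : ∀ σ : Cf n, spin (flipC σ 0) = -spin (σ 0) := fun σ => by
    simp [flipC_apply, spin_not]
  simp only [e, neg_mul]
  simpa using av_cmul (a := fe lam XX) (g := g) (-1) fun σ => spin (σ 0) * xs σ j

theorem flip_mix (u γ : XS n) :
    sy kF (Equiv.refl _) (mix row u γ) = mix row u (sy kF (Equiv.refl _) γ) := by
  funext e
  show kF e * mix row u γ e = mix row u (fun e => kF e * γ e) e
  by_cases h : row e
  · simp only [mix, if_pos h]
  · simp only [mix, if_neg h]
    simp only [row, not_or] at h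
    simp [kF, kf, h.1, h.2]

theorem flip_zero : sy kF (Equiv.refl _) (0 : XS n) = 0 := by
  funext e; simp [sy]

theorem VV_zero (g : XS n) : VV lam g 0 = 1 / √(n + 1) := by
  have e : (fun σ : Cf n => spin (σ 0) * xs σ 0) = fun _ => 1 / √(n + 1) := by
    funext σ; rw [xs, ← mul_div_assoc, spin_sq]
  rw [VV, e, av_const]

theorem XX_zero (σ : Cf n) (k : Fin (n + 1)) :
    XX σ (0, k) = (1 / √(n + 1)) * (spin (σ 0) * xs σ k) := by
  simp only [XX, op, xs]; ring

theorem XX_zero' (σ : Cf n) (k : Fin (n + 1)) :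
    XX σ (k, 0) = (1 / √(n + 1)) * (spin (σ 0) * xs σ k) := by
  simp only [XX, op, xs]; ring

theorem VV_row (g g' : XS n) :
    VV lam g ⬝ᵥ VV lam g' = (n + 1) * ∑ j, AA lam g (0, j) * AA lam g' (0, j) := by
  simp only [AA, XX_zero, av_cmul, dotProduct, Finset.mul_sum, VV]
  refine Finset.sum_congr rfl fun j _ => ?_
  have h := mul_self_sqrt (Np n).le
  have h0 : √((n : ℝ) + 1) ≠ 0 := (sqrt_pos.2 (Np n)).ne'
  field_simp
  rw [sq, h]

theorem cv_CC (g : XS n) (j k : Fin (n + 1)) :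
    cv (fe lam XX) g (fun σ => spin (σ 0) * xs σ j) (fun σ => spin (σ 0) * xs σ k) =
      CC lam g (j, k) := by
  have e : (fun σ : Cf n => spin (σ 0) * xs σ j * (spin (σ 0) * xs σ k)) = fun σ => XX σ (j, k) := by
    funext σ
    simp only [XX, op]
    linear_combination (xs σ j * xs σ k) * spin_sq (σ 0)
  rw [cv, e]
  rfl

/-- indicator of the cavity row, scaled -/
def dr (c : ℝ) : XS n := mix row 0 fun _ => c

theorem aff_mix (u η γ : XS n) :
    c • mix row u γ + s • η = (c • mix row u 0 + s • η) + dr c * γ := by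
  funext e
  simp only [Pi.add_apply, Pi.smul_apply, Pi.mul_apply, smul_eq_mul, dr, mix]
  split_ifs
  · simp only [Pi.zero_apply]; ring
  · simp

/-- gradient of the cavity vector in the cavity row -/
def gV (lam c : ℝ) (g : XS n) (j : Fin (n + 1)) : XS n :=
  dr c * fun e => lam * cv (fe lam XX) g (fun σ => spin (σ 0) * xs σ j) (fun σ => XX σ e)

theorem c1_VV (hl : 0 ≤ lam) (hc : |c| ≤ 1) (u η : XS n) (j : Fin (n + 1)) {w : ℝ} (hw : |w| ≤ 1) :
    C1 (fun γ => w * VV lam (c • mix row u γ + s • η) j)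
      (fun γ => w • gV lam c (c • mix row u γ + s • η) j) (1 + 2 * lam) := by
  have hb : ∀ σ : Cf n, |spin (σ 0) * xs σ j| ≤ 1 := fun σ => by
    rw [abs_mul]
    exact mul_le_one₀ (abs_spin _) (abs_nonneg _) (abs_coord_le (xs_dot σ).le j)
  have h := (c1_av XX_dot hl hb).aff (c • mix row u 0 + s • η) (d := dr c) (fun e => by
    unfold dr mix; split_ifs <;> simp [hc]) hw
  simp only [← aff_mix] at h
  exact h

theorem gV_dot (g g' : XS n) : ∑ j, gV lam c g j ⬝ᵥ gV lam c g' j =
    c ^ 2 * (2 * lam ^ 2 / (n + 1)) * (CC lam g ⬝ᵥ CC lam g') := by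
  have h := mul_self_sqrt (Np n).le
  have h0 : √((n : ℝ) + 1) ≠ 0 := (sqrt_pos.2 (Np n)).ne'
  have e1 : ∀ j, gV lam c g j ⬝ᵥ gV lam c g' j =
      c ^ 2 * (2 * lam ^ 2 / (n + 1)) * ∑ k, CC lam g (j, k) * CC lam g' (j, k) := by
    intro j
    set φ : Ix n → ℝ := fun e => c ^ 2 * lam ^ 2 *
      (cv (fe lam XX) g (fun σ => spin (σ 0) * xs σ j) (fun σ => XX σ e) *
        cv (fe lam XX) g' (fun σ => spin (σ 0) * xs σ j) (fun σ => XX σ e)) with hφ
    have e2 : gV lam c g j ⬝ᵥ gV lam c g' j = ∑ e, if row e then φ e else 0 := by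
      refine Finset.sum_congr rfl fun e _ => ?_
      simp only [gV, dr, mix, Pi.mul_apply, hφ]
      split_ifs
      · ring
      · simp
    have e3 : ∀ k, φ (0, k) = c ^ 2 * lam ^ 2 / (n + 1) * (CC lam g (j, k) * CC lam g' (j, k)) := by
      intro k
      simp only [hφ, XX_zero, cv_cmul, cv_CC]
      field_simp
      rw [sq (√_), h]
    have e4 : ∀ k, φ (k, 0) = c ^ 2 * lam ^ 2 / (n + 1) * (CC lam g (j, k) * CC lam g' (j, k)) := by
      intro k
      simp only [hφ, XX_zero', cv_cmul, cv_CC]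
      field_simp
      rw [sq (√_), h]
    have e5 : φ (0, 0) = 0 := by
      have e6 : (fun σ : Cf n => XX σ (0, 0)) = fun _ => 1 / ((n : ℝ) + 1) := by
        funext σ; exact xs_mul σ 0
      simp only [hφ, e6, cv_const, mul_zero]
    rw [e2, row_sum e5]
    simp only [e3, e4, ← Finset.mul_sum]
    ring
  simp only [e1, ← Finset.mul_sum]
  simp only [dotProduct, Fintype.sum_prod_type]

end

end Vale.Agent.P146
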