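import Vale.Agent.P146.Gauss2

/-! P146: thermal concentration, stability under resampling, removal of a few couplings. -/

open MeasureTheory ProbabilityTheory Real P157
open scoped BigOperators Matrix

namespace Vale.Agent.P146

noncomputable section

variable {S ι : Type} [Fintype S] [Nonempty S] [Fintype ι]

theorem C1.aff {f : (ι → ℝ) → ℝ} {f' : (ι → ℝ) → ι → ℝ} {K : ℝ} (hf : C1 f f' K) (h : ι → ℝ)
    {d : ι → ℝ} (hd : ∀ e, |d e| ≤ 1) {w : ℝ} (hw : |w| ≤ 1) :
    C1 (fun z => w * f (h + d * z)) (fun z => w • (d * f' (h + d * z))) K := by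
  have hc := hf.cont
  have hc' := hf.cont'
  refine ⟨by fun_prop, by fun_prop, fun z => ?_, fun z e => ?_, fun G G' t hG => ?_⟩
  · rw [abs_mul]
    exact (mul_le_of_le_one_left (abs_nonneg _) hw).trans (hf.bd _)
  · simp only [Pi.smul_apply, Pi.mul_apply, smul_eq_mul, abs_mul]
    exact (mul_le_of_le_one_left (by positivity) hw).trans
      ((mul_le_of_le_one_left (abs_nonneg _) (hd e)).trans (hf.bd' _ _))
  · have h1 : HasDerivAt (fun t => h + d * G t) (d * G') t :=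
      (hasDerivAt_pi.2 fun e => ((hasDerivAt_pi.1 hG e).const_mul (d e))).const_add h
    refine ((hf.der _ _ _ h1).const_mul w).congr_deriv ?_
    simp only [dotProduct, Pi.smul_apply, Pi.mul_apply, smul_eq_mul, Finset.mul_sum]
    exact Finset.sum_congr rfl fun e _ => by ring

theorem abs_coord_le {y : ι → ℝ} (hy : y ⬝ᵥ y ≤ 1) (e : ι) : |y e| ≤ 1 := by
  rw [← sq_le_one_iff_abs_le_one, sq]
  exact (Finset.single_le_sum (f := fun e => y e * y e) (fun _ _ => mul_self_nonneg _)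
    (Finset.mem_univ e)).trans hy

variable {x : S → ι → ℝ} {lam : ℝ}

/-- features -/
def fe (lam : ℝ) (x : S → ι → ℝ) : S → ι → ℝ := fun σ => lam • x σ

theorem c1_av (hx : ∀ σ, x σ ⬝ᵥ x σ ≤ 1) (hl : 0 ≤ lam) {b : S → ℝ} (hb : ∀ σ, |b σ| ≤ 1) :
    C1 (fun z => av (fe lam x) z b)
      (fun z e => lam * cv (fe lam x) z b (fun σ => x σ e)) (1 + 2 * lam) := by
  refine ⟨cont_av _ continuous_id fun _ => continuous_const,
    continuous_pi fun e => continuous_const.mul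
      (cont_cv _ continuous_id (fun _ => continuous_const) fun _ => continuous_const),
    fun z => (abs_av_le hb).trans (by linarith), fun z e => ?_, fun G G' t hG => ?_⟩
  · rw [abs_mul, abs_of_nonneg hl]
    have := abs_cv_bd (a := fe lam x) (g := z) hb fun σ => abs_coord_le (hx σ) e
    nlinarith
  · refine (der_av b hG).congr_deriv ?_
    simp only [fe, smul_dotProduct, smul_eq_mul, cv_cmul, cv_dot]
    simp only [dotProduct, Finset.mul_sum, mul_assoc]

/-- test observable -/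
def ob (x : S → ι → ℝ) (B : ι → ℝ) : S → ℝ := fun σ => x σ ⬝ᵥ B

omit [Fintype S] [Nonempty S] in
theorem abs_ob (hx : ∀ σ, x σ ⬝ᵥ x σ ≤ 1) {B : ι → ℝ} (hB : B ⬝ᵥ B ≤ 1) (σ : S) :
    |ob x B σ| ≤ 1 := abs_dot_le_one (hx σ) hB

/-- thermal variance -/
def tv (lam : ℝ) (x : S → ι → ℝ) (g B : ι → ℝ) : ℝ := cv (fe lam x) g (ob x B) (ob x B)

/-- thermal mean -/
def tm (lam : ℝ) (x : S → ι → ℝ) (g B : ι → ℝ) : ℝ := av (fe lam x) g (ob x B)

section cont
variable {α : Type} [TopologicalSpace α] {G B : α → ι → ℝ}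
@[fun_prop] theorem cont_tv (hG : Continuous G) (hB : Continuous B) :
    Continuous fun y => tv lam x (G y) (B y) :=
  cont_cv _ hG (fun _ => by unfold ob; fun_prop) fun _ => by unfold ob; fun_prop
@[fun_prop] theorem cont_tm (hG : Continuous G) (hB : Continuous B) :
    Continuous fun y => tm lam x (G y) (B y) :=
  cont_av _ hG fun _ => by unfold ob; fun_prop
end cont

theorem tv_nonneg (g B : ι → ℝ) : 0 ≤ tv lam x g B := cv_self_nonneg _

theorem abs_tv (hx : ∀ σ, x σ ⬝ᵥ x σ ≤ 1) (g : ι → ℝ) {B : ι → ℝ} (hB : B ⬝ᵥ B ≤ 1) :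
    |tv lam x g B| ≤ 2 := by
  simpa [tv] using abs_cv_bd (a := fe lam x) (g := g) (abs_ob hx hB) (abs_ob hx hB)

theorem abs_tm (hx : ∀ σ, x σ ⬝ᵥ x σ ≤ 1) (g : ι → ℝ) {B : ι → ℝ} (hB : B ⬝ᵥ B ≤ 1) :
    |tm lam x g B| ≤ 1 := abs_av_le (abs_ob hx hB)

/-- thermal concentration -/
theorem therm (hx : ∀ σ, x σ ⬝ᵥ x σ ≤ 1) (hl : 0 < lam) (h : ι → ℝ) {s : ℝ} (hs : 0 < s)
    {B : ι → ℝ} (hB : B ⬝ᵥ B ≤ 1) : ∫ η, tv lam x (h + s • η) B ∂gp ι ≤ 1 / (s * lam) := by
  have hc := c1_av hx hl.le (abs_ob hx hB)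
  have key := ibp_vec hc B h s
  have e : ∀ z, B ⬝ᵥ (fun e => lam * cv (fe lam x) z (ob x B) (fun σ => x σ e)) =
      lam * tv lam x z B := fun z => by
    have := cv_dot (a := fe lam x) (g := z) (ob x B) x B
    rw [show tv lam x z B = _ from this]
    simp only [dotProduct, Finset.mul_sum]
    exact Finset.sum_congr rfl fun e _ => by ring
  simp only [e] at key
  rw [integral_const_mul] at key
  have h1 : ∫ b, (B ⬝ᵥ b) * av (fe lam x) (h + s • b) (ob x B) ∂gp ι ≤ ∫ b, |B ⬝ᵥ b| ∂gp ι := by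
    have hcc := hc.cont
    have i1 : Integrable (fun b => B ⬝ᵥ b) (gp ι) := (ibp0_memLp B).integrable one_le_two
    refine integral_mono (i1.mul_bdd (c := 1 + 2 * lam) (Continuous.aestronglyMeasurable
      (hcc.comp (by fun_prop))) (ae_of_all _ fun b => hc.bd _)) i1.abs fun b => ?_
    refine (le_abs_self _).trans ?_
    rw [abs_mul]
    exact mul_le_of_le_one_right (abs_nonneg _) (abs_av_le (abs_ob hx hB))
  have h2 := (gp_abs_dot B).trans (sqrt_le_one.2 hB)
  rw [le_div_iff₀ (by positivity)]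
  nlinarith

/-- stability under resampling of a small part of the disorder -/
theorem stab (hx : ∀ σ, x σ ⬝ᵥ x σ ≤ 1) (hl : 0 < lam) (h : ι → ℝ) {s : ℝ} (hs : |s| ≤ 1)
    {B : ι → ℝ} (hB : B ⬝ᵥ B ≤ 1) {κ : ℝ} (hκ : 0 < κ) :
    ∫ η, |tm lam x (h + s • η) B - ∫ t, tm lam x (h + s • t) B ∂gp ι| ∂gp ι ≤
      (2 * (s * lam) ^ 2 * (∫ η, tv lam x (h + s • η) B ∂gp ι) / κ + κ) / 2 := by
  have hc := (c1_av hx hl.le (abs_ob hx hB)).aff h (d := fun _ => s) (fun _ => hs) (w := 1)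
    (by simp)
  have e0 : ∀ z : ι → ℝ, (fun _ => s) * z = s • z := fun z => rfl
  simp only [one_mul, one_smul, e0] at hc
  have h1 := l1_le (P := gp ι) hc.cont.measurable hc.bd hκ
  have h2 := poincare hc
  refine h1.trans ?_
  gcongr
  refine h2.trans ?_
  rw [mul_assoc, ← integral_const_mul ((s * lam) ^ 2)]
  refine mul_le_mul_of_nonneg_left ?_ zero_le_two
  have hcc := hc.cont'
  refine integral_mono (int_bd (Continuous.measurable (by fun_prop))
    fun z => abs_dot_le' (hc.bd' z) (hc.bd' z))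
    ((int_bd (Continuous.measurable (by fun_prop)) fun z => abs_tv hx _ hB).const_mul _) fun z => ?_
  have h3 := cv_vec_le (a := fe lam x) (g := h + s • z) (ob x B) hx
  have e : (s • fun e => lam * cv (fe lam x) (h + s • z) (ob x B) fun σ => x σ e) =
      (s * lam) • fun e => cv (fe lam x) (h + s • z) (ob x B) fun σ => x σ e := by
    funext e; simp only [Pi.smul_apply, smul_eq_mul, mul_assoc]
  simp only [e, smul_dotProduct, dotProduct_smul, smul_eq_mul]
  rw [← mul_assoc, ← sq]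
  exact mul_le_mul_of_nonneg_left h3 (sq_nonneg _)

/-- replica algebra -/
theorem q_alg {a : S → ι → ℝ} {g : ι → ℝ} {Y Z ε : S → ℝ} (hY : ∀ σ, |Y σ| ≤ 1)
    (hZ : ∀ σ, |Z σ| ≤ 1) (hε : ∀ σ, |ε σ| ≤ 1) {κ : ℝ} (hκ : 0 < κ) :
    |av a g (fun σ => Y σ * Y σ) * av a g (fun σ => ε σ * Z σ) ^ 2 -
      av a g (fun σ => Z σ * Z σ) * av a g (fun σ => ε σ * Y σ) ^ 2| ≤
      (cv a g (fun σ => Y σ * Y σ) (fun σ => Y σ * Y σ) +
        2 * cv a g (fun σ => Y σ * Z σ) (fun σ => Y σ * Z σ) +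
        cv a g (fun σ => Z σ * Z σ) (fun σ => Z σ * Z σ)) / (2 * κ) + 2 * κ := by
  have m1 : ∀ {U W : S → ℝ}, (∀ σ, |U σ| ≤ 1) → (∀ σ, |W σ| ≤ 1) → ∀ σ, |U σ * W σ| ≤ 1 :=
    fun hU hW σ => by rw [abs_mul]; exact mul_le_one₀ (hU σ) (abs_nonneg _) (hW σ)
  have h1 := abs_cv_le_one (a := a) (g := g) hκ (fun σ => Y σ * Y σ) (m1 hε hZ)
  have h2 := abs_cv_le_one (a := a) (g := g) hκ (fun σ => Y σ * Z σ) (m1 hε hY)
  have h3 := abs_cv_le_one (a := a) (g := g) hκ (fun σ => Y σ * Z σ) (m1 hε hZ)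
  have h4 := abs_cv_le_one (a := a) (g := g) hκ (fun σ => Z σ * Z σ) (m1 hε hY)
  have b1 := abs_av_le (a := a) (g := g) (m1 hε hZ)
  have b2 := abs_av_le (a := a) (g := g) (m1 hε hY)
  have e1 : (fun σ => Y σ * Y σ * (ε σ * Z σ)) = fun σ => Y σ * Z σ * (ε σ * Y σ) := by
    funext σ; ring
  have e2 : (fun σ => Y σ * Z σ * (ε σ * Z σ)) = fun σ => Z σ * Z σ * (ε σ * Y σ) := by
    funext σ; ring
  set v1 := cv a g (fun σ => Y σ * Y σ) (fun σ => Y σ * Y σ)
  set v2 := cv a g (fun σ => Y σ * Z σ) (fun σ => Y σ * Z σ)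
  set v3 := cv a g (fun σ => Z σ * Z σ) (fun σ => Z σ * Z σ)
  have e : av a g (fun σ => Y σ * Y σ) * av a g (fun σ => ε σ * Z σ) ^ 2 -
      av a g (fun σ => Z σ * Z σ) * av a g (fun σ => ε σ * Y σ) ^ 2 =
      av a g (fun σ => ε σ * Z σ) * (cv a g (fun σ => Y σ * Z σ) (fun σ => ε σ * Y σ) -
        cv a g (fun σ => Y σ * Y σ) (fun σ => ε σ * Z σ)) +
      av a g (fun σ => ε σ * Y σ) * (cv a g (fun σ => Z σ * Z σ) (fun σ => ε σ * Y σ) -
        cv a g (fun σ => Y σ * Z σ) (fun σ => ε σ * Z σ)) := by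
    simp only [cv, e1, e2]
    ring
  rw [e]
  refine (abs_add_le _ _).trans ?_
  rw [abs_mul, abs_mul]
  have t1 := (mul_le_of_le_one_left (abs_nonneg _) b1).trans (abs_sub
    (cv a g (fun σ => Y σ * Z σ) (fun σ => ε σ * Y σ))
    (cv a g (fun σ => Y σ * Y σ) (fun σ => ε σ * Z σ)))
  have t2 := (mul_le_of_le_one_left (abs_nonneg _) b2).trans (abs_sub
    (cv a g (fun σ => Z σ * Z σ) (fun σ => ε σ * Y σ))
    (cv a g (fun σ => Y σ * Z σ) (fun σ => ε σ * Z σ)))
  have e3 : (v1 + 2 * v2 + v3) / (2 * κ) + 2 * κ =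
      (v1 / κ + κ) / 2 + (v2 / κ + κ) / 2 + (v2 / κ + κ) / 2 + (v3 / κ + κ) / 2 := by
    field_simp; ring
  rw [e3]
  linarith

/-- replace the coordinates in `r` -/
def mix (r : ι → Prop) [DecidablePred r] (u γ : ι → ℝ) : ι → ℝ := fun e => if r e then γ e else u e

variable {r : ι → Prop} [DecidablePred r]

omit [Fintype ι] in
@[fun_prop] theorem cont_mix {α : Type} [TopologicalSpace α] {U G : α → ι → ℝ} (hU : Continuous U)
    (hG : Continuous G) : Continuous fun y => mix r (U y) (G y) := by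
  refine continuous_pi fun e => ?_
  unfold mix
  split_ifs <;> fun_prop

omit [Fintype ι] in
@[simp] theorem mix_mix (u γ γ' : ι → ℝ) : mix r (mix r u γ) γ' = mix r u γ' := by
  funext e; unfold mix; split_ifs <;> rfl

omit [Fintype ι] in
@[simp] theorem mix_mix' (u u' γ : ι → ℝ) : mix r u (mix r u' γ) = mix r u γ := by
  funext e; unfold mix; split_ifs <;> rfl

theorem mp_mix : MeasurePreserving (fun p : (ι → ℝ) × (ι → ℝ) => mix r p.1 p.2)
    ((gp ι).prod (gp ι)) (gp ι) := gp_mix r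

/-- the weight in the tilting bound -/
def xi (lam : ℝ) (x : S → ι → ℝ) (r : ι → Prop) [DecidablePred r] (c s : ℝ) (u t : ι → ℝ) : ℝ :=
  av (fe lam x) (c • mix r u 0 + s • t) (fun σ => exp (4 * (fe lam x σ ⬝ᵥ c • mix r 0 u)) +
    exp (-4 * (fe lam x σ ⬝ᵥ c • mix r 0 u)))

omit [Fintype S] [Nonempty S] in
theorem xi_dot (k c : ℝ) (σ : S) (u : ι → ℝ) :
    k * (fe lam x σ ⬝ᵥ c • mix r 0 u) = ((k * c * lam) • mix r 0 (x σ)) ⬝ᵥ u := by
  simp only [fe, dotProduct, Finset.mul_sum, Pi.smul_apply, smul_eq_mul, mix]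
  refine Finset.sum_congr rfl fun e _ => ?_
  split_ifs
  · ring
  · simp

theorem xi_cont (c s : ℝ) :
    Continuous fun p : (ι → ℝ) × (ι → ℝ) => xi lam x r c s p.1 p.2 :=
  cont_av _ (by fun_prop) fun σ => by fun_prop

theorem xi_dom (c s : ℝ) : ∃ D : (ι → ℝ) → ℝ, Integrable D (gp ι) ∧
    ∀ u t, |xi lam x r c s u t| ≤ D u := by
  refine ⟨fun u => ∑ σ, (exp (4 * (fe lam x σ ⬝ᵥ c • mix r 0 u)) +
    exp (-4 * (fe lam x σ ⬝ᵥ c • mix r 0 u))), ?_, fun u t => ?_⟩
  · simp only [xi_dot]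
    exact integrable_finsetSum _ fun σ _ =>
      (gp_integrable_exp_dot _).add (gp_integrable_exp_dot _)
  · unfold xi
    rw [abs_of_nonneg (av_nonneg fun σ => add_nonneg (exp_pos _).le (exp_pos _).le)]
    exact av_le_sum fun σ => add_nonneg (exp_pos _).le (exp_pos _).le

theorem xi_int {ϱ c : ℝ} (hr : ∀ σ, mix r 0 (x σ) ⬝ᵥ mix r 0 (x σ) ≤ ϱ) (hc : |c| ≤ 1) (s : ℝ)
    (t : ι → ℝ) : ∫ u, xi lam x r c s u t ∂gp ι ≤ 2 * exp (8 * lam ^ 2 * ϱ) := by
  obtain ⟨D, hD, hb⟩ := xi_dom (lam := lam) (x := x) (r := r) c s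
  have hm : Measurable fun u => xi lam x r c s u t :=
    ((xi_cont c s).comp (Continuous.prodMk_left t)).measurable
  have i0 : Integrable (fun u => xi lam x r c s u t) (gp ι) :=
    hD.mono' hm.aestronglyMeasurable (ae_of_all _ fun u => hb u t)
  have i1 := (mp_mix (r := r)).integrable_comp_of_integrable i0
  rw [mp_int (mp_mix (r := r)) hm]
  refine (integral_prod _ i1).trans_le ?_
  have key : ∀ u, ∫ γ, xi lam x r c s (mix r u γ) t ∂gp ι ≤ 2 * exp (8 * lam ^ 2 * ϱ) := by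
    intro u
    simp only [xi, mix_mix, mix_mix', xi_dot, av]
    have i2 : ∀ σ, Integrable (fun γ => gw (fe lam x) (c • mix r u 0 + s • t) σ *
        (exp (((4 * c * lam) • mix r 0 (x σ)) ⬝ᵥ γ) + exp (((-4 * c * lam) • mix r 0 (x σ)) ⬝ᵥ γ)))
        (gp ι) := fun σ => ((gp_integrable_exp_dot _).add (gp_integrable_exp_dot _)).const_mul _
    rw [integral_finsetSum _ fun σ _ => i2 σ]
    refine av_le (a := fe lam x) (g := c • mix r u 0 + s • t) (b := fun σ => 2 * exp (8 * lam ^ 2 * ϱ))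
      (fun _ => le_rfl) |>.trans' (Finset.sum_le_sum fun σ _ => ?_)
    rw [integral_const_mul, integral_add (gp_integrable_exp_dot _) (gp_integrable_exp_dot _),
      gp_exp_dot, gp_exp_dot]
    refine mul_le_mul_of_nonneg_left ?_ (gw_pos _ _ _).le
    have hc2 : c ^ 2 ≤ 1 := by rwa [sq_le_one_iff_abs_le_one]
    have h0 := dot_self_nn (mix r 0 (x σ))
    have h1 : ∀ k : ℝ, k ^ 2 = 16 → exp (((k * c * lam) • mix r 0 (x σ)) ⬝ᵥ
        ((k * c * lam) • mix r 0 (x σ)) / 2) ≤ exp (8 * lam ^ 2 * ϱ) := fun k hk => by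
      rw [smul_dotProduct, dotProduct_smul, smul_eq_mul, smul_eq_mul]
      refine exp_le_exp.2 ?_
      have e : k * c * lam * (k * c * lam * (mix r 0 (x σ) ⬝ᵥ mix r 0 (x σ))) / 2 =
          8 * lam ^ 2 * (c ^ 2 * (mix r 0 (x σ) ⬝ᵥ mix r 0 (x σ))) := by
        linear_combination (c ^ 2 * lam ^ 2 * (mix r 0 (x σ) ⬝ᵥ mix r 0 (x σ)) / 2) * hk
      rw [e]
      exact mul_le_mul_of_nonneg_left ((mul_le_of_le_one_left h0 hc2).trans (hr σ)) (by positivity)
    have := h1 4 (by norm_num)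
    have := h1 (-4) (by norm_num)
    linarith
  refine (integral_mono i1.integral_prod_left (integrable_const _) key).trans_eq (by simp)

/-- removing the couplings in `r` hardly changes thermal means -/
theorem rr1 (hx : ∀ σ, x σ ⬝ᵥ x σ ≤ 1) (hl : 0 < lam) {ϱ c s κ : ℝ}
    (hr : ∀ σ, mix r 0 (x σ) ⬝ᵥ mix r 0 (x σ) ≤ ϱ) (hc : |c| ≤ 1) (hs : 0 < s) (hκ : 0 < κ)
    {Ω : Type} [MeasurableSpace Ω] [TopologicalSpace Ω] [OpensMeasurableSpace Ω]
    [SecondCountableTopology Ω] {P : Measure Ω}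
    [IsProbabilityMeasure P] {U B : Ω → ι → ℝ} (hU : MeasurePreserving U P (gp ι))
    (cU : Continuous U) (cB : Continuous B) (hB : ∀ ω, B ω ⬝ᵥ B ω ≤ 1) :
    ∫ ω, ∫ t, |tm lam x (c • U ω + s • t) (B ω) - tm lam x (c • mix r (U ω) 0 + s • t) (B ω)|
      ∂gp ι ∂P ≤ (1 / (s * lam) / κ + κ * (2 * exp (8 * lam ^ 2 * ϱ))) / 2 := by
  obtain ⟨D, hD, hb⟩ := xi_dom (lam := lam) (x := x) (r := r) c s
  have hxc := xi_cont (lam := lam) (x := x) (r := r) c s
  have i0 : Integrable (fun p : (ι → ℝ) × (ι → ℝ) => xi lam x r c s p.1 p.2)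
      ((gp ι).prod (gp ι)) :=
    (hD.comp_fst (gp ι)).mono' hxc.aestronglyMeasurable (ae_of_all _ fun p => hb _ _)
  have mE : Measurable fun u => ∫ t, xi lam x r c s u t ∂gp ι := meas_int hxc.measurable
  have hE : ∫ ω, ∫ t, xi lam x r c s (U ω) t ∂gp ι ∂P ≤ 2 * exp (8 * lam ^ 2 * ϱ) := by
    rw [← mp_int hU mE, integral_integral_swap i0]
    exact (integral_mono i0.integral_prod_right (integrable_const _)
      fun t => xi_int hr hc s t).trans_eq (by simp)
  have iE : Integrable (fun ω => ∫ t, xi lam x r c s (U ω) t ∂gp ι) P :=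
    hU.integrable_comp_of_integrable i0.integral_prod_left
  have key : ∀ ω, ∫ t, |tm lam x (c • U ω + s • t) (B ω) -
      tm lam x (c • mix r (U ω) 0 + s • t) (B ω)| ∂gp ι ≤
      (1 / (s * lam) / κ + κ * ∫ t, xi lam x r c s (U ω) t ∂gp ι) / 2 := by
    intro ω
    have i1 : Integrable (fun t => tv lam x (c • mix r (U ω) 0 + s • t) (B ω)) (gp ι) :=
      int_bd (Continuous.measurable (by fun_prop)) fun t => abs_tv hx _ (hB ω)
    have i2 : Integrable (fun t => xi lam x r c s (U ω) t) (gp ι) :=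
      int_bd (hxc.comp (Continuous.prodMk_right (U ω))).measurable fun t => hb _ _
    have h1 := integral_mono_of_nonneg (μ := gp ι) (ae_of_all _ fun t => abs_nonneg
      (tm lam x (c • U ω + s • t) (B ω) - tm lam x (c • mix r (U ω) 0 + s • t) (B ω)))
      (((i1.div_const κ).add (i2.const_mul κ)).div_const 2) (ae_of_all _ fun t => by
        have e : c • U ω + s • t = (c • mix r (U ω) 0 + s • t) + c • mix r 0 (U ω) := by
          funext e
          simp only [Pi.add_apply, Pi.smul_apply, smul_eq_mul, mix]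
          split_ifs <;> simp
          ring
        simp only [Pi.add_apply]
        rw [e]
        exact tilt_le hκ _ _ _)
    refine h1.trans ?_
    simp only [Pi.add_apply]
    rw [integral_div, integral_add (i1.div_const κ) (i2.const_mul κ), integral_div,
      integral_const_mul]
    gcongr
    exact therm hx hl _ hs (hB ω)
  refine (integral_mono_of_nonneg (ae_of_all _ fun ω => integral_nonneg fun t => abs_nonneg _)
    (((integrable_const _).add (iE.const_mul κ)).div_const 2) (ae_of_all _ key)).trans ?_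
  simp only [Pi.add_apply]
  rw [integral_div, integral_add (integrable_const _) (iE.const_mul κ), integral_const_mul]
  simp only [integral_const, probReal_univ, one_smul]
  gcongr

end

end Vale.Agent.P146
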