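import Vale.Agent.P146.Chain2

/-! P146: decay of the overlap of correlated systems and the variance of the matrix model. -/

open MeasureTheory ProbabilityTheory Real P157 Function
open scoped BigOperators Matrix

namespace Vale.Agent.P146

noncomputable section

variable {n : ℕ} {lam c s a κ : ℝ}

/-- mean squared overlap of two correlated systems -/
def yy (n : ℕ) (lam α : ℝ) : ℝ := ∫ p, AA lam (c1 α p) ⬝ᵥ AA lam (c2 α p) ∂g3 (Ix n)

theorem rs {α : ℝ} (h1 : sin α = c * sin a) (h2 : (c * cos a) ^ 2 + s ^ 2 = cos α ^ 2)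
    (h3 : 0 ≤ c * cos a) (h4 : 0 ≤ s) (h5 : 0 ≤ cos α) {k : Fin 8} (h0k : 0 ≠ k)
    {B : Om n → XS n} (cB : Continuous B) (hB : ∀ ω, B ω ⬝ᵥ B ω ≤ 1)
    (iB : ∀ ω t, B (update ω k t) = B ω) :
    ∫ ω, MM lam c s (cb a (ω 0) (ω k)) ⬝ᵥ B ω ∂PP n =
      ∫ ω, AA lam (cb α (ω 0) (ω k)) ⬝ᵥ B ω ∂PP n := by
  rw [res1 k (b_M (by fun_prop) cB hB), res1 k (b_A (by fun_prop) cB hB)]
  simp only [iB, update_self, update_of_ne h0k, MM_dot]
  refine integral_congr_ae (ae_of_all _ fun ω => ?_)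
  have h := gp_sum h3 h4 h5 h2 (φ := fun z => AA lam (sin α • ω 0 + z) ⬝ᵥ B ω)
    (Continuous.measurable (by fun_prop))
  rw [integral_prod _ (b_A (by fun_prop) continuous_const fun _ => hB ω).int] at h
  simp only [cb, smul_add, smul_smul, add_assoc, ← h1]
  exact h

theorem yy_eq {α : ℝ} (h1 : sin α = c * sin a) (h2 : (c * cos a) ^ 2 + s ^ 2 = cos α ^ 2)
    (h3 : 0 ≤ c * cos a) (h4 : 0 ≤ s) (h5 : 0 ≤ cos α) :
    yy n lam α = ∫ ω, mm lam c s (uu a ω) (vv a ω) ∂PP n := by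
  have m3 : MeasurePreserving (fun ω : Om n => ((ω 0, ω 1), ω 2)) (PP n) (g3 (Ix n)) := by
    refine mp_cancel (mp_upd3 (gp (Ix n)) 0 1 2) (by fun_prop) ?_
    simp only [update_self, ne_eq, Fin.reduceEq, not_false_eq_true, update_of_ne]
    exact measurePreserving_snd
  have s1 := rs (lam := lam) h1 h2 h3 h4 h5 (k := 1) (by decide)
    (B := fun ω : Om n => MM lam c s (vv a ω)) (by fun_prop) (fun _ => (cvx_MM _).nrm)
    fun ω t => by simp [vv]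
  have s2 := rs (lam := lam) h1 h2 h3 h4 h5 (k := 2) (by decide)
    (B := fun ω : Om n => AA lam (cb α (ω 0) (ω 1))) (by fun_prop) (fun _ => (cvx_AA _).nrm)
    fun ω t => by simp
  rw [yy, mp_int m3 (Continuous.measurable (by fun_prop)), s1]
  simp only [dotProduct_comm _ (MM _ _ _ _), vv, s2]
  refine integral_congr_ae (ae_of_all _ fun ω => ?_)
  exact dotProduct_comm _ _

theorem S_le {k : ℝ} (hk : 0 < k) :
    ∫ ω, mm lam c s (uu a ω) (vv a ω) ∂PP n ≤ k + TT n lam c s a / k ^ 2 := by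
  have bS : B1 (fun ω : Om n => mm lam c s (uu a ω) (vv a ω)) 1 := b_MM (by fun_prop) (by fun_prop)
  have bT := (bS.mul1 (b_MM (lam := lam) (c := c) (s := s) (G := uu a) (G' := uu a) (by fun_prop)
    (by fun_prop))).mul1 (b_MM (lam := lam) (c := c) (s := s) (G := vv a) (G' := vv a)
      (by fun_prop) (by fun_prop))
  refine (integral_mono bS.int ((integrable_const k).add (bT.int.div_const (k ^ 2)))
    fun ω => ?_).trans_eq ?_
  · have h0 : 0 ≤ mm lam c s (uu a ω) (vv a ω) := (cvx_MM _).nn (cvx_MM _)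
    have h1 := mul_le_mul_of_nonneg_left
      (dot_sq_le (MM lam c s (uu a ω)) (MM lam c s (vv a ω))) h0
    simp only [Pi.add_apply, mm] at *
    rw [mul_assoc]
    set S := MM lam c s (uu a ω) ⬝ᵥ MM lam c s (vv a ω)
    refine le_trans ?_ (add_le_add le_rfl (div_le_div_of_nonneg_right h1 (sq_nonneg k)))
    rcases le_total S k with h | h
    · exact h.trans (le_add_of_nonneg_right (by positivity))
    · refine le_add_of_nonneg_of_le hk.le ?_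
      rw [le_div_iff₀ (by positivity)]
      gcongr
  · simp only [Pi.add_apply]
    rw [integral_add (integrable_const k) (bT.int.div_const _), integral_div]
    simp [TT]

theorem yy_bd (α : ℝ) : |yy n lam α| ≤ 1 := abs_int_le fun _ => (cvx_AA _).abs (cvx_AA _)

theorem par_ex {α s : ℝ} (hα : α ∈ Set.Ioo 0 (π / 2)) (hs : 0 < s) (h : 2 * s ≤ cos α) :
    ∃ a c : ℝ, 0 < c ∧ c ≤ 1 ∧ 0 ≤ a ∧ a ≤ π / 2 ∧ 0 < cos a ∧ sin α = c * sin a ∧
      (c * cos a) ^ 2 + s ^ 2 = cos α ^ 2 ∧ cos α / 2 ≤ c * cos a ∧ cos α ^ 2 / 2 ≤ cos a ^ 2 := by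
  have hσ : 0 < sin α := sin_pos_of_pos_of_lt_pi hα.1 (by linarith [hα.2, pi_pos])
  have hτ1 := cos_le_one α
  have hsc := sin_sq_add_cos_sq α
  generalize cos α = τ at *
  have hs2 : s ^ 2 ≤ τ ^ 2 / 4 := by nlinarith
  have hc0 : 0 < 1 - s ^ 2 := by nlinarith
  obtain ⟨c, hcp, hc2⟩ : ∃ c : ℝ, 0 < c ∧ c ^ 2 = 1 - s ^ 2 := ⟨_, sqrt_pos.2 hc0, sq_sqrt hc0.le⟩
  have hc1 : c ≤ 1 := by nlinarith
  have hsc1 : sin α / c ≤ 1 := by
    rw [div_le_one hcp]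
    exact (abs_le_of_sq_le_sq' (by nlinarith) hcp.le).2
  have hsa : sin α = c * sin (arcsin (sin α / c)) := by
    rw [sin_arcsin (by linarith [div_pos hσ hcp]) hsc1]; field_simp
  have hca := cos_arcsin_nonneg (sin α / c)
  have a0 := arcsin_nonneg.2 (div_pos hσ hcp).le
  have a1 := arcsin_le_pi_div_two (sin α / c)
  generalize arcsin (sin α / c) = a at *
  have h2 : (c * cos a) ^ 2 + s ^ 2 = τ ^ 2 := by
    have := sin_sq_add_cos_sq a
    rw [hsa] at hsc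
    linear_combination c ^ 2 * this + hc2 - hsc
  have h3 : τ / 2 ≤ c * cos a := (abs_le_of_sq_le_sq' (by nlinarith) (by positivity)).2
  have h4 : 0 < c * cos a := by linarith
  exact ⟨a, c, hcp, hc1, a0, a1, (mul_pos_iff_of_pos_left hcp).1 h4, hsa, h2, h3,
    by nlinarith [mul_nonneg (sq_nonneg s) (sq_nonneg (cos a))]⟩

/-- the constant in the third moment bound -/
def K0 (b : ℝ) : ℝ := 1 + (2 + 16 * b ^ 2) * (2 * b + 1) +
  (8 + 64 * b ^ 2) * (1 / b + exp (16 * b ^ 2)) + 8 * b ^ 2 * (2 / b + 2)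

theorem err_le {b ε τ : ℝ} (hb : 0 < b) (h0 : 0 < ε) (h1 : ε ≤ 1) (hτ : 0 < τ) (hτ1 : τ ≤ 1)
    (hN : (n : ℝ) + 1 = 1 / ε ^ 36) (hp : Par (b / ε ^ 18) c (ε ^ 12) a (ε ^ 3))
    (h3 : τ / 2 ≤ c * cos a) :
    1 / (n + 1) + 2 * e1 (b / ε ^ 18) c (ε ^ 12) a (ε ^ 3) + 8 * e2 n (b / ε ^ 18) (ε ^ 12) (ε ^ 3) +
      bb n (b / ε ^ 18) c * (8 * e1 (b / ε ^ 18) c (ε ^ 12) a (ε ^ 3) +
        32 * e2 n (b / ε ^ 18) (ε ^ 12) (ε ^ 3) + 4 * e3 (b / ε ^ 18) (ε ^ 12) (ε ^ 3)) ≤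
      K0 b * (ε ^ 3 / τ) := by
  have hc := hp.hc
  have hc1 := hp.hc1
  have ha := hp.ha
  have hr1 : ε ^ 3 ≤ ε ^ 3 / τ := le_div_self (by positivity) hτ hτ1
  have t0 : 1 / ((n : ℝ) + 1) ≤ ε ^ 3 / τ := by
    rw [hN, one_div_one_div]
    exact (pow_le_pow_of_le_one h0.le h1 (by norm_num)).trans hr1
  have t1 : e1 (b / ε ^ 18) c (ε ^ 12) a (ε ^ 3) ≤ (2 * b + 1) * (ε ^ 3 / τ) := by
    have e : e1 (b / ε ^ 18) c (ε ^ 12) a (ε ^ 3) = b * ε ^ 3 / (c * cos a) + ε ^ 3 / 2 := by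
      rw [e1]; field_simp
    have : b * ε ^ 3 / (c * cos a) ≤ b * ε ^ 3 / (τ / 2) := by gcongr
    have e' : b * ε ^ 3 / (τ / 2) = 2 * b * (ε ^ 3 / τ) := by field_simp
    linarith [pow_pos h0 3]
  have t2 : e2 n (b / ε ^ 18) (ε ^ 12) (ε ^ 3) ≤ (1 / b + exp (16 * b ^ 2)) * (ε ^ 3 / τ) := by
    have e0 : 8 * (b / ε ^ 18) ^ 2 * (2 / ((n : ℝ) + 1)) = 16 * b ^ 2 := by
      rw [hN]; field_simp; norm_num
    have e : e2 n (b / ε ^ 18) (ε ^ 12) (ε ^ 3) = (1 / b / 2 + exp (16 * b ^ 2)) * ε ^ 3 := by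
      rw [e2, e0]; field_simp
    rw [e]
    exact mul_le_mul (by linarith [one_div_pos.2 hb]) hr1 (by positivity) (by positivity)
  have t3 : e3 (b / ε ^ 18) (ε ^ 12) (ε ^ 3) ≤ (2 / b + 2) * (ε ^ 3 / τ) := by
    have e : e3 (b / ε ^ 18) (ε ^ 12) (ε ^ 3) = (2 / b + 2) * ε ^ 3 := by
      rw [e3]; field_simp
    rw [e]
    gcongr
  have t4 : bb n (b / ε ^ 18) c ≤ 2 * b ^ 2 := by
    have e : bb n (b / ε ^ 18) c = c ^ 2 * (2 * b ^ 2) := by
      rw [bb, hN]; field_simp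
    rw [e]
    exact mul_le_of_le_one_left (by positivity) (by nlinarith)
  have a1 := hp.e1_nn
  have a2 := hp.e2_nn (n := n)
  have a3 := hp.e3_nn
  have := mul_le_mul t4 (add_le_add (add_le_add (mul_le_mul_of_nonneg_left t1 (by norm_num : (0 : ℝ) ≤ 8))
    (mul_le_mul_of_nonneg_left t2 (by norm_num : (0 : ℝ) ≤ 32)))
    (mul_le_mul_of_nonneg_left t3 (by norm_num : (0 : ℝ) ≤ 4))) (by positivity) (by positivity)
  rw [K0]
  linarith

theorem yy_le {b ε α : ℝ} (hb : 0 < b) (h0 : 0 < ε) (h1 : ε ≤ 1) (hN : (n : ℝ) + 1 = 1 / ε ^ 36)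
    (hα : α ∈ Set.Ioo 0 (π / 2)) : cos α * yy n (b / ε ^ 18) α ≤ (2 + 2 * K0 b) * ε := by
  have hK : 0 ≤ K0 b := by unfold K0; positivity
  have hτ : 0 < cos α := cos_pos_of_mem_Ioo ⟨by linarith [hα.1, pi_pos], hα.2⟩
  have p12 : ε ^ 12 ≤ ε := pow_le_of_le_one h0.le h1 (by norm_num)
  have q12 : 0 < ε ^ 12 := by positivity
  have hKe := mul_nonneg hK h0.le
  rcases le_total (cos α) (2 * ε ^ 12) with h | h
  · have := mul_le_mul_of_nonneg_left
      ((le_abs_self _).trans (yy_bd (n := n) (lam := b / ε ^ 18) α)) hτ.le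
    linarith
  obtain ⟨a, c, hc, hc1, a0, a1, ha, hsa, h2, h3, h4⟩ := par_ex hα q12 h
  have hp : Par (b / ε ^ 18) c (ε ^ 12) a (ε ^ 3) :=
    ⟨by positivity, hc, hc1, q12, p12.trans h1, ha, by positivity⟩
  have t5 := (T_le (n := n) hp a0 a1).trans (err_le hb h0 h1 hτ (cos_le_one α) hN hp h3)
  have t7 := S_le (n := n) (lam := b / ε ^ 18) (c := c) (s := ε ^ 12) (a := a) (div_pos h0 hτ)
  rw [← yy_eq hsa h2 (by positivity) q12.le hτ.le] at t7
  generalize TT n (b / ε ^ 18) c (ε ^ 12) a = T at *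
  generalize cos α = τ at *
  have hr : 0 ≤ K0 b * (ε ^ 3 / τ) := by positivity
  have t6 : T ≤ 2 * (K0 b * (ε ^ 3 / τ)) / τ ^ 2 := by
    rw [le_div_iff₀ (by positivity)]
    rcases le_total 0 T with h5 | h5
    · linarith [mul_le_mul_of_nonneg_right h4 h5]
    · linarith [mul_nonneg (neg_nonneg.2 h5) (sq_nonneg τ)]
  have t8 := t7.trans (add_le_add le_rfl (div_le_div_of_nonneg_right t6 (sq_nonneg _)))
  have e : τ * (ε / τ + 2 * (K0 b * (ε ^ 3 / τ)) / τ ^ 2 / (ε / τ) ^ 2) = (1 + 2 * K0 b) * ε := by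
    field_simp
  linarith [mul_le_mul_of_nonneg_left t8 hτ.le]

end

end Vale.Agent.P146
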